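import Vale.Agent.P109.Defs

/-! P109: basic facts on adic systems. -/

namespace Vale.Agent.P109

open MeasureTheory Set Metric Filter Topology
open scoped ENNReal Pointwise

namespace Fam

variable {b D : ℕ → ℕ} (F : Fam b D)

include F in
theorem one_le_b (n : ℕ) : 1 ≤ b n := by
  induction n with
  | zero => rw [F.b0]
  | succ n ih =>
    have := F.step n
    have := F.small n
    omega

include F in
theorem b_le (n : ℕ) : b n ≤ 2 ^ n := by
  induction n with
  | zero => rw [F.b0]; rfl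
  | succ n ih =>
    have := F.step n
    rw [pow_succ]
    omega

theorem sum_lft (n : ℕ) (φ : Fin (2 ^ b n) → ℝ) :
    ∑ y, φ (F.lft n y) = 2 ^ (b n - D n) * ∑ u, φ u := by
  have := (F.e n false).sum_comp (fun p => φ p.1)
  unfold lft
  rw [this, Fintype.sum_prod_type]
  simp [Finset.mul_sum]

theorem sum_rgt (n : ℕ) (φ : Fin (2 ^ b n) → ℝ) :
    ∑ y, φ (F.rgt n y) = 2 ^ (b n - D n) * ∑ u, φ u := by
  have := (F.e n true).sum_comp (fun p => φ p.1)
  unfold rgt
  rw [this, Fintype.sum_prod_type]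
  simp [Finset.mul_sum]

/-- On a free level the two halves are independent. -/
theorem sum_free {n : ℕ} (hD : D n = 0) (φ : Fin (2 ^ b n) → Fin (2 ^ b n) → ℝ) :
    ∑ y, φ (F.lft n y) (F.rgt n y) = ∑ u, ∑ v, φ u v := by
  have hb : Function.Bijective fun y => ((F.e n false y).1, (F.e n true y).1) := by
    refine (Fintype.bijective_iff_injective_and_card _).2 ⟨F.inj n, ?_⟩
    have := F.step n
    simp only [Fintype.card_fin, Fintype.card_prod]
    rw [← pow_add]
    congr 1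
    omega
  rw [← Fintype.sum_prod_type']
  exact hb.sum_comp (fun p => φ p.1 p.2)

/-- Letters are equidistributed. -/
theorem sum_lt (n p : ℕ) (φ : Fin (2 ^ b 0) → ℝ) :
    2 * ∑ y, φ (F.lt n y p) = 2 ^ b n * ∑ c, φ c := by
  induction n generalizing p with
  | zero =>
    have : (2 : ℝ) ^ b 0 = 2 := by rw [F.b0, pow_one]
    rw [this]
    rfl
  | succ n ih =>
    have e : b (n + 1) = (b n - D n) + b n := by
      have := F.step n
      have := F.small n
      omega
    have e' : (2 : ℝ) ^ b (n + 1) = 2 ^ (b n - D n) * 2 ^ b n := by rw [e, pow_add]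
    rw [e', mul_assoc]
    by_cases hp : p < 2 ^ n
    · simp only [lt, if_pos hp]
      rw [F.sum_lft n (fun u => φ (F.lt n u p)), ← ih p]
      ring
    · simp only [lt, if_neg hp]
      rw [F.sum_rgt n (fun u => φ (F.lt n u (p - 2 ^ n))), ← ih (p - 2 ^ n)]
      ring

/-- Letters in different blocks of a free stretch of levels are independent. -/
theorem sum_prod_lt {n₀ n : ℕ} (hn : n₀ ≤ n) (hD : ∀ j, n₀ ≤ j → j < n → D j = 0) {p : ℕ}
    (hp : p < 2 ^ n₀) (φ : ℕ → Fin (2 ^ b 0) → ℝ) (hφ : ∀ i, ∑ c, φ i c = 2) :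
    ∑ y, ∏ i ∈ Finset.range (2 ^ (n - n₀)), φ i (F.lt n y (p + i * 2 ^ n₀)) = 2 ^ b n := by
  induction n, hn using Nat.le_induction generalizing φ with
  | base =>
    have := F.sum_lt n₀ p (φ 0)
    rw [hφ 0] at this
    simp only [Nat.sub_self, pow_zero, Finset.prod_range_one, zero_mul, add_zero]
    linarith
  | succ n hn ih =>
    have hD' : ∀ j, n₀ ≤ j → j < n → D j = 0 := fun j h1 h2 => hD j h1 (by omega)
    have hDn : D n = 0 := hD n hn (by omega)
    have e1 : 2 ^ (n + 1 - n₀) = 2 ^ (n - n₀) + 2 ^ (n - n₀) := by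
      rw [Nat.succ_sub hn, pow_succ]; ring
    have e2 : 2 ^ (n - n₀) * 2 ^ n₀ = 2 ^ n := by rw [← pow_add, Nat.sub_add_cancel hn]
    have e3 : ∀ y, ∏ i ∈ Finset.range (2 ^ (n + 1 - n₀)), φ i (F.lt (n + 1) y (p + i * 2 ^ n₀))
        = (∏ i ∈ Finset.range (2 ^ (n - n₀)), φ i (F.lt n (F.lft n y) (p + i * 2 ^ n₀)))
          * ∏ i ∈ Finset.range (2 ^ (n - n₀)),
            φ (2 ^ (n - n₀) + i) (F.lt n (F.rgt n y) (p + i * 2 ^ n₀)) := by
      intro y
      rw [e1, Finset.prod_range_add]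
      refine congrArg₂ (· * ·) (Finset.prod_congr rfl fun i hi => ?_)
        (Finset.prod_congr rfl fun i _ => ?_)
      · have h1 : (i + 1) * 2 ^ n₀ ≤ 2 ^ (n - n₀) * 2 ^ n₀ :=
          Nat.mul_le_mul_right _ (Finset.mem_range.1 hi)
        have h2 : p + i * 2 ^ n₀ < 2 ^ n := by
          rw [e2, add_mul, one_mul] at h1
          omega
        simp only [lt, if_pos h2]
      · have h1 : p + (2 ^ (n - n₀) + i) * 2 ^ n₀ = 2 ^ n + (p + i * 2 ^ n₀) := by
          rw [add_mul, e2]; ring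
        have h2 : ¬ (2 ^ n + (p + i * 2 ^ n₀) < 2 ^ n) := by omega
        rw [h1]
        simp only [lt, if_neg h2, Nat.add_sub_cancel_left]
    simp only [e3]
    rw [F.sum_free hDn (fun u v =>
      (∏ i ∈ Finset.range (2 ^ (n - n₀)), φ i (F.lt n u (p + i * 2 ^ n₀)))
        * ∏ i ∈ Finset.range (2 ^ (n - n₀)),
          φ (2 ^ (n - n₀) + i) (F.lt n v (p + i * 2 ^ n₀))), ← Finset.sum_mul_sum,
      ih hD' φ hφ, ih hD' (fun i => φ (2 ^ (n - n₀) + i)) (fun i => hφ _), ← pow_add]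
    congr 1
    have := F.step n
    omega

end Fam

namespace Adic

variable {b D : ℕ → ℕ} {F : Fam b D} {X : Type} [MeasurableSpace X] {μ : Measure X} {T : X → X}
  (Ad : Adic F μ T)

theorem pos_iterate (n k : ℕ) (x : X) : Ad.pos n (T^[k] x) = (Ad.pos n x + k) % 2 ^ n := by
  induction k with
  | zero => simp [Nat.mod_eq_of_lt (Ad.pos_lt n x)]
  | succ k ih => rw [Function.iterate_succ_apply', Ad.pos_T, ih, Nat.mod_add_mod, add_assoc]

theorem w_iterate {n k : ℕ} {x : X} (h : Ad.pos n x + k < 2 ^ n) :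
    Ad.w n (T^[k] x) = Ad.w n x := by
  induction k with
  | zero => rfl
  | succ k ih =>
    rw [Function.iterate_succ_apply', Ad.w_T, ih (by omega)]
    rw [Ad.pos_iterate, Nat.mod_eq_of_lt (by omega)]
    omega

theorem P_w' (n : ℕ) (y : Fin (2 ^ b n)) : Ad.P n {x | Ad.w n x = y} = (2 ^ b n)⁻¹ := by
  unfold Adic.P
  rw [Measure.smul_apply, smul_eq_mul,
    Measure.restrict_apply (show MeasurableSet {x | Ad.w n x = y} from
      Ad.meas_w n (measurableSet_singleton y)), inter_comm]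
  have := Ad.unif n 0 y (by positivity)
  rw [show {x | Ad.pos n x = 0} ∩ {x | Ad.w n x = y} = {x | Ad.pos n x = 0 ∧ Ad.w n x = y} from rfl,
    this, ENNReal.mul_inv (by simp) (by simp), ← mul_assoc,
    ENNReal.mul_inv_cancel (by simp) (by simp), one_mul]

theorem P_half (n : ℕ) (s : Bool) (u : Fin (2 ^ b n)) :
    Ad.P (n + 1) {x | (F.e n s (Ad.w (n + 1) x)).1 = u} = (2 ^ b n)⁻¹ := by
  have h := sum_measure_preimage_singleton (μ := Ad.P (n + 1))
    (Finset.univ.filter fun y : Fin (2 ^ b (n + 1)) => (F.e n s y).1 = u)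
    (f := Ad.w (n + 1)) fun y _ => Ad.meas_w (n + 1) (measurableSet_singleton y)
  have e0 : {x | (F.e n s (Ad.w (n + 1) x)).1 = u} = Ad.w (n + 1) ⁻¹'
      ↑(Finset.univ.filter fun y : Fin (2 ^ b (n + 1)) => (F.e n s y).1 = u) := by
    ext x; simp
  rw [e0, ← h]
  have e : ∀ y, Ad.P (n + 1) (Ad.w (n + 1) ⁻¹' {y}) = (2 ^ b (n + 1))⁻¹ :=
    fun y => Ad.P_w' (n + 1) y
  have hc : (Finset.univ.filter fun y : Fin (2 ^ b (n + 1)) => (F.e n s y).1 = u).card
      = 2 ^ (b n - D n) := by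
    rw [Finset.card_filter, (F.e n s).sum_comp (fun p => if p.1 = u then 1 else 0),
      Fintype.sum_prod_type, Finset.sum_comm]
    simp
  have e1 : b (n + 1) = (b n - D n) + b n := by
    have := F.step n
    have := F.small n
    omega
  have e' : (2 : ℝ≥0∞) ^ b (n + 1) = 2 ^ (b n - D n) * 2 ^ b n := by rw [e1, pow_add]
  simp only [e, Finset.sum_const, hc, nsmul_eq_mul]
  push_cast
  rw [e', ENNReal.mul_inv (by simp) (by simp), ← mul_assoc,
    ENNReal.mul_inv_cancel (by simp) (by simp), one_mul]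

theorem pos_mod {j n : ℕ} (hj : j ≤ n) (x : X) : Ad.pos n x % 2 ^ j = Ad.pos j x := by
  induction n, hj using Nat.le_induction with
  | base => exact Nat.mod_eq_of_lt (Ad.pos_lt j x)
  | succ n hn ih => rw [← ih, ← Ad.pos_succ n x, Nat.mod_mod_of_dvd _ (pow_dvd_pow 2 hn)]

theorem P_prob (n : ℕ) : IsProbabilityMeasure (Ad.P n) := by
  constructor
  have h := sum_measure_preimage_singleton (μ := Ad.P n) (Finset.univ : Finset (Fin (2 ^ b n)))
    (f := Ad.w n) fun y _ => Ad.meas_w n (measurableSet_singleton y)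
  rw [Finset.coe_univ, preimage_univ] at h
  rw [← h]
  have e : ∀ y, Ad.P n (Ad.w n ⁻¹' {y}) = (2 ^ b n)⁻¹ := fun y => Ad.P_w' n y
  simp only [e, Finset.sum_const, Finset.card_univ, Fintype.card_fin, nsmul_eq_mul]
  push_cast
  exact ENNReal.mul_inv_cancel (by simp) (by simp)

theorem P_le (n : ℕ) (s : Set X) : Ad.P n s ≤ 2 ^ n * μ s := by
  unfold Adic.P
  rw [Measure.smul_apply, smul_eq_mul]
  exact mul_le_mul_right (Measure.restrict_le_self s) _

theorem P_zero : Ad.P 0 = μ := by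
  unfold Adic.P
  have : {x | Ad.pos 0 x = 0} = univ := by
    refine eq_univ_of_forall fun x => ?_
    have := Ad.pos_lt 0 x
    simpa using this
  rw [this]
  simp

theorem ae_pos (n : ℕ) : ∀ᵐ x ∂(Ad.P n), Ad.pos n x = 0 := by
  unfold Adic.P
  exact Measure.ae_smul_measure (ae_restrict_mem (Ad.meas_pos n (measurableSet_singleton 0))) _

theorem P_w (n : ℕ) (y : Fin (2 ^ b n)) : Ad.P n {x | Ad.w n x = y} = (2 ^ b n)⁻¹ := by
  exact Ad.P_w' n y

theorem P_lft (n : ℕ) (u : Fin (2 ^ b n)) :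
    Ad.P (n + 1) {x | F.lft n (Ad.w (n + 1) x) = u} = (2 ^ b n)⁻¹ := by
  exact Ad.P_half n false u

theorem P_rgt (n : ℕ) (u : Fin (2 ^ b n)) :
    Ad.P (n + 1) {x | F.rgt n (Ad.w (n + 1) x) = u} = (2 ^ b n)⁻¹ := by
  exact Ad.P_half n true u

theorem w_eq_lft {n : ℕ} {x : X} (h : Ad.pos (n + 1) x = 0) :
    Ad.w n x = F.lft n (Ad.w (n + 1) x) := by
  rw [Ad.w_succ n x, if_pos]
  rw [h]
  positivity

theorem w_eq_rgt {n : ℕ} {x : X} (h : Ad.pos (n + 1) x = 0) :
    Ad.w n (T^[2 ^ n] x) = F.rgt n (Ad.w (n + 1) x) := by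
  have h1 : 2 ^ n < 2 ^ (n + 1) := Nat.pow_lt_pow_right (by norm_num) (by omega)
  rw [Ad.w_succ n (T^[2 ^ n] x), if_neg, Ad.w_iterate]
  · rw [h, zero_add]; exact h1
  · rw [Ad.pos_iterate, h, zero_add, Nat.mod_eq_of_lt h1]
    exact lt_irrefl _

theorem letter {n p : ℕ} {x : X} (h : Ad.pos n x = 0) (hp : p < 2 ^ n) :
    Ad.w 0 (T^[p] x) = F.lt n (Ad.w n x) p := by
  induction n generalizing x p with
  | zero =>
    obtain rfl : p = 0 := by simpa using hp
    rfl
  | succ n ih =>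
    have h0 : Ad.pos n x = 0 := by rw [← Ad.pos_succ, h, Nat.zero_mod]
    by_cases hp' : p < 2 ^ n
    · simp only [Fam.lt, if_pos hp']
      rw [ih h0 hp', Ad.w_eq_lft h]
    · simp only [Fam.lt, if_neg hp']
      have e : p = (p - 2 ^ n) + 2 ^ n := by omega
      have h1 : Ad.pos n (T^[2 ^ n] x) = 0 := by
        rw [Ad.pos_iterate, h0, zero_add, Nat.mod_self]
      rw [← Ad.w_eq_rgt h, ← ih h1 (p := p - 2 ^ n) (by rw [pow_succ] at hp; omega),
        ← Function.iterate_add_apply, ← e]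

theorem tower (hT : MeasurePreserving T μ μ) {j n : ℕ} (hj : j ≤ n) {φ : X → ℝ≥0∞}
    (hφ : Measurable φ) :
    ∑ i ∈ Finset.range (2 ^ (n - j)), ∫⁻ x, φ (T^[i * 2 ^ j] x) ∂(Ad.P n) =
      2 ^ (n - j) * ∫⁻ x, φ x ∂(Ad.P j) := by
  have e2 : 2 ^ (n - j) * 2 ^ j = 2 ^ n := by rw [← pow_add, Nat.sub_add_cancel hj]
  have hm : ∀ m k, MeasurableSet {x | Ad.pos m x = k} := fun m k =>
    Ad.meas_pos m (measurableSet_singleton k)
  have h1 : ∀ i ∈ Finset.range (2 ^ (n - j)), ∫⁻ x, φ (T^[i * 2 ^ j] x) ∂(Ad.P n)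
      = 2 ^ n * ∫⁻ x, {x | Ad.pos n x = i * 2 ^ j}.indicator φ x ∂μ := by
    intro i hi
    have hk : i * 2 ^ j < 2 ^ n := by
      rw [← e2]
      exact Nat.mul_lt_mul_of_pos_right (Finset.mem_range.1 hi) (by positivity)
    unfold Adic.P
    rw [lintegral_smul_measure, smul_eq_mul, ← lintegral_indicator (hm n 0),
      ← (hT.iterate (i * 2 ^ j)).lintegral_comp (hφ.indicator (hm n _))]
    congr 1
    refine lintegral_congr fun x => ?_
    have h2 : Ad.pos n (T^[i * 2 ^ j] x) = i * 2 ^ j ↔ Ad.pos n x = 0 := by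
      rw [Ad.pos_iterate]
      have h3 := Ad.pos_lt n x
      generalize i * 2 ^ j = k at hk
      generalize 2 ^ n = N at hk h3
      by_cases h4 : Ad.pos n x + k < N
      · rw [Nat.mod_eq_of_lt h4]; omega
      · rw [Nat.mod_eq_sub_mod (by omega), Nat.mod_eq_of_lt (by omega)]; omega
    by_cases h5 : Ad.pos n x = 0
    · rw [indicator_of_mem (show x ∈ {x | Ad.pos n x = 0} from h5),
        indicator_of_mem (show T^[i * 2 ^ j] x ∈ {x | Ad.pos n x = i * 2 ^ j} from h2.2 h5)]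
    · rw [indicator_of_notMem (show x ∉ {x | Ad.pos n x = 0} from h5),
        indicator_of_notMem
          (show T^[i * 2 ^ j] x ∉ {x | Ad.pos n x = i * 2 ^ j} from fun h => h5 (h2.1 h))]
  rw [Finset.sum_congr rfl h1, ← Finset.mul_sum,
    ← lintegral_finsetSum _ fun i _ => hφ.indicator (hm n _)]
  unfold Adic.P
  rw [lintegral_smul_measure, smul_eq_mul, ← lintegral_indicator (hm j 0), ← mul_assoc, ← pow_add,
    Nat.sub_add_cancel hj]
  congr 1
  refine lintegral_congr fun x => ?_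
  have h6 := Ad.pos_mod hj x
  by_cases h5 : Ad.pos j x = 0
  · rw [indicator_of_mem (show x ∈ {x | Ad.pos j x = 0} from h5)]
    rw [h5] at h6
    obtain ⟨c, hc⟩ := Nat.dvd_of_mod_eq_zero h6
    rw [mul_comm] at hc
    have hc' : c < 2 ^ (n - j) := by
      have := Ad.pos_lt n x
      rw [hc, ← e2] at this
      exact Nat.lt_of_mul_lt_mul_right this
    rw [Finset.sum_eq_single c]
    · exact indicator_of_mem (show x ∈ {x | Ad.pos n x = c * 2 ^ j} from hc) _
    · intro i _ hi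
      refine indicator_of_notMem (fun h => hi ?_) _
      have h' : Ad.pos n x = i * 2 ^ j := h
      rw [hc] at h'
      exact (Nat.eq_of_mul_eq_mul_right (by positivity) h').symm
    · intro h
      exact absurd (Finset.mem_range.2 hc') h
  · rw [indicator_of_notMem (show x ∉ {x | Ad.pos j x = 0} from h5)]
    refine Finset.sum_eq_zero fun i _ => indicator_of_notMem (fun h => h5 ?_) _
    have h' : Ad.pos n x = i * 2 ^ j := h
    rw [← h6, h', Nat.mul_mod_left]

theorem split (hT : MeasurePreserving T μ μ) (n : ℕ) {φ : X → ℝ≥0∞} (hφ : Measurable φ) :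
    ∫⁻ x, φ x ∂(Ad.P (n + 1)) + ∫⁻ x, φ (T^[2 ^ n] x) ∂(Ad.P (n + 1)) =
      2 * ∫⁻ x, φ x ∂(Ad.P n) := by
  have := Ad.tower hT (Nat.le_succ n) hφ
  simpa [Finset.sum_range_succ] using this

theorem tower_real (hT : MeasurePreserving T μ μ) {j n : ℕ} (hj : j ≤ n) {φ : X → ℝ}
    (hφ : Measurable φ) {B : ℝ} (hB : ∀ x, |φ x| ≤ B) :
    ∑ i ∈ Finset.range (2 ^ (n - j)), ∫ x, φ (T^[i * 2 ^ j] x) ∂(Ad.P n) =
      2 ^ (n - j) * ∫ x, φ x ∂(Ad.P j) := by
  have hTk : ∀ k, Measurable (T^[k]) := fun k => (hT.iterate k).measurable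
  have := Ad.P_prob n
  have := Ad.P_prob j
  have e : ∑ i ∈ Finset.range (2 ^ (n - j)), (Ad.P n).map (T^[i * 2 ^ j])
      = (2 ^ (n - j) : ℝ≥0∞) • Ad.P j := by
    ext s hs
    have := Ad.tower hT hj (φ := s.indicator 1) (measurable_one.indicator hs)
    rw [lintegral_indicator_one hs] at this
    rw [Measure.smul_apply, smul_eq_mul, ← this, Measure.coe_finsetSum, Finset.sum_apply]
    refine Finset.sum_congr rfl fun i _ => ?_
    rw [← lintegral_indicator_one hs, lintegral_map (measurable_one.indicator hs) (hTk _)]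
  have h1 : ∀ i ∈ Finset.range (2 ^ (n - j)), ∫ x, φ (T^[i * 2 ^ j] x) ∂(Ad.P n)
      = ∫ x, φ x ∂((Ad.P n).map (T^[i * 2 ^ j])) := fun i _ =>
    (integral_map (hTk _).aemeasurable hφ.aestronglyMeasurable).symm
  rw [Finset.sum_congr rfl h1, ← integral_finsetSum_measure, e, integral_smul_measure]
  · simp
  · intro i _
    exact Integrable.of_bound hφ.aestronglyMeasurable B (Eventually.of_forall fun x => hB x)

end Adic

end Vale.Agent.P109
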