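import Vale.Agent.P109.Defs

/-! P109: from manifolds to atlases. -/

namespace Vale.Agent.P109

open MeasureTheory Set Metric Filter Topology
open scoped ENNReal Pointwise Manifold ContDiff

namespace Atlas

/-- The identification of Euclidean space with the space of functions. -/
noncomputable abbrev L (d : ℕ) : EuclideanSpace ℝ (Fin d) ≃L[ℝ] E d := EuclideanSpace.equiv (Fin d) ℝ

theorem pres (d : ℕ) : MeasurePreserving (L d).symm volume volume :=
  PiLp.volume_preserving_toLp (Fin d)

theorem emb (d : ℕ) : MeasurableEmbedding (L d).symm :=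
  (L d).symm.toHomeomorph.measurableEmbedding

theorem smooth_of {d : ℕ} {H : Type} [TopologicalSpace H]
    (I : ModelWithCorners ℝ (EuclideanSpace ℝ (Fin d)) H)
    {M : Type} [TopologicalSpace M] [ChartedSpace H M] [IsManifold I ∞ M] {f : M → M}
    (hf : ContMDiff I I ∞ f) (p q : M) :
    ContDiffOn ℝ 2 (L d ∘ (extChartAt I q ∘ f ∘ (extChartAt I p).symm) ∘ (L d).symm)
      ((L d).symm ⁻¹' ((extChartAt I p).target ∩
        (extChartAt I p).symm ⁻¹' (f ⁻¹' (extChartAt I q).source))) := by
  have h1 := (contMDiff_iff.1 hf).2 p q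
  have h2 : ContDiffOn ℝ 2 (extChartAt I q ∘ f ∘ (extChartAt I p).symm)
      ((extChartAt I p).target ∩ (extChartAt I p).symm ⁻¹' (f ⁻¹' (extChartAt I q).source)) :=
    h1.of_le (WithTop.coe_le_coe.2 (le_top : (2 : ℕ∞) ≤ ⊤))
  exact (L d).contDiff.comp_contDiffOn (h2.comp (L d).symm.contDiff.contDiffOn (fun _ hx => hx))

end Atlas

open Atlas in
theorem exists_atl {d : ℕ} {H : Type} [TopologicalSpace H]
    (I : ModelWithCorners ℝ (EuclideanSpace ℝ (Fin d)) H)
    {M : Type} [TopologicalSpace M] [ChartedSpace H M] [IsManifold I ∞ M]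
    [MeasurableSpace M] (ν : Measure M) (S : Diffeomorph I I M M ∞)
    (h : ∀ p : M, ∃ ρ : EuclideanSpace ℝ (Fin d) → ℝ,
      ContDiffOn ℝ ∞ ρ (extChartAt I p).target ∧ (∀ y ∈ (extChartAt I p).target, 0 < ρ y) ∧
      ∀ A ⊆ (extChartAt I p).target, MeasurableSet A →
        ν ((extChartAt I p).source ∩ extChartAt I p ⁻¹' A) = ∫⁻ y in A, ENNReal.ofReal (ρ y)) :
    Nonempty (Atl d ν S) := by
  refine ⟨{ Rg := (L d).symm ⁻¹' range I
            cvx := I.convex_range.linear_preimage (L d).symm.toLinearEquiv.toLinearMap
            int := ?_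
            closed := I.isClosed_range.preimage (L d).symm.continuous
            e := fun p => (extChartAt I p).transEquiv (L d).toLinearEquiv.toEquiv
            mem := fun p => mem_extChartAt_source p
            opn := fun p => isOpen_extChartAt_source p
            cont := fun p => (L d).continuous.comp_continuousOn (continuousOn_extChartAt p)
            cont' := fun p =>
              (continuousOn_extChartAt_symm p).comp (L d).symm.continuous.continuousOn
                (fun _ hx => hx)
            tgt := fun p => ?_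
            contS := S.continuous
            smS := fun p q => smooth_of I S.contMDiff p q
            smI := fun p q => smooth_of I contMDiff_id p q
            dens := fun p => ?_ }⟩
  · obtain ⟨x, hx⟩ := I.nonempty_interior
    refine ⟨L d x, ?_⟩
    have : (L d).symm ⁻¹' interior (range I) ⊆ interior ((L d).symm ⁻¹' range I) :=
      preimage_interior_subset_interior_preimage (L d).symm.continuous
    exact this (by simpa using hx)
  · refine ⟨(L d).symm ⁻¹' (I.symm ⁻¹' (chartAt H p).target),
      ((chartAt H p).open_target.preimage I.continuous_symm).preimage (L d).symm.continuous, ?_⟩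
    change (L d).symm ⁻¹' (extChartAt I p).target = _
    rw [extChartAt_target, preimage_inter]
  · obtain ⟨ρ, h1, h2, h3⟩ := h p
    refine ⟨ρ ∘ (L d).symm, h1.continuousOn.comp (L d).symm.continuous.continuousOn
      (fun _ hx => hx), fun y hy => h2 _ hy, fun A hA hm => ?_⟩
    have hA' : L d ⁻¹' A ⊆ (extChartAt I p).target := by
      intro x hx
      have := hA hx
      simpa using this
    have h4 := h3 (L d ⁻¹' A) hA' ((L d).continuous.measurable hm)
    have h5 := (pres d).setLIntegral_comp_preimage_emb (emb d)
      (fun y => ENNReal.ofReal (ρ y)) (L d ⁻¹' A)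
    have h6 : (L d).symm ⁻¹' (L d ⁻¹' A) = A := by
      ext x
      simp
    rw [h6] at h5
    exact h4.trans h5.symm

theorem Atl.atom {M : Type} [TopologicalSpace M] [MeasurableSpace M] {ν : Measure M}
    {S : M → M} (a : Atl 0 ν S) (p : M) : ν {p} ≠ 0 := by
  obtain ⟨ρ, -, h2, h3⟩ := a.dens p
  have hp := a.mem p
  have ht := (a.e p).map_source hp
  have h4 := h3 {a.e p p} (singleton_subset_iff.2 ht) (measurableSet_singleton _)
  have h5 : (a.e p).source ∩ a.e p ⁻¹' {a.e p p} = {p} := by
    ext x
    constructor
    · rintro ⟨hx, hx'⟩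
      exact (a.e p).injOn hx hp hx'
    · rintro rfl
      exact ⟨hp, rfl⟩
  rw [h5, lintegral_singleton] at h4
  rw [h4]
  have h6 : (volume : Measure (E 0)) {a.e p p} = 1 := by
    have : ({a.e p p} : Set (E 0)) = univ := by
      ext x
      simp [Subsingleton.elim x (a.e p p)]
    rw [this, volume_pi, Measure.pi_univ]
    simp
  rw [h6, mul_one]
  simpa using h2 _ ht

end Vale.Agent.P109
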