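import Vale.Agent.P109.Chain

/-! P109: local estimates along good orbits, grids. -/

namespace Vale.Agent.P109

open MeasureTheory Set Metric Filter Topology
open scoped ENNReal Pointwise

variable {d : ℕ}

theorem norm_sub_le_of_cell_eq {σ : ℝ} (hσ : 0 < σ) {x y : E d} (h : cell σ x = cell σ y) :
    ‖x - y‖ ≤ σ := by
  refine (pi_norm_le_iff_of_nonneg hσ.le).2 fun i => ?_
  have hi : ⌊x i / σ⌋ = ⌊y i / σ⌋ := congrFun h i
  have h1 := Int.abs_sub_lt_one_of_floor_eq_floor hi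
  rw [← sub_div, abs_div, abs_of_pos hσ, div_lt_one hσ] at h1
  simpa [Real.norm_eq_abs] using h1.le

theorem abs_cell_sub_le {σ : ℝ} (hσ : 0 < σ) (R : ℕ) {x y : E d} (h : ‖x - y‖ ≤ R * σ)
    (i : Fin d) : |cell σ x i - cell σ y i| ≤ R := by
  have hi : |x i - y i| ≤ R * σ := by
    have := norm_le_pi_norm (x - y) i
    simpa [Real.norm_eq_abs] using this.trans h
  have h1 : |x i / σ - y i / σ| ≤ R := by
    rw [← sub_div, abs_div, abs_of_pos hσ, div_le_iff₀ hσ]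
    exact hi
  rw [abs_le] at h1 ⊢
  unfold cell
  constructor
  · have h2 : y i / σ ≤ x i / σ + (R : ℤ) := by push_cast; linarith [h1.1]
    have h3 := Int.floor_mono h2
    rw [Int.floor_add_intCast] at h3
    linarith
  · have h2 : x i / σ ≤ y i / σ + (R : ℤ) := by push_cast; linarith [h1.2]
    have h3 := Int.floor_mono h2
    rw [Int.floor_add_intCast] at h3
    linarith

theorem norm_sub_corner_le {σ : ℝ} (hσ : 0 < σ) (x : E d) :
    ‖x - fun i => σ * (cell σ x i : ℝ)‖ ≤ σ := by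
  refine (pi_norm_le_iff_of_nonneg hσ.le).2 fun i => ?_
  have h1 := Int.floor_le (x i / σ)
  have h2 := Int.lt_floor_add_one (x i / σ)
  rw [le_div_iff₀ hσ] at h1
  rw [div_lt_iff₀ hσ] at h2
  simp only [Pi.sub_apply, cell, Real.norm_eq_abs]
  rw [abs_le]
  constructor <;> nlinarith

theorem measurable_cell (σ : ℝ) : Measurable (cell σ : E d → Fin d → ℤ) := by
  refine measurable_pi_lambda _ fun i => ?_
  have h : Measurable fun x : E d => x i / σ := by fun_prop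
  exact h.floor

theorem exists_clamp {s : ℝ} (hs : 0 ≤ s) : ∃ c : E d → E d, (∀ u, ‖c u‖ ≤ s) ∧
    (∀ u, ‖u‖ ≤ s → c u = u) ∧ ∀ u v, ‖c u - c v‖ ≤ ‖u - v‖ := by
  refine ⟨fun u i => max (-s) (min s (u i)), fun u => ?_, fun u hu => ?_, fun u v => ?_⟩
  · refine (pi_norm_le_iff_of_nonneg hs).2 fun i => ?_
    rw [Real.norm_eq_abs, abs_le]
    exact ⟨le_max_left _ _, max_le (by linarith) (min_le_left _ _)⟩
  · funext i
    have h1 : |u i| ≤ s := by
      have := norm_le_pi_norm u i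
      simpa [Real.norm_eq_abs] using this.trans hu
    rw [abs_le] at h1
    change max (-s) (min s (u i)) = u i
    rw [min_eq_right h1.2, max_eq_right h1.1]
  · refine (pi_norm_le_iff_of_nonneg (norm_nonneg _)).2 fun i => ?_
    have h1 : |u i - v i| ≤ ‖u - v‖ := by
      have := norm_le_pi_norm (u - v) i
      simpa [Real.norm_eq_abs] using this
    simp only [Pi.sub_apply, Real.norm_eq_abs]
    refine le_trans ?_ h1
    have h2 := abs_max_sub_max_le_max (-s) (min s (u i)) (-s) (min s (v i))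
    have h3 := abs_min_sub_min_le_max s (u i) s (v i)
    simp only [sub_self, abs_zero] at h2 h3
    refine h2.trans (max_le (abs_nonneg _) (h3.trans (max_le (abs_nonneg _) le_rfl)))

/-- The names within distance `R` of a given name. -/
theorem exists_near (m R : ℕ) (a : Nm d m) : ∃ S : Finset (Nm d m),
    S.card ≤ (2 * R + 1) ^ (d * (m + 1)) ∧ ∀ c : Nm d m, c ∈ S ↔ ∀ j i, |c j i - a j i| ≤ R := by
  classical
  refine ⟨Fintype.piFinset fun j => Fintype.piFinset fun i => Finset.Icc (a j i - R) (a j i + R),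
    ?_, fun c => ?_⟩
  · have h1 : ∀ j i, (Finset.Icc (a j i - R) (a j i + R)).card = 2 * R + 1 := by
      intro j i
      rw [Int.card_Icc]
      omega
    simp only [Fintype.card_piFinset, h1, Finset.prod_const, Finset.card_univ, Fintype.card_fin]
    rw [← pow_mul]
  · simp only [Fintype.mem_piFinset, Finset.mem_Icc, abs_le]
    refine forall_congr' fun j => forall_congr' fun i => ?_
    constructor <;> rintro ⟨h1, h2⟩ <;> constructor <;> linarith

namespace Local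

variable {C : ℝ} (Z : PM d C)

theorem co_succ (t : ℕ) (x : E d) : Z.co (t + 1) x = (Z.A (Z.f^[t] x)).comp (Z.co t x) := rfl

theorem norm_A_le (hC : 2 ≤ C) (x : E d) : ‖Z.A x‖ ≤ C := by
  unfold PM.A
  split_ifs with h
  · exact h
  · rw [norm_zero]; linarith

theorem A_eq {r : ℝ} {x y : E d} (hx : Good Z.f Z.U C r x) (hy : y ∈ ball x r) :
    Z.A y = fderiv ℝ Z.f y := by
  unfold PM.A
  rw [if_pos (hx.2 y hy).2.1]

theorem lip_step {r : ℝ} {x y y' : E d} (hx : Good Z.f Z.U C r x) (hy : ‖y - x‖ < r)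
    (hy' : ‖y' - x‖ < r) : ‖Z.f y - Z.f y'‖ ≤ C * ‖y - y'‖ :=
  (convex_ball x r).norm_image_sub_le_of_norm_fderiv_le (𝕜 := ℝ) (fun z hz => (hx.2 z hz).1)
    (fun z hz => (hx.2 z hz).2.1) (mem_ball_iff_norm.2 hy') (mem_ball_iff_norm.2 hy)

theorem A_close (hC : 2 ≤ C) {r s : ℝ} {x y : E d} (hx : Good Z.f Z.U C r x) (hs : s < r)
    (hy : ‖y - x‖ ≤ s) : ‖Z.A y - Z.A x‖ ≤ C * s := by
  have hy' : y ∈ ball x r := mem_ball_iff_norm.2 (hy.trans_lt hs)
  have hx' : x ∈ ball x r := mem_ball_self (((norm_nonneg _).trans hy).trans_lt hs)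
  rw [A_eq Z hx hy', A_eq Z hx hx']
  exact ((hx.2 y hy').2.2 x hx').trans (mul_le_mul_of_nonneg_left hy (by linarith))

theorem lin_step (hC : 2 ≤ C) {r s : ℝ} {x y y' : E d} (hx : Good Z.f Z.U C r x) (hs : s < r)
    (hy : ‖y - x‖ ≤ s) (hy' : ‖y' - x‖ ≤ s) :
    ‖Z.f y - Z.f y' - Z.A x (y - y')‖ ≤ C * s * ‖y - y'‖ := by
  have hsub : closedBall x s ⊆ ball x r := closedBall_subset_ball hs
  refine (convex_closedBall x s).norm_image_sub_le_of_norm_fderiv_le' (𝕜 := ℝ)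
    (fun z hz => (hx.2 z (hsub hz)).1) (fun z hz => ?_) (mem_closedBall_iff_norm.2 hy')
    (mem_closedBall_iff_norm.2 hy)
  rw [← A_eq Z hx (hsub hz)]
  exact A_close Z hC hx hs (mem_closedBall_iff_norm.1 hz)

theorem lip_aux (hC : 2 ≤ C) {t : ℕ} {r s : ℝ} {x : E d}
    (hx : ∀ i ≤ t, Good Z.f Z.U C r (Z.f^[i] x)) (hs : C ^ t * s < r) :
    ∀ i ≤ t, ∀ y y' : E d, ‖y - x‖ ≤ s → ‖y' - x‖ ≤ s →
      ‖Z.f^[i] y - Z.f^[i] y'‖ ≤ C ^ i * ‖y - y'‖ := by
  have hC1 : (1 : ℝ) ≤ C := by linarith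
  intro i
  induction i with
  | zero => intro _ y y' _ _; simp
  | succ i ih =>
    intro hi y y' hy hy'
    have hs0 : 0 ≤ s := (norm_nonneg _).trans hy
    have hxx : ‖x - x‖ ≤ s := by simpa using hs0
    have hCi : 0 ≤ C ^ i := by positivity
    have hlt : C ^ i * s < r :=
      lt_of_le_of_lt (mul_le_mul_of_nonneg_right (pow_le_pow_right₀ hC1 (by omega)) hs0) hs
    have h1 : ‖Z.f^[i] y - Z.f^[i] x‖ < r :=
      ((ih (by omega) y x hy hxx).trans (mul_le_mul_of_nonneg_left hy hCi)).trans_lt hlt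
    have h2 : ‖Z.f^[i] y' - Z.f^[i] x‖ < r :=
      ((ih (by omega) y' x hy' hxx).trans (mul_le_mul_of_nonneg_left hy' hCi)).trans_lt hlt
    rw [Function.iterate_succ_apply', Function.iterate_succ_apply', pow_succ', mul_assoc]
    exact (lip_step Z (hx i (by omega)) h1 h2).trans
      (mul_le_mul_of_nonneg_left (ih (by omega) y y' hy hy') (by linarith))

theorem tsum_count {Ω N : Type} [MeasurableSpace Ω] [MeasurableSpace N] [Countable N]
    [MeasurableSingletonClass N] (ν : Measure Ω) [IsProbabilityMeasure ν] {g : Ω → N}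
    (hg : Measurable g) (near : N → N → Prop) (K : ℕ)
    (h : ∀ p, ∃ S : Finset N, S.card ≤ K ∧ ∀ q, near p q → q ∈ S) :
    ∑' q, ν {y | near (g y) q} ≤ K := by
  classical
  have hm : ∀ q, MeasurableSet {y | near (g y) q} := fun q =>
    hg (Set.to_countable {p | near p q}).measurableSet
  have h1 : ∀ q, ν {y | near (g y) q} =
      ∫⁻ y, ({y | near (g y) q} : Set Ω).indicator (fun _ => (1 : ℝ≥0∞)) y ∂ν := by
    intro q
    rw [lintegral_indicator_const (hm q), one_mul]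
  simp_rw [h1]
  rw [← lintegral_tsum fun q => (measurable_const.indicator (hm q)).aemeasurable]
  have h2 : ∀ y, ∑' q, ({y | near (g y) q} : Set Ω).indicator (fun _ => (1 : ℝ≥0∞)) y ≤ K := by
    intro y
    obtain ⟨S, hS, hS'⟩ := h (g y)
    have h3 : ∀ q ∉ S, ({y | near (g y) q} : Set Ω).indicator (fun _ => (1 : ℝ≥0∞)) y = 0 :=
      fun q hq => indicator_of_notMem (s := {y | near (g y) q}) (fun hy => hq (hS' q hy)) _
    rw [tsum_eq_sum h3]
    refine (Finset.sum_le_card_nsmul S _ 1 fun q _ => ?_).trans ?_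
    · exact indicator_le_self' (fun _ _ => zero_le_one) y
    · rw [nsmul_eq_mul, mul_one]
      exact_mod_cast hS
  refine (lintegral_mono h2).trans ?_
  rw [lintegral_const, measure_univ, mul_one]

end Local

namespace PM

variable {C : ℝ} (Z : PM d C)

theorem measurable_nm (τ m : ℕ) : Measurable (Z.nm τ m) := by
  refine measurable_pi_lambda _ fun j => ?_
  exact (measurable_cell _).comp (Z.pres.measurable.iterate _)

theorem norm_co_le (hC : 2 ≤ C) (t : ℕ) (x : E d) : ‖Z.co t x‖ ≤ C ^ t := by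
  induction t with
  | zero =>
    rw [pow_zero]
    exact ContinuousLinearMap.norm_id_le
  | succ t ih =>
    rw [Local.co_succ, pow_succ']
    exact (ContinuousLinearMap.opNorm_comp_le _ _).trans
      (mul_le_mul (Local.norm_A_le Z hC _) ih (norm_nonneg _) (by linarith))

theorem co_add (s t : ℕ) (x : E d) : Z.co (s + t) x = (Z.co t (Z.f^[s] x)).comp (Z.co s x) := by
  induction t with
  | zero => ext u; simp [co, pp]
  | succ t ih =>
    rw [← add_assoc, Local.co_succ, Local.co_succ, ih, add_comm s t, Function.iterate_add_apply,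
      ContinuousLinearMap.comp_assoc]

theorem pp_ch (τ j : ℕ) (x : E d) : pp (Z.ch τ x) j = Z.co (j * τ) x := by
  induction j with
  | zero => simp [co, pp]
  | succ j ih =>
    rw [Nat.succ_mul, co_add, ← ih]
    rfl

theorem sh_ch (τ k : ℕ) (x : E d) : sh k (Z.ch τ x) = Z.ch τ (Z.f^[k * τ] x) := by
  funext i
  simp only [sh, ch]
  rw [← Function.iterate_add_apply, add_mul, add_comm]

theorem lip_iter (hC : 2 ≤ C) {t : ℕ} {r s : ℝ} {x y y' : E d}
    (hx : ∀ i ≤ t, Good Z.f Z.U C r (Z.f^[i] x)) (hs : C ^ t * s < r) (hy : ‖y - x‖ ≤ s)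
    (hy' : ‖y' - x‖ ≤ s) : ∀ i ≤ t, ‖Z.f^[i] y - Z.f^[i] y'‖ ≤ C ^ i * ‖y - y'‖ := by
  exact fun i hi => Local.lip_aux Z hC hx hs i hi y y' hy hy'

theorem lin_iter (hC : 2 ≤ C) {t : ℕ} {r s : ℝ} {x y y' : E d}
    (hx : ∀ i ≤ t, Good Z.f Z.U C r (Z.f^[i] x)) (hs : C ^ t * s < r) (hy : ‖y - x‖ ≤ s)
    (hy' : ‖y' - x‖ ≤ s) :
    ‖Z.f^[t] y - Z.f^[t] y' - Z.co t x (y - y')‖ ≤ (C ^ t) ^ 2 * s * ‖y - y'‖ := by
  have hs0 : 0 ≤ s := (norm_nonneg _).trans hy
  have hC1 : (1 : ℝ) ≤ C := by linarith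
  induction t with
  | zero =>
    have : 0 ≤ s * ‖y - y'‖ := by positivity
    simpa [co, pp] using this
  | succ t ih =>
    have hst : C ^ t * s < r :=
      lt_of_le_of_lt (mul_le_mul_of_nonneg_right (pow_le_pow_right₀ hC1 (Nat.le_succ t)) hs0) hs
    have hxt : ∀ i ≤ t, Good Z.f Z.U C r (Z.f^[i] x) := fun i hi => hx i (by omega)
    have ih' := ih hxt hst
    have hxx : ‖x - x‖ ≤ s := by simpa using hs0
    have h1 := Z.lip_iter hC hxt hst hy hxx t le_rfl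
    have h2 := Z.lip_iter hC hxt hst hy' hxx t le_rfl
    have h3 := Z.lip_iter hC hxt hst hy hy' t le_rfl
    have hCt : 0 ≤ C ^ t := by positivity
    have h1' : ‖Z.f^[t] y - Z.f^[t] x‖ ≤ C ^ t * s :=
      h1.trans (mul_le_mul_of_nonneg_left hy hCt)
    have h2' : ‖Z.f^[t] y' - Z.f^[t] x‖ ≤ C ^ t * s :=
      h2.trans (mul_le_mul_of_nonneg_left hy' hCt)
    have h4 := Local.lin_step Z hC (hxt t le_rfl) hst h1' h2'
    have h5 : ‖Z.A (Z.f^[t] x) (Z.f^[t] y - Z.f^[t] y' - Z.co t x (y - y'))‖ ≤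
        C * ((C ^ t) ^ 2 * s * ‖y - y'‖) :=
      (ContinuousLinearMap.le_opNorm _ _).trans
        (mul_le_mul (Local.norm_A_le Z hC _) ih' (norm_nonneg _) (by linarith))
    have h6 : Z.f^[t + 1] y - Z.f^[t + 1] y' - Z.co (t + 1) x (y - y') =
        (Z.f (Z.f^[t] y) - Z.f (Z.f^[t] y') - Z.A (Z.f^[t] x) (Z.f^[t] y - Z.f^[t] y')) +
          Z.A (Z.f^[t] x) (Z.f^[t] y - Z.f^[t] y' - Z.co t x (y - y')) := by
      rw [Local.co_succ, Function.iterate_succ_apply', Function.iterate_succ_apply',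
        ContinuousLinearMap.comp_apply, map_sub (Z.A (Z.f^[t] x)) (Z.f^[t] y - Z.f^[t] y')]
      abel
    rw [h6]
    refine (norm_add_le _ _).trans ?_
    have h7 : C * (C ^ t * s) * ‖Z.f^[t] y - Z.f^[t] y'‖ ≤
        C * (C ^ t * s) * (C ^ t * ‖y - y'‖) :=
      mul_le_mul_of_nonneg_left h3 (by positivity)
    have h8 : 0 ≤ C * ((C ^ t) ^ 2 * s * ‖y - y'‖) := by positivity
    have h9 : (C ^ (t + 1)) ^ 2 * s * ‖y - y'‖ = C * (C * ((C ^ t) ^ 2 * s * ‖y - y'‖)) := by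
      ring
    have h10 : C * (C ^ t * s) * (C ^ t * ‖y - y'‖) = C * ((C ^ t) ^ 2 * s * ‖y - y'‖) := by
      ring
    rw [h9]
    nlinarith

theorem co_close (hC : 2 ≤ C) {t : ℕ} {r s : ℝ} {x y : E d}
    (hx : ∀ i ≤ t, Good Z.f Z.U C r (Z.f^[i] x)) (hs : C ^ t * s < r) (hy : ‖y - x‖ ≤ s) :
    ‖Z.co t y - Z.co t x‖ ≤ (C ^ t) ^ 2 * s := by
  have hs0 : 0 ≤ s := (norm_nonneg _).trans hy
  have hC1 : (1 : ℝ) ≤ C := by linarith
  induction t with
  | zero => simpa [co, pp] using hs0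
  | succ t ih =>
    have hst : C ^ t * s < r :=
      lt_of_le_of_lt (mul_le_mul_of_nonneg_right (pow_le_pow_right₀ hC1 (Nat.le_succ t)) hs0) hs
    have hxt : ∀ i ≤ t, Good Z.f Z.U C r (Z.f^[i] x) := fun i hi => hx i (by omega)
    have ih' := ih hxt hst
    have hxx : ‖x - x‖ ≤ s := by simpa using hs0
    have h1 := Z.lip_iter hC hxt hst hy hxx t le_rfl
    have hCt : 0 ≤ C ^ t := by positivity
    have h1' : ‖Z.f^[t] y - Z.f^[t] x‖ ≤ C ^ t * s :=
      h1.trans (mul_le_mul_of_nonneg_left hy hCt)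
    have h4 := Local.A_close Z hC (hxt t le_rfl) hst h1'
    have h6 : Z.co (t + 1) y - Z.co (t + 1) x =
        (Z.A (Z.f^[t] y) - Z.A (Z.f^[t] x)).comp (Z.co t y) +
          (Z.A (Z.f^[t] x)).comp (Z.co t y - Z.co t x) := by
      rw [Local.co_succ, Local.co_succ, ContinuousLinearMap.sub_comp, ContinuousLinearMap.comp_sub]
      abel
    rw [h6]
    refine (norm_add_le _ _).trans ?_
    have h7 : ‖(Z.A (Z.f^[t] y) - Z.A (Z.f^[t] x)).comp (Z.co t y)‖ ≤ C * (C ^ t * s) * C ^ t :=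
      (ContinuousLinearMap.opNorm_comp_le _ _).trans
        (mul_le_mul h4 (Z.norm_co_le hC t y) (norm_nonneg _) (by positivity))
    have h5 : ‖(Z.A (Z.f^[t] x)).comp (Z.co t y - Z.co t x)‖ ≤ C * ((C ^ t) ^ 2 * s) :=
      (ContinuousLinearMap.opNorm_comp_le _ _).trans
        (mul_le_mul (Local.norm_A_le Z hC _) ih' (norm_nonneg _) (by linarith))
    have h8 : 0 ≤ C * ((C ^ t) ^ 2 * s) := by positivity
    have h9 : (C ^ (t + 1)) ^ 2 * s = C * (C * ((C ^ t) ^ 2 * s)) := by ring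
    have h10 : C * (C ^ t * s) * C ^ t = C * ((C ^ t) ^ 2 * s) := by ring
    rw [h9]
    nlinarith

theorem measure_not_goodO (hC : 2 ≤ C) (τ t : ℕ) :
    Z.ν {x | ¬ Z.GoodO τ t x} ≤ ENNReal.ofReal ((t + 1) * (C * (C ^ τ)⁻¹ ^ 18)) := by
  have hr : 0 < (C ^ τ)⁻¹ ^ 18 := by
    have : 0 < C := by linarith
    positivity
  have h1 : {x | ¬ Z.GoodO τ t x} ⊆ ⋃ i ∈ Finset.range (t + 1),
      Z.f^[i] ⁻¹' {x | ¬ Good Z.f Z.U C ((C ^ τ)⁻¹ ^ 18) x} := by
    intro x hx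
    simp only [GoodO, mem_ofPred_eq, not_forall] at hx
    obtain ⟨i, hi, hx⟩ := hx
    simp only [mem_iUnion, Finset.mem_range, mem_preimage, mem_ofPred_eq]
    exact ⟨i, by omega, hx⟩
  refine (measure_mono h1).trans ((measure_biUnion_finset_le _ _).trans ?_)
  have h2 : ∀ i ∈ Finset.range (t + 1),
      Z.ν (Z.f^[i] ⁻¹' {x | ¬ Good Z.f Z.U C ((C ^ τ)⁻¹ ^ 18) x}) ≤
        ENNReal.ofReal (C * (C ^ τ)⁻¹ ^ 18) := by
    intro i _
    have h3 := Z.pres.iterate i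
    refine (Measure.le_map_apply h3.measurable.aemeasurable _).trans ?_
    rw [h3.map_eq]
    exact Z.bad _ hr
  refine (Finset.sum_le_card_nsmul _ _ _ h2).trans (le_of_eq ?_)
  rw [Finset.card_range, nsmul_eq_mul, ENNReal.ofReal_mul (p := (t : ℝ) + 1) (by positivity)]
  congr 1
  rw [← ENNReal.ofReal_natCast]
  push_cast
  rfl

/-- The fine name determines the two coarse names up to boundedly many options. -/
theorem exists_opt (hC : 2 ≤ C) {τ : ℕ} (hτ : 1 ≤ τ) (m : ℕ) :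
    ∃ Opt : Nm d m → Finset (Nm d m × Nm d m), (∀ c, (Opt c).card ≤ 3 ^ (2 * (d * (m + 1)))) ∧
      ∀ x, Z.GoodO τ (2 * m * τ) x →
        (Z.nm τ m x, Z.nm τ m (Z.f^[m * τ] x)) ∈ Opt (Z.nm (2 * τ) m x) := by
  classical
  have hC0 : 0 < C := by linarith
  have hC1 : (1 : ℝ) ≤ C := by linarith
  have hY : 1 < C ^ τ := one_lt_pow₀ (by linarith) (by omega)
  have hY0 : 0 < C ^ τ := by linarith
  have hq0 : 0 < (C ^ τ)⁻¹ := inv_pos.2 hY0
  have hq1 : (C ^ τ)⁻¹ < 1 := inv_lt_one_of_one_lt₀ hY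
  have hσ : 0 < (C ^ τ)⁻¹ ^ 20 := by positivity
  have hσ' : 0 < (C ^ (2 * τ))⁻¹ ^ 20 := by positivity
  have hfine : C ^ τ * (C ^ (2 * τ))⁻¹ ^ 20 = (C ^ τ)⁻¹ ^ 39 := by
    rw [mul_comm 2 τ, pow_mul]
    field_simp
  have key : ∀ x z : E d, Z.GoodO τ (2 * m * τ) z → Z.nm (2 * τ) m x = Z.nm (2 * τ) m z →
      ∀ k ≤ 2 * m, ‖Z.f^[k * τ] x - Z.f^[k * τ] z‖ ≤ (1 : ℕ) * (C ^ τ)⁻¹ ^ 20 := by
    intro x z hz hxz k hk
    have hj : k / 2 < m + 1 := by omega
    have h1 : ‖Z.f^[k / 2 * (2 * τ)] x - Z.f^[k / 2 * (2 * τ)] z‖ ≤ (C ^ (2 * τ))⁻¹ ^ 20 :=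
      norm_sub_le_of_cell_eq hσ' (congrFun hxz ⟨k / 2, hj⟩)
    have hk2 : k * τ = k % 2 * τ + k / 2 * (2 * τ) := by
      conv_lhs => rw [← Nat.mod_add_div k 2]
      ring
    have he : k % 2 * τ ≤ τ := by
      have : k % 2 ≤ 1 := by omega
      nlinarith
    have hkm : k * τ ≤ 2 * m * τ := Nat.mul_le_mul_right _ hk
    have hg : ∀ i ≤ k % 2 * τ,
        Good Z.f Z.U C ((C ^ τ)⁻¹ ^ 18) (Z.f^[i] (Z.f^[k / 2 * (2 * τ)] z)) := by
      intro i hi
      rw [← Function.iterate_add_apply]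
      exact hz _ (by omega)
    have hp : C ^ (k % 2 * τ) * (C ^ (2 * τ))⁻¹ ^ 20 ≤ (C ^ τ)⁻¹ ^ 39 := by
      rw [← hfine]
      exact mul_le_mul_of_nonneg_right (pow_le_pow_right₀ hC1 he) hσ'.le
    have hs : C ^ (k % 2 * τ) * (C ^ (2 * τ))⁻¹ ^ 20 < (C ^ τ)⁻¹ ^ 18 :=
      lt_of_le_of_lt hp (pow_lt_pow_right_of_lt_one₀ hq0 hq1 (by norm_num))
    have h0 : ‖Z.f^[k / 2 * (2 * τ)] z - Z.f^[k / 2 * (2 * τ)] z‖ ≤ (C ^ (2 * τ))⁻¹ ^ 20 := by
      simpa using hσ'.le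
    have h2 := Z.lip_iter hC hg hs h1 h0 _ le_rfl
    rw [← Function.iterate_add_apply, ← Function.iterate_add_apply, ← hk2] at h2
    refine h2.trans ?_
    have h3 : C ^ (k % 2 * τ) * ‖Z.f^[k / 2 * (2 * τ)] x - Z.f^[k / 2 * (2 * τ)] z‖ ≤
        C ^ (k % 2 * τ) * (C ^ (2 * τ))⁻¹ ^ 20 := mul_le_mul_of_nonneg_left h1 (by positivity)
    refine h3.trans (hp.trans ?_)
    rw [Nat.cast_one, one_mul]
    exact pow_le_pow_of_le_one hq0.le hq1.le (by norm_num)
  choose S hS hS' using exists_near (d := d) m 1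
  refine ⟨fun c => if h : ∃ z, Z.GoodO τ (2 * m * τ) z ∧ Z.nm (2 * τ) m z = c then
    S (Z.nm τ m h.choose) ×ˢ S (Z.nm τ m (Z.f^[m * τ] h.choose)) else ∅, fun c => ?_, fun x hx => ?_⟩
  · dsimp only
    split_ifs with h
    · rw [Finset.card_product, two_mul (d * (m + 1)), pow_add]
      exact Nat.mul_le_mul (hS _) (hS _)
    · simp
  · have h : ∃ z, Z.GoodO τ (2 * m * τ) z ∧ Z.nm (2 * τ) m z = Z.nm (2 * τ) m x := ⟨x, hx, rfl⟩
    dsimp only
    rw [dif_pos h, Finset.mem_product, hS', hS']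
    obtain ⟨hz, hzx⟩ := h.choose_spec
    constructor
    · intro j i
      exact abs_cell_sub_le hσ 1 (key x _ hz hzx.symm j (by omega)) i
    · intro j i
      have h1 := key x _ hz hzx.symm (j + m) (by omega)
      rw [add_mul, Function.iterate_add_apply, Function.iterate_add_apply] at h1
      exact abs_cell_sub_le hσ 1 h1 i

/-- Bounded multiplicity of enlarged double names. -/
theorem tsum_near_le (τ m R : ℕ) :
    ∑' a : Nm d m, ∑' b : Nm d m, Z.ν {y | (∀ j i, |Z.nm τ m y j i - a j i| ≤ R) ∧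
      ∀ j i, |Z.nm τ m (Z.f^[m * τ] y) j i - b j i| ≤ R} ≤
      (((2 * R + 1) ^ (2 * (d * (m + 1))) : ℕ) : ℝ≥0∞) := by
  classical
  have := Z.prob
  rw [← ENNReal.tsum_prod]
  have hg : Measurable fun y => (Z.nm τ m y, Z.nm τ m (Z.f^[m * τ] y)) :=
    (Z.measurable_nm τ m).prodMk ((Z.measurable_nm τ m).comp (Z.pres.measurable.iterate _))
  refine Local.tsum_count Z.ν hg
    (fun p q : Nm d m × Nm d m => (∀ j i, |p.1 j i - q.1 j i| ≤ R) ∧ ∀ j i, |p.2 j i - q.2 j i| ≤ R)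
    _ fun p => ?_
  obtain ⟨S, hS, hS'⟩ := exists_near m R p.1
  obtain ⟨T, hT, hT'⟩ := exists_near m R p.2
  refine ⟨S ×ˢ T, ?_, fun q hq => ?_⟩
  · rw [Finset.card_product, two_mul (d * (m + 1)), pow_add]
    exact Nat.mul_le_mul hS hT
  · rw [Finset.mem_product, hS', hT']
    exact ⟨fun j i => by rw [abs_sub_comm]; exact hq.1 j i,
      fun j i => by rw [abs_sub_comm]; exact hq.2 j i⟩

end PM

end Vale.Agent.P109
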