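import Vale.Agent.P109.Convex
import Vale.Agent.P109.Local

/-! P109: the volume loss and the splitting defect. -/

namespace Vale.Agent.P109

open MeasureTheory Set Metric Filter Topology
open scoped ENNReal Pointwise

variable {d : ℕ}

namespace Defect

/-- The vectors of the unit ball whose image lies in the unit ball. -/
def WW (P : E d →L[ℝ] E d) : Set (E d) := {u : E d | ‖u‖ ≤ 1 ∧ ‖P u‖ ≤ 1}

theorem vol_ball {r : ℝ} (hr : 0 ≤ r) : (volume (closedBall (0 : E d) r)).toReal = (2 * r) ^ d := by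
  rw [Real.volume_pi_closedBall _ hr, Fintype.card_fin, ENNReal.toReal_ofReal (by positivity)]

theorem ne_top {S : Set (E d)} {r : ℝ} (h : S ⊆ closedBall 0 r) : volume S ≠ ⊤ :=
  ne_top_of_le_ne_top (isCompact_closedBall _ _).measure_ne_top (measure_mono h)

theorem vol_mono {S T : Set (E d)} {r : ℝ} (h : S ⊆ T) (hT : T ⊆ closedBall 0 r) :
    (volume S).toReal ≤ (volume T).toReal :=
  ENNReal.toReal_mono (ne_top hT) (measure_mono h)

theorem WW_sub (P : E d →L[ℝ] E d) : WW P ⊆ closedBall 0 1 :=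
  fun _ hu => mem_closedBall_zero_iff.2 hu.1

theorem le_WW (P : E d →L[ℝ] E d) {L : ℝ} (hL : 1 ≤ L) (hP : ‖P‖ ≤ L) :
    (2 * L⁻¹) ^ d ≤ (volume (WW P)).toReal := by
  have hL0 : 0 < L := by linarith
  rw [← vol_ball (inv_pos.2 hL0).le]
  refine vol_mono (fun u hu => ?_) (WW_sub P)
  have h1 := mem_closedBall_zero_iff.1 hu
  refine ⟨h1.trans (inv_le_one_of_one_le₀ hL), (P.le_opNorm u).trans ?_⟩
  calc ‖P‖ * ‖u‖ ≤ L * L⁻¹ := mul_le_mul hP h1 (norm_nonneg _) hL0.le
    _ = 1 := mul_inv_cancel₀ hL0.ne'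

theorem WW_pos (P : E d →L[ℝ] E d) : 0 < (volume (WW P)).toReal := by
  refine lt_of_lt_of_le ?_ (le_WW P (le_max_left 1 ‖P‖) (le_max_right _ _))
  have : (0 : ℝ) < max 1 ‖P‖ := lt_max_of_lt_left one_pos
  positivity

theorem vol_WW (P : E d →L[ℝ] E d) : (volume (WW P)).toReal = 2 ^ d * Real.exp (-vv P) := by
  have h := WW_pos P
  show _ = 2 ^ d * Real.exp (- -Real.log ((volume (WW P)).toReal / 2 ^ d))
  rw [neg_neg, Real.exp_log (div_pos h (by positivity))]
  field_simp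

theorem Bl_one (A : ℕ → E d →L[ℝ] E d) : Bl A 1 1 = WW (A 0) := by
  ext u
  refine ⟨fun h => ⟨h 0 zero_le_one, h 1 le_rfl⟩, fun h j hj => ?_⟩
  interval_cases j
  · exact h.1
  · exact h.2

theorem Bl_sub_WW (A : ℕ → E d →L[ℝ] E d) (N : ℕ) : Bl A N 1 ⊆ WW (pp A N) :=
  fun _ h => ⟨h 0 (Nat.zero_le _), h N le_rfl⟩

theorem sum_sub (A B : ℕ → E d →L[ℝ] E d) (j k : ℕ) :
    pp A j '' Bl A j 1 + Bl B k 1 ⊆ closedBall 0 2 := by
  rintro _ ⟨a, ha, b, hb, rfl⟩
  have h1 := mem_closedBall_zero_iff.1 (image_Bl_subset_ball A j 1 ha)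
  have h2 := mem_closedBall_zero_iff.1 (Bl_subset_ball B k 1 hb)
  rw [mem_closedBall_zero_iff]
  exact (norm_add_le _ _).trans (by linarith)

theorem split (A : ℕ → E d →L[ℝ] E d) (j k : ℕ) :
    (volume (Bl A j 1)).toReal * (volume (Bl (sh j A) k 1)).toReal ≤
      2 ^ d * ((volume (Bl A (j + k) 1)).toReal *
        (volume (pp A j '' Bl A j 1 + Bl (sh j A) k 1)).toReal) := by
  have h := vol_mul_le (symCvx_Bl A j zero_le_one) (symCvx_Bl (sh j A) k zero_le_one) (pp A j)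
  rw [← Bl_add] at h
  have h2 := ENNReal.toReal_mono (ENNReal.mul_ne_top (by simp) (ENNReal.mul_ne_top
    (ne_top (Bl_subset_ball A _ 1)) (ne_top (sum_sub A _ j k)))) h
  simpa only [ENNReal.toReal_mul, ENNReal.toReal_pow, ENNReal.toReal_ofNat] using h2

theorem le_Bl (A : ℕ → E d →L[ℝ] E d) (N : ℕ) :
    2 ^ d * Real.exp (-(∑ j ∈ Finset.range N, vv (A j) + N * d * Real.log 4)) ≤
      (volume (Bl A N 1)).toReal := by
  induction N with
  | zero =>
    have h : Bl A 0 1 = closedBall 0 1 := by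
      ext u
      rw [mem_closedBall_zero_iff]
      refine ⟨fun h => h 0 le_rfl, fun h j hj => ?_⟩
      rw [Nat.le_zero.1 hj]
      exact h
    rw [h, vol_ball zero_le_one]
    simp
  | succ N ih =>
    have h1 := split A N 1
    have h2 := vol_mono (sum_sub A (sh N A) N 1) Subset.rfl
    rw [vol_ball two_pos.le] at h2
    rw [Bl_one, vol_WW] at h1
    rw [Bl_one] at h2
    have h3 : Real.exp (-(∑ j ∈ Finset.range (N + 1), vv (A j) + (N + 1 : ℕ) * d * Real.log 4)) *
        (2 * 2) ^ d = Real.exp (-(∑ j ∈ Finset.range N, vv (A j) + N * d * Real.log 4)) *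
          Real.exp (-vv (sh N A 0)) := by
      have h4 : ((2 : ℝ) * 2) ^ d = Real.exp (d * Real.log 4) := by
        rw [Real.exp_nat_mul, Real.exp_log (by norm_num)]
        norm_num
      rw [h4, ← Real.exp_add, ← Real.exp_add, Finset.sum_range_succ]
      congr 1
      show _ = _ + -vv (A N)
      push_cast
      ring
    have h5 : (0 : ℝ) < 2 ^ d * (2 * 2) ^ d := by positivity
    refine le_of_mul_le_mul_right ?_ h5
    calc _ = 2 ^ d * Real.exp (-(∑ j ∈ Finset.range N, vv (A j) + N * d * Real.log 4)) *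
          (2 ^ d * Real.exp (-vv (sh N A 0))) := by
          rw [mul_mul_mul_comm, mul_mul_mul_comm (2 ^ d : ℝ) _ (2 ^ d), h3]
      _ ≤ (volume (Bl A N 1)).toReal * (2 ^ d * Real.exp (-vv (sh N A 0))) :=
          mul_le_mul_of_nonneg_right ih (by positivity)
      _ ≤ _ := h1
      _ ≤ 2 ^ d * ((volume (Bl A (N + 1) 1)).toReal * (2 * 2) ^ d) :=
          mul_le_mul_of_nonneg_left (mul_le_mul_of_nonneg_left h2 ENNReal.toReal_nonneg)
            (by positivity)
      _ = _ := by ring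

end Defect

open Vale.Agent.P109.Defect

theorem vv_nonneg (P : E d →L[ℝ] E d) : 0 ≤ vv P := by
  have h := vol_mono (WW_sub P) Subset.rfl
  rw [vol_ball zero_le_one, vol_WW, mul_one] at h
  have h2 : Real.exp (-vv P) ≤ 1 := (mul_le_iff_le_one_right (by positivity)).1 h
  exact neg_nonpos.1 (Real.exp_le_one_iff.1 h2)

theorem vv_le (P : E d →L[ℝ] E d) {L : ℝ} (hL : 1 ≤ L) (hP : ‖P‖ ≤ L) :
    vv P ≤ d * Real.log L := by
  have h := le_WW P hL hP
  rw [vol_WW, mul_pow] at h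
  have h2 := le_of_mul_le_mul_left h (by positivity)
  have h3 : L⁻¹ ^ d = Real.exp (-(d * Real.log L)) := by
    rw [Real.exp_neg, Real.exp_nat_mul, Real.exp_log (by linarith), inv_pow]
  rw [h3, Real.exp_le_exp] at h2
  linarith

theorem vv_pp_le (A : ℕ → E d →L[ℝ] E d) (N : ℕ) :
    vv (pp A N) ≤ ∑ j ∈ Finset.range N, vv (A j) + N * d * Real.log 4 := by
  have h := (le_Bl A N).trans (vol_mono (Bl_sub_WW A N) (WW_sub _))
  rw [vol_WW] at h
  have h2 := Real.exp_le_exp.1 (le_of_mul_le_mul_left h (by positivity))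
  linarith

theorem dec_of_defect (A : ℕ → E d →L[ℝ] E d) {N j : ℕ} (hj : j ≤ N) {Y : ℝ}
    (hY : 2 * 8 ^ d * d * 4 ^ (N * d) < Y)
    (h : ∑ i ∈ Finset.range N, vv (A i) - vv (pp A N) ≤ Real.log Y) : Dec A N j (Y⁻¹ ^ 2) := by
  rcases Nat.eq_zero_or_pos d with rfl | hd
  · intro e _
    exact ⟨0, (symCvx_Bl A j zero_le_one).zero, 0, (symCvx_Bl _ _ zero_le_one).zero,
      Subsingleton.elim _ _⟩
  obtain ⟨k, rfl⟩ := Nat.exists_eq_add_of_le hj
  have hd1 : (1 : ℝ) ≤ d := by exact_mod_cast hd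
  have h8 : (1 : ℝ) ≤ 8 ^ d := one_le_pow₀ (by norm_num)
  have h4 : (1 : ℝ) ≤ 4 ^ ((j + k) * d) := one_le_pow₀ (by norm_num)
  have hdY : (d : ℝ) ≤ Y := by
    refine le_trans ?_ hY.le
    calc (d : ℝ) = 1 * 1 * d * 1 := by ring
      _ ≤ _ := by gcongr; norm_num
  have hY0 : 0 < Y := by linarith
  have hS := ((symCvx_Bl A j zero_le_one).image (pp A j)).add (symCvx_Bl (sh j A) k zero_le_one)
  have h1 := split A j k
  have h2 := vol_mono (Bl_sub_WW A (j + k)) (WW_sub _)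
  rw [vol_WW] at h2
  have h3 := mul_le_mul (le_Bl A j) (le_Bl (sh j A) k) (by positivity) ENNReal.toReal_nonneg
  have h5 := (h3.trans h1).trans (mul_le_mul_of_nonneg_left
    (mul_le_mul_of_nonneg_right h2 ENNReal.toReal_nonneg) (by positivity))
  set s := (volume (pp A j '' Bl A j 1 + Bl (sh j A) k 1)).toReal with hs
  rw [mul_mul_mul_comm, mul_assoc (2 ^ d : ℝ) (Real.exp _), ← Real.exp_add,
    ← mul_assoc (2 ^ d : ℝ) (2 ^ d)] at h5
  have h6 := le_of_mul_le_mul_left h5 (by positivity)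
  have h7 : Real.exp (-Real.log Y - ((j + k) * d : ℕ) * Real.log 4) ≤ s := by
    refine le_of_mul_le_mul_left (le_trans ?_ h6) (Real.exp_pos _)
    rw [← Real.exp_add, Real.exp_le_exp]
    rw [Finset.sum_range_add] at h
    have h9 : ∑ i ∈ Finset.range k, vv (sh j A i) = ∑ i ∈ Finset.range k, vv (A (j + i)) := rfl
    rw [h9]
    push_cast
    linarith
  rw [Real.exp_sub, Real.exp_neg, Real.exp_log hY0, Real.exp_nat_mul,
    Real.exp_log (by norm_num)] at h7
  have h9 : 2 * 8 ^ d * (d * Y⁻¹ ^ 2) < s := by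
    refine lt_of_lt_of_le ?_ h7
    rw [lt_div_iff₀ (by positivity)]
    calc _ = 2 * 8 ^ d * d * 4 ^ ((j + k) * d) * (Y⁻¹ * Y⁻¹) := by ring
      _ < Y * (Y⁻¹ * Y⁻¹) := mul_lt_mul_of_pos_right hY (by positivity)
      _ = Y⁻¹ := by field_simp
  have h10 := ball_subset_of_vol hS (sum_sub A _ j k) (ρ := d * Y⁻¹ ^ 2) (by positivity) (by
      have h11 : Y⁻¹ ≤ 1 := inv_le_one_of_one_le₀ (by linarith)
      have h12 : d * Y⁻¹ ≤ 1 := by rw [← div_eq_mul_inv, div_le_one hY0]; exact hdY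
      calc (d : ℝ) * Y⁻¹ ^ 2 = d * Y⁻¹ * Y⁻¹ := by ring
        _ ≤ 1 * 1 := mul_le_mul h12 h11 (by positivity) zero_le_one
        _ = 1 := one_mul 1)
    ((ENNReal.ofReal_lt_iff_lt_toReal (by positivity) (ne_top (sum_sub A _ j k))).2 h9)
  rw [mul_div_cancel_left₀ _ (by positivity)] at h10
  intro e he
  obtain ⟨_, ⟨u, hu, rfl⟩, v, hv, rfl⟩ := h10 (mem_closedBall_zero_iff.2 he)
  exact ⟨u, hu, v, by rwa [Nat.add_sub_cancel_left], rfl⟩

theorem PM.measurable_vv_co {C : ℝ} (Z : PM d C) (t : ℕ) :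
    Measurable fun x => vv (Z.co t x) := by
  have hA : Measurable Z.A := by
    unfold PM.A
    exact Measurable.ite (measurableSet_le (measurable_fderiv ℝ Z.f).norm measurable_const)
      (measurable_fderiv ℝ Z.f) measurable_const
  have hco : Measurable (Z.co t) := by
    induction t with
    | zero => exact measurable_const
    | succ t ih =>
      have h1 : Continuous fun p : (E d →L[ℝ] E d) × (E d →L[ℝ] E d) => p.1.comp p.2 :=
        continuous_fst.clm_comp continuous_snd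
      exact h1.measurable.comp ((hA.comp (Z.pres.measurable.iterate t)).prodMk ih)
  have hS : MeasurableSet {p : (E d →L[ℝ] E d) × E d | ‖p.2‖ ≤ 1 ∧ ‖p.1 p.2‖ ≤ 1} :=
    ((isClosed_le continuous_snd.norm continuous_const).inter
      (isClosed_le (continuous_fst.clm_apply continuous_snd).norm continuous_const)).measurableSet
  have hv : Measurable (vv : (E d →L[ℝ] E d) → ℝ) :=
    (((measurable_measure_prodMk_left (ν := volume) hS).ennreal_toReal).div_const _).log.neg
  exact hv.comp hco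

end Vale.Agent.P109
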