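import Vale.Agent.P109.AdicBasic
import Vale.Agent.P109.Defect

/-! P109: the probability of bad double windows. -/

namespace Vale.Agent.P109

open MeasureTheory Set Metric Filter Topology
open scoped ENNReal Pointwise

namespace BadProb

theorem ev_exp (k : ℕ) : ∀ᶠ n : ℕ in atTop, n + 2 ≤ 2 ^ (n - k) := by
  filter_upwards [eventually_ge_atTop (2 * k + 4)] with n hn
  obtain ⟨j, rfl⟩ : ∃ j, n = k + j := ⟨n - k, by omega⟩
  rw [Nat.add_sub_cancel_left]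
  have h : ∀ i : ℕ, 2 * (i + 2) ≤ 2 ^ (i + 2) := by
    intro i
    induction i with
    | zero => norm_num
    | succ i ih => rw [show i + 1 + 2 = i + 2 + 1 by ring, pow_succ]; omega
  obtain ⟨i, rfl⟩ : ∃ i, j = i + 2 := ⟨j - 2, by omega⟩
  have := h i
  omega

theorem iter_Φ {d : ℕ} {C : ℝ} {b D : ℕ → ℕ} {F : Fam b D} {Ω : Type} [MeasurableSpace Ω]
    (J : Joint d C F Ω) (k : ℕ) (ω : Ω) : J.Φ (J.T^[k] ω) = J.Z.f^[k] (J.Φ ω) := by
  induction k with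
  | zero => rfl
  | succ k ih => rw [Function.iterate_succ_apply', Function.iterate_succ_apply', J.equi, ih]

theorem vv_co {d : ℕ} {C : ℝ} (hC : 2 ≤ C) (Z : PM d C) (t : ℕ) (x : E d) :
    vv (Z.co t x) ≤ d * (t * Real.log C) := by
  have := vv_le (Z.co t x) (one_le_pow₀ (by linarith)) (Z.norm_co_le hC t x)
  rwa [Real.log_pow] at this

theorem not_goodO {d : ℕ} {C : ℝ} (hC : 2 ≤ C) {b D : ℕ → ℕ} {F : Fam b D} {Ω : Type}
    [MeasurableSpace Ω] (J : Joint d C F Ω) {n τ t : ℕ} (hτ : n + 1 ≤ τ) (ht : t ≤ 2 ^ n) :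
    J.Ad.P n {ω | ¬ J.Z.GoodO τ t (J.Φ ω)} ≤ ENNReal.ofReal ((2 ^ (n + 1))⁻¹ * (2 ^ n)⁻¹) := by
  refine (J.Ad.P_le _ _).trans ?_
  have h1 : J.μ {ω | ¬ J.Z.GoodO τ t (J.Φ ω)} ≤ J.Z.ν {x | ¬ J.Z.GoodO τ t x} := by
    rw [← J.hΦ.map_eq]
    exact Measure.le_map_apply J.hΦ.measurable.aemeasurable _
  refine (mul_le_mul_right (h1.trans (J.Z.measure_not_goodO hC τ t)) _).trans ?_
  rw [← ENNReal.ofReal_ofNat 2, ← ENNReal.ofReal_pow (by norm_num),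
    ← ENNReal.ofReal_mul (by positivity)]
  refine ENNReal.ofReal_le_ofReal ?_
  have hY : (2 : ℝ) ^ (n + 1) ≤ C ^ τ :=
    (pow_le_pow_right₀ (by norm_num) hτ).trans (pow_le_pow_left₀ (by norm_num) hC τ)
  have hCY : C ≤ C ^ τ := le_self_pow₀ (by linarith) (by omega)
  have h2 : (0 : ℝ) < 2 ^ n := by positivity
  have h3 : (t : ℝ) + 1 ≤ 2 ^ (n + 1) := by
    have : (t : ℝ) ≤ 2 ^ n := by exact_mod_cast ht
    have : (1 : ℝ) ≤ 2 ^ n := one_le_pow₀ (by norm_num)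
    rw [pow_succ]; linarith
  have h4 : (2 : ℝ) ^ n ≤ 2 ^ (n + 1) := by rw [pow_succ]; linarith
  obtain ⟨Y, hYY⟩ : ∃ Y, Y = C ^ τ := ⟨_, rfl⟩
  rw [← hYY] at hY hCY ⊢
  have hY0 : 0 < Y := lt_of_lt_of_le (by positivity) hY
  have hY1 : Y⁻¹ ≤ 1 := inv_le_one_of_one_le₀ ((one_le_pow₀ (by norm_num)).trans hY)
  have hY2 : Y⁻¹ ^ 18 ≤ Y⁻¹ ^ 5 := pow_le_pow_of_le_one (by positivity) hY1 (by norm_num)
  have hY3 : (2 : ℝ) ^ n ≤ Y := by linarith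
  have hY4 : (t : ℝ) + 1 ≤ Y := by linarith
  calc (2 : ℝ) ^ n * ((t + 1) * (C * Y⁻¹ ^ 18)) ≤ Y * (Y * (Y * Y⁻¹ ^ 5)) :=
        mul_le_mul hY3 (mul_le_mul hY4 (mul_le_mul hCY hY2 (by positivity) hY0.le)
          (by positivity) hY0.le) (by positivity) hY0.le
    _ = Y⁻¹ * Y⁻¹ := by field_simp
    _ ≤ _ := by gcongr

end BadProb

open BadProb

theorem Joint.a_mem {d : ℕ} {C : ℝ} (hC : 2 ≤ C) {b D : ℕ → ℕ} {F : Fam b D} {Ω : Type}
    [MeasurableSpace Ω] (J : Joint d C F Ω) (j : ℕ) : 0 ≤ J.a j ∧ J.a j ≤ d * Real.log C := by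
  have := J.Ad.P_prob j
  have hl : 0 ≤ Real.log C := Real.log_nonneg (by linarith)
  refine ⟨div_nonneg (integral_nonneg fun ω => vv_nonneg _) (by positivity), ?_⟩
  rw [Joint.a, div_le_iff₀ (by positivity)]
  refine (integral_mono_of_nonneg (ae_of_all _ fun ω => vv_nonneg _) (integrable_const
    (d * ((2 ^ j : ℕ) * Real.log C))) (ae_of_all _ fun ω => vv_co hC _ _ _)).trans ?_
  simp only [integral_const, probReal_univ, smul_eq_mul, one_mul]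
  push_cast
  exact le_of_eq (by ring)

theorem bad_prob (d : ℕ) {C : ℝ} (hC : 2 ≤ C) (l : ℕ) : ∃ n₁ : ℕ,
    ∀ (b D : ℕ → ℕ) (F : Fam b D) (Ω : Type) [MeasurableSpace Ω] (J : Joint d C F Ω) (n : ℕ),
      n₁ ≤ n →
      J.Ad.P (n + 1) {ω | ¬ J.Z.GoodO (2 ^ (n - l)) (2 * 2 ^ l * 2 ^ (n - l)) (J.Φ ω)} ≤
        ENNReal.ofReal ((2 ^ (n + 2))⁻¹) ∧
      0 ≤ 2 * 2 ^ l * (J.a (n - l) - J.a (n + 1)) / Real.log C + (3 / 4) ^ n / 2 ∧
      J.Ad.P (n + 1) {ω | ¬ J.Z.Good2 (2 ^ (n - l)) (2 ^ l) (J.Φ ω)} ≤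
        ENNReal.ofReal (2 * 2 ^ l * (J.a (n - l) - J.a (n + 1)) / Real.log C + (3 / 4) ^ n / 2) := by
  obtain ⟨N, hN⟩ : ∃ N : ℕ, N = 2 * 2 ^ l := ⟨_, rfl⟩
  obtain ⟨n₁, hn₁⟩ := eventually_atTop.1 ((ev_exp l).and
    (((tendsto_natCast_atTop_atTop (R := ℝ)).eventually_ge_atTop
      (2 * 8 ^ d * d * 4 ^ (N * d))).and
    ((tendsto_pow_atTop_atTop_of_one_lt (show (1 : ℝ) < 3 / 2 by norm_num)).eventually_ge_atTop
      (8 * N * d * 2 ^ l))))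
  refine ⟨n₁ + l, fun b D F Ω _ J n hn => ?_⟩
  obtain ⟨e1, e2, e3⟩ := hn₁ n (by omega)
  obtain ⟨τ, hτ⟩ : ∃ τ, τ = 2 ^ (n - l) := ⟨_, rfl⟩
  rw [← hτ] at e1 ⊢
  have hNτ : N * τ = 2 ^ (n + 1) := by
    rw [hN, hτ, mul_assoc, ← pow_add, ← pow_succ']; congr 1; omega
  have hN' : 2 ^ (n + 1 - (n - l)) = N := by
    rw [hN, ← pow_succ']; congr 1; omega
  have := J.Ad.P_prob (n + 1)
  have hlC : Real.log 2 ≤ Real.log C := Real.log_le_log (by norm_num) hC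
  have hl2 : 0 < Real.log 2 := Real.log_pos (by norm_num)
  have hl : 0 < Real.log C := by linarith
  have hτ0 : (0 : ℝ) < τ := by exact_mod_cast (by omega : 0 < τ)
  have G1 : J.Ad.P (n + 1) {ω | ¬ J.Z.GoodO τ (2 * 2 ^ l * τ) (J.Φ ω)} ≤
      ENNReal.ofReal ((2 ^ (n + 2))⁻¹) := by
    refine (not_goodO hC J e1 (by rw [← hN, hNτ])).trans (ENNReal.ofReal_le_ofReal ?_)
    refine mul_le_of_le_one_right (by positivity) (inv_le_one_of_one_le₀ (one_le_pow₀ (by norm_num)))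
  -- the defect
  let φ : Ω → ℝ := fun ω => ∑ i ∈ Finset.range N, vv (J.Z.co τ (J.Φ (J.T^[i * τ] ω))) -
    vv (J.Z.co (2 ^ (n + 1)) (J.Φ ω)) + N * d * Real.log 4
  have hφ : ∀ ω, φ ω = ∑ i ∈ Finset.range N, vv (J.Z.ch τ (J.Φ ω) i) -
      vv (pp (J.Z.ch τ (J.Φ ω)) N) + N * d * Real.log 4 := by
    intro ω
    simp only [φ, iter_Φ, J.Z.pp_ch, hNτ, PM.ch]
  have hφ0 : ∀ ω, 0 ≤ φ ω := fun ω => by
    rw [hφ]; linarith [vv_pp_le (J.Z.ch τ (J.Φ ω)) N]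
  have mv : ∀ t, Measurable fun ω => vv (J.Z.co t (J.Φ ω)) := fun t =>
    (J.Z.measurable_vv_co t).comp J.hΦ.measurable
  have bv : ∀ t ω, |vv (J.Z.co t (J.Φ ω))| ≤ d * (t * Real.log C) := fun t ω => by
    rw [abs_of_nonneg (vv_nonneg _)]; exact vv_co hC _ _ _
  have iv : ∀ t k, Integrable (fun ω => vv (J.Z.co t (J.Φ (J.T^[k] ω)))) (J.Ad.P (n + 1)) :=
    fun t k => Integrable.of_bound ((mv t).comp (J.pres.measurable.iterate k)).aestronglyMeasurable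
      _ (ae_of_all _ fun ω => bv t _)
  have i1 : Integrable (fun ω => ∑ i ∈ Finset.range N, vv (J.Z.co τ (J.Φ (J.T^[i * τ] ω))))
      (J.Ad.P (n + 1)) := integrable_finsetSum _ fun i _ => iv _ _
  have i2 : Integrable (fun ω => vv (J.Z.co (2 ^ (n + 1)) (J.Φ ω))) (J.Ad.P (n + 1)) := iv _ 0
  have iφ : Integrable φ (J.Ad.P (n + 1)) := (i1.sub i2).add (integrable_const _)
  have hint : ∫ ω, φ ω ∂(J.Ad.P (n + 1)) =
      N * τ * (J.a (n - l) - J.a (n + 1)) + N * d * Real.log 4 := by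
    have t1 := J.Ad.tower_real J.pres (j := n - l) (n := n + 1) (by omega) (mv τ) (bv τ)
    rw [hN', ← hτ] at t1
    have hN'' : (2 : ℝ) ^ (n + 1 - (n - l)) = N := by exact_mod_cast hN'
    have hNτ' : (N : ℝ) * τ = 2 ^ (n + 1) := by exact_mod_cast hNτ
    have hτ' : (τ : ℝ) = 2 ^ (n - l) := by exact_mod_cast hτ
    have i3 : Integrable (fun ω => ∑ i ∈ Finset.range N, vv (J.Z.co τ (J.Φ (J.T^[i * τ] ω))) -
        vv (J.Z.co (2 ^ (n + 1)) (J.Φ ω))) (J.Ad.P (n + 1)) := i1.sub i2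
    simp only [φ]
    rw [integral_add i3 (integrable_const _), integral_sub i1 i2,
      integral_finsetSum _ fun i _ => iv _ _, t1, hN'', mul_sub, Joint.a, Joint.a, ← hτ, ← hτ',
      ← hNτ']
    have hN0 : (N : ℝ) ≠ 0 := by rw [hN]; positivity
    simp only [integral_const, probReal_univ, smul_eq_mul, one_mul]
    field_simp
  have hsm : N * d * Real.log 4 / (τ * Real.log C) ≤ (3 / 4) ^ n / 4 := by
    have h4 : Real.log 4 = 2 * Real.log 2 := by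
      rw [show (4 : ℝ) = 2 ^ 2 by norm_num, Real.log_pow]; norm_num
    have hτ' : (τ : ℝ) * 2 ^ l = 2 ^ n := by
      rw [hτ]; push_cast; rw [← pow_add]; congr 1; omega
    have h34 : (3 / 4 : ℝ) ^ n * 2 ^ n = (3 / 2) ^ n := by rw [← mul_pow]; norm_num
    rw [div_le_iff₀ (by positivity), h4]
    have h5 : 8 * (N : ℝ) * d ≤ (3 / 4) ^ n * τ := by
      refine le_of_mul_le_mul_right ?_ (show (0 : ℝ) < 2 ^ l by positivity)
      rw [mul_assoc ((3 / 4 : ℝ) ^ n), hτ', h34]; exact e3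
    calc (N : ℝ) * d * (2 * Real.log 2) = 8 * N * d / 4 * Real.log 2 := by ring
      _ ≤ (3 / 4) ^ n * τ / 4 * Real.log C := by gcongr
      _ = _ := by ring
  have hθ : (∫ ω, φ ω ∂(J.Ad.P (n + 1))) / (τ * Real.log C) =
      2 * 2 ^ l * (J.a (n - l) - J.a (n + 1)) / Real.log C +
        N * d * Real.log 4 / (τ * Real.log C) := by
    rw [hint, hN]; push_cast; field_simp
  have hθ0 : 0 ≤ (∫ ω, φ ω ∂(J.Ad.P (n + 1))) / (τ * Real.log C) :=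
    div_nonneg (integral_nonneg hφ0) (by positivity)
  have h34 : (0 : ℝ) ≤ (3 / 4) ^ n := by positivity
  refine ⟨G1, by linarith, ?_⟩
  have G2 : J.Ad.P (n + 1) {ω | τ * Real.log C ≤ φ ω} ≤
      ENNReal.ofReal ((∫ ω, φ ω ∂(J.Ad.P (n + 1))) / (τ * Real.log C)) := by
    have := mul_meas_ge_le_integral_of_nonneg (ae_of_all _ hφ0) iφ (τ * Real.log C)
    rw [← ofReal_measureReal]
    refine ENNReal.ofReal_le_ofReal ?_
    rw [le_div_iff₀ (by positivity), mul_comm]; exact this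
  have hsub : {ω | ¬ J.Z.Good2 τ (2 ^ l) (J.Φ ω)} ⊆
      {ω | ¬ J.Z.GoodO τ (2 * 2 ^ l * τ) (J.Φ ω)} ∪ {ω | τ * Real.log C ≤ φ ω} := by
    intro ω hω
    by_contra hc
    simp only [mem_union, mem_ofPred_eq, not_or, not_not, not_le] at hc
    refine hω ⟨hc.1, fun j hj => ?_⟩
    rw [← hN] at hj ⊢
    refine dec_of_defect _ hj ?_ ?_
    · have h1 : (n : ℝ) + 2 ≤ τ := by exact_mod_cast e1
      have h2 : (τ : ℝ) < 2 ^ τ := by exact_mod_cast Nat.lt_two_pow_self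
      have h3 : (2 : ℝ) ^ τ ≤ C ^ τ := pow_le_pow_left₀ (by norm_num) hC τ
      linarith
    · have := hc.2
      rw [hφ] at this
      have h4 : 0 ≤ N * d * Real.log 4 := by
        have := Real.log_nonneg (show (1 : ℝ) ≤ 4 by norm_num); positivity
      rw [Real.log_pow]; linarith
  refine (measure_mono hsub).trans ((measure_union_le _ _).trans ((add_le_add G1 G2).trans ?_))
  rw [← ENNReal.ofReal_add (by positivity) hθ0]
  refine ENNReal.ofReal_le_ofReal ?_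
  have h5 : ((2 : ℝ) ^ (n + 2))⁻¹ ≤ (3 / 4) ^ n / 4 := by
    have : (1 / 2 : ℝ) ^ n ≤ (3 / 4) ^ n := pow_le_pow_left₀ (by norm_num) (by norm_num) n
    calc ((2 : ℝ) ^ (n + 2))⁻¹ = (1 / 2) ^ n / 4 := by
          rw [one_div, inv_pow, pow_add]; field_simp; norm_num
      _ ≤ _ := by linarith
  linarith

end Vale.Agent.P109
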