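import Vale.Agent.P109.Defs

/-! P109: chains of linear maps. -/

namespace Vale.Agent.P109

open MeasureTheory Set Metric Filter Topology
open scoped ENNReal Pointwise

variable {d : ℕ}

theorem pp_add (A : ℕ → E d →L[ℝ] E d) (k j : ℕ) :
    pp A (k + j) = (pp (sh k A) j).comp (pp A k) := by
  induction j with
  | zero => rfl
  | succ j ih =>
    show (A (k + j)).comp (pp A (k + j)) = ((sh k A j).comp (pp (sh k A) j)).comp (pp A k)
    rw [ih]; rfl

theorem pp_congr {A B : ℕ → E d →L[ℝ] E d} {N : ℕ} (h : ∀ j < N, A j = B j) :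
    ∀ j ≤ N, pp A j = pp B j := by
  intro j
  induction j with
  | zero => intro _; rfl
  | succ j ih =>
    intro hj
    show (A j).comp (pp A j) = (B j).comp (pp B j)
    rw [ih (by omega), h j (by omega)]

theorem Bl_smul (A : ℕ → E d →L[ℝ] E d) (N : ℕ) {r : ℝ} (hr : 0 < r) :
    Bl A N r = r • Bl A N 1 := by
  ext u
  rw [Set.mem_smul_set_iff_inv_smul_mem₀ hr.ne']
  refine forall_congr' fun j => forall_congr' fun _ => ?_
  rw [map_smul, norm_smul, norm_inv, Real.norm_of_nonneg hr.le, inv_mul_le_iff₀ hr, mul_one]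

theorem Bl_subset_ball (A : ℕ → E d →L[ℝ] E d) (N : ℕ) (r : ℝ) :
    Bl A N r ⊆ closedBall 0 r := by
  intro u hu
  rw [mem_closedBall_zero_iff]
  exact hu 0 (Nat.zero_le _)

theorem image_Bl_subset_ball (A : ℕ → E d →L[ℝ] E d) (N : ℕ) (r : ℝ) :
    pp A N '' Bl A N r ⊆ closedBall 0 r := by
  rintro _ ⟨u, hu, rfl⟩
  rw [mem_closedBall_zero_iff]
  exact hu N le_rfl

theorem Bl_add (A : ℕ → E d →L[ℝ] E d) (k N : ℕ) (r : ℝ) :
    Bl A (k + N) r = Bl A k r ∩ pp A k ⁻¹' Bl (sh k A) N r := by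
  ext u
  constructor
  · intro h
    refine ⟨fun j hj => h j (by omega), fun j hj => ?_⟩
    have h1 := h (k + j) (by omega)
    rw [pp_add] at h1
    exact h1
  · rintro ⟨h1, h2⟩ j hj
    by_cases hk : j ≤ k
    · exact h1 j hk
    · obtain ⟨i, rfl⟩ := Nat.exists_eq_add_of_le (le_of_not_ge hk)
      rw [pp_add]
      exact h2 i (by omega)

theorem Bl_spl (A B : ℕ → E d →L[ℝ] E d) (m m' : ℕ) (r : ℝ) :
    Bl (spl m A B) (m + m') r = Bl A m r ∩ pp A m ⁻¹' Bl B m' r := by
  have h1 : ∀ j ≤ m, pp (spl m A B) j = pp A j := pp_congr fun j hj => if_pos hj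
  have h2 : sh m (spl m A B) = B := by
    funext i
    show (if m + i < m then A (m + i) else B (m + i - m)) = B i
    rw [if_neg (by omega), Nat.add_sub_cancel_left]
  have h3 : Bl (spl m A B) m r = Bl A m r := by
    ext u
    exact forall_congr' fun j => forall_congr' fun hj => by rw [h1 j hj]
  rw [Bl_add, h2, h1 m le_rfl, h3]

theorem WRI.mono {A : ℕ → E d →L[ℝ] E d} {N : ℕ} {K K' : ℝ} (h : WRI A N K) (hK : K ≤ K') :
    WRI A N K' := by
  intro y hy
  obtain ⟨w, h1, h2⟩ := h y hy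
  exact ⟨w, fun j hj => (h1 j hj).trans hK, h2⟩

theorem WRI.nonneg {A : ℕ → E d →L[ℝ] E d} {N : ℕ} {K : ℝ} (h : WRI A N K) : 0 ≤ K := by
  obtain ⟨w, h1, -⟩ := h (fun _ => 0) (fun _ => by simp)
  exact (norm_nonneg _).trans (h1 0 (Nat.zero_le _))

/-- Approximate orbits are shadowed by linear orbits. -/
theorem WRI.shadow {A : ℕ → E d →L[ℝ] E d} {N : ℕ} {K η : ℝ} (h : WRI A N K) (hη : 0 ≤ η)
    (v : ℕ → E d) (hv : ∀ j < N, ‖v (j + 1) - A j (v j)‖ ≤ η) :
    ∃ u : E d, ∀ j ≤ N, ‖v j - pp A j u‖ ≤ K * η := by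
  rcases hη.eq_or_lt with rfl | hη'
  · refine ⟨v 0, fun j => ?_⟩
    have key : ∀ j ≤ N, v j = pp A j (v 0) := by
      intro j
      induction j with
      | zero => intro _; rfl
      | succ j ih =>
        intro hj
        have h1 := sub_eq_zero.1 (norm_le_zero_iff.1 (hv j (by omega)))
        rw [h1, ih (by omega)]
        rfl
    intro hj
    rw [← key j hj]
    simp
  · obtain ⟨w, h1, h2⟩ := h (fun j => if j < N then η⁻¹ • (v (j + 1) - A j (v j)) else 0) (by
      intro j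
      split_ifs with hj
      · rw [norm_smul, norm_inv, Real.norm_of_nonneg hη, inv_mul_le_iff₀ hη', mul_one]
        exact hv j hj
      · simp)
    have key : ∀ j ≤ N, v j - η • w j = pp A j (v 0 - η • w 0) := by
      intro j
      induction j with
      | zero => intro _; rfl
      | succ j ih =>
        intro hj
        show _ = A j (pp A j _)
        rw [← ih (by omega), h2 j (by omega), if_pos (by omega), smul_add, smul_inv_smul₀ hη'.ne',
          map_sub, map_smul]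
        abel
    refine ⟨v 0 - η • w 0, fun j hj => ?_⟩
    rw [← key j hj, sub_sub_cancel, norm_smul, Real.norm_of_nonneg hη, mul_comm]
    exact mul_le_mul_of_nonneg_right (h1 j hj) hη

theorem WRI_of_Dec {A : ℕ → E d →L[ℝ] E d} {N : ℕ} {ρ : ℝ} (hρ : 0 < ρ)
    (h : ∀ j, 1 ≤ j → j ≤ N → Dec A N j ρ) : WRI A N (N / ρ) := by
  intro y hy
  have hex : ∀ j, ∃ u v : E d, j < N → u ∈ Bl A (j + 1) 1 ∧
      v ∈ Bl (sh (j + 1) A) (N - (j + 1)) 1 ∧ ρ • y j = pp A (j + 1) u + v := by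
    intro j
    by_cases hj : j < N
    · obtain ⟨u, hu, v, hv, e⟩ := h (j + 1) (by omega) (by omega) (ρ • y j) (by
        rw [norm_smul, Real.norm_of_nonneg hρ.le]
        exact mul_le_of_le_one_right hρ.le (hy j))
      exact ⟨u, v, fun _ => ⟨hu, hv, e⟩⟩
    · exact ⟨0, 0, fun h' => absurd h' hj⟩
  choose u v huv using hex
  let W : ℕ → ℕ → E d := fun j i =>
    ρ⁻¹ • if i ≤ j then -pp A i (u j) else pp (sh (j + 1) A) (i - (j + 1)) (v j)
  have hW : ∀ j < N, ∀ i ≤ N, ‖W j i‖ ≤ ρ⁻¹ := by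
    intro j hj i hi
    obtain ⟨h1, h2, -⟩ := huv j hj
    simp only [W]
    rw [norm_smul, norm_inv, Real.norm_of_nonneg hρ.le]
    refine mul_le_of_le_one_right (inv_nonneg.2 hρ.le) ?_
    split_ifs with hij
    · rw [norm_neg]; exact h1 i (by omega)
    · exact h2 _ (by omega)
  have hrec : ∀ j < N, ∀ i, W j (i + 1) = A i (W j i) + if j = i then y i else 0 := by
    intro j hj i
    obtain ⟨-, -, h3⟩ := huv j hj
    simp only [W]
    rcases lt_trichotomy i j with hij | rfl | hij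
    · rw [if_pos (by omega), if_pos hij.le, if_neg hij.ne', add_zero, map_smul, map_neg]
      rfl
    · rw [if_neg (by omega), if_pos le_rfl, if_pos rfl, Nat.sub_self, map_smul, map_neg]
      have h4 : y i = ρ⁻¹ • (pp A (i + 1) (u i) + v i) := by
        rw [← h3, inv_smul_smul₀ hρ.ne']
      rw [h4, ← smul_add]
      show ρ⁻¹ • v i = ρ⁻¹ • (-(pp A (i + 1) (u i)) + (pp A (i + 1) (u i) + v i))
      rw [neg_add_cancel_left]
    · rw [if_neg (by omega), if_neg (by omega), if_neg hij.ne, add_zero, map_smul,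
        show i + 1 - (j + 1) = i - (j + 1) + 1 by omega]
      show ρ⁻¹ • A (j + 1 + (i - (j + 1))) _ = _
      rw [show j + 1 + (i - (j + 1)) = i by omega]
      rfl
  refine ⟨fun i => ∑ j ∈ Finset.range N, W j i, fun i hi => ?_, fun i hi => ?_⟩
  · refine (norm_sum_le _ _).trans ?_
    refine (Finset.sum_le_sum fun j hj => hW j (Finset.mem_range.1 hj) i hi).trans ?_
    rw [Finset.sum_const, Finset.card_range, nsmul_eq_mul, div_eq_mul_inv]
  · show ∑ j ∈ Finset.range N, W j (i + 1) = A i (∑ j ∈ Finset.range N, W j i) + y i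
    rw [Finset.sum_congr rfl fun j hj => hrec j (Finset.mem_range.1 hj) i, Finset.sum_add_distrib,
      Finset.sum_ite_eq', if_pos (Finset.mem_range.2 hi), map_sum]

theorem Dec.left {A : ℕ → E d →L[ℝ] E d} {N N' j : ℕ} {ρ : ℝ} (h : Dec A N j ρ) (hN : N' ≤ N) :
    Dec A N' j ρ := by
  intro e he
  obtain ⟨u, hu, v, hv, h1⟩ := h e he
  exact ⟨u, hu, v, fun i hi => hv i (by omega), h1⟩

theorem Dec.right {A : ℕ → E d →L[ℝ] E d} {k N j : ℕ} {ρ : ℝ} (h : Dec A (k + N) (k + j) ρ) :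
    Dec (sh k A) N j ρ := by
  intro e he
  obtain ⟨u, hu, v, hv, h1⟩ := h e he
  rw [Bl_add] at hu
  have h2 : sh j (sh k A) = sh (k + j) A := by
    funext i
    show A (k + (j + i)) = A (k + j + i)
    rw [add_assoc]
  refine ⟨pp A k u, hu.2, v, ?_, ?_⟩
  · rw [h2]
    exact fun i hi => hv i (by omega)
  · rw [h1, pp_add]; rfl

theorem WRI.splice {A B : ℕ → E d →L[ℝ] E d} {m m' : ℕ} {K ρ : ℝ} (hA : WRI A m K)
    (hB : WRI B m' K) (hρ : 0 < ρ)
    (h : closedBall (0 : E d) ρ ⊆ pp A m '' Bl A m 1 + Bl B m' 1) :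
    WRI (spl m A B) (m + m') (K + 2 * K / ρ) := by
  intro y hy
  have hK := hA.nonneg
  obtain ⟨w1, a1, a2⟩ := hA y hy
  obtain ⟨w2, b1, b2⟩ := hB (fun j => y (m + j)) fun j => hy _
  have hδ : ‖w2 0 - w1 m‖ ≤ 2 * K :=
    (norm_sub_le _ _).trans (by linarith [a1 m le_rfl, b1 0 (Nat.zero_le _)])
  have hc : 0 ≤ 2 * K / ρ := by positivity
  obtain ⟨u, hu, v, hv, e⟩ : ∃ u ∈ Bl A m 1, ∃ v ∈ Bl B m' 1,
      w2 0 - w1 m = (2 * K / ρ) • (pp A m u + v) := by
    rcases hK.eq_or_lt with rfl | hK'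
    · obtain ⟨_, ⟨u, hu, rfl⟩, v, hv, -⟩ := h (mem_closedBall_self hρ.le)
      refine ⟨u, hu, v, hv, ?_⟩
      rw [mul_zero] at hδ
      rw [norm_le_zero_iff.1 hδ]
      simp
    · have hc' : 0 < 2 * K / ρ := by positivity
      have hm : (2 * K / ρ)⁻¹ • (w2 0 - w1 m) ∈ closedBall (0 : E d) ρ := by
        rw [mem_closedBall_zero_iff, norm_smul, norm_inv, Real.norm_of_nonneg hc,
          inv_mul_le_iff₀ hc', div_mul_cancel₀ _ hρ.ne']
        exact hδ
      obtain ⟨_, ⟨u, hu, rfl⟩, v, hv, e⟩ := h hm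
      refine ⟨u, hu, v, hv, ?_⟩
      have e' : pp A m u + v = (2 * K / ρ)⁻¹ • (w2 0 - w1 m) := e
      rw [e', smul_inv_smul₀ hc'.ne']
  generalize 2 * K / ρ = c at hc e
  let w : ℕ → E d := fun j => if j < m then w1 j + c • pp A j u else w2 (j - m) - c • pp B (j - m) v
  have hw1 : ∀ j ≤ m, w j = w1 j + c • pp A j u := by
    intro j hj
    rcases hj.eq_or_lt with rfl | hj'
    · simp only [w]
      rw [if_neg (lt_irrefl _), Nat.sub_self, sub_eq_iff_eq_add.1 e, smul_add]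
      show c • pp A j u + c • v + w1 j - c • v = _
      abel
    · exact if_pos hj'
  have hw2 : ∀ j, w (m + j) = w2 j - c • pp B j v := by
    intro j
    simp only [w]
    rw [if_neg (by omega), Nat.add_sub_cancel_left]
  have hn : ∀ x : E d, ‖x‖ ≤ 1 → ‖c • x‖ ≤ c := fun x hx => by
    rw [norm_smul, Real.norm_of_nonneg hc]
    exact mul_le_of_le_one_right hc hx
  refine ⟨w, fun j hj => ?_, fun j hj => ?_⟩
  · by_cases hm : j ≤ m
    · rw [hw1 j hm]
      exact (norm_add_le _ _).trans (add_le_add (a1 j hm) (hn _ (hu j hm)))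
    · obtain ⟨i, rfl⟩ := Nat.exists_eq_add_of_le (le_of_not_ge hm)
      rw [hw2]
      exact (norm_sub_le _ _).trans (add_le_add (b1 i (by omega)) (hn _ (hv i (by omega))))
  · by_cases hm : j < m
    · have hs : spl m A B j = A j := if_pos hm
      rw [hw1 j hm.le, hw1 (j + 1) hm, hs, a2 j hm, map_add, map_smul]
      show A j (w1 j) + y j + c • A j (pp A j u) = _
      abel
    · obtain ⟨i, rfl⟩ := Nat.exists_eq_add_of_le (le_of_not_gt hm)
      have hs : spl m A B (m + i) = B i := by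
        show (if m + i < m then A (m + i) else B (m + i - m)) = B i
        rw [if_neg hm, Nat.add_sub_cancel_left]
      rw [add_assoc, hw2, hw2, hs, b2 i (by omega), map_sub, map_smul]
      show B i (w2 i) + y (m + i) - c • B i (pp B i v) = _
      abel

end Vale.Agent.P109
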