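import Vale.Agent.P109.Defs

/-! P109: volumes of Bowen balls of nonlinear perturbations of linear chains. -/

namespace Vale.Agent.P109

open MeasureTheory Set Metric Filter Topology
open scoped ENNReal NNReal Pointwise

variable {d : ℕ}

namespace ChainVol

theorem vol_lip {V : Type} [NormedAddCommGroup V] [NormedSpace ℝ V] [FiniteDimensional ℝ V]
    [MeasurableSpace V] [BorelSpace V] (μ : Measure V) [μ.IsAddHaarMeasure] {G : V → V} {K : ℝ≥0}
    (hG : LipschitzWith K G) (s : Set V) :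
    μ (G '' s) ≤ (K : ℝ≥0∞) ^ Module.finrank ℝ V * μ s := by
  have h := Measure.isAddLeftInvariant_eq_smul μ (Measure.hausdorffMeasure (Module.finrank ℝ V))
  have h1 := hG.hausdorffMeasure_image_le (d := Module.finrank ℝ V) (Nat.cast_nonneg _) s
  rw [ENNReal.rpow_natCast] at h1
  rw [h]
  simp only [Measure.smul_apply, ENNReal.smul_def, smul_eq_mul]
  rw [mul_left_comm]
  exact mul_le_mul_right h1 _

theorem vol_anti {V : Type} [NormedAddCommGroup V] [NormedSpace ℝ V] [FiniteDimensional ℝ V]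
    [MeasurableSpace V] [BorelSpace V] (μ : Measure V) [μ.IsAddHaarMeasure] {G : V → V} {K : ℝ≥0}
    (hG : AntilipschitzWith K G) (s : Set V) :
    μ s ≤ (K : ℝ≥0∞) ^ Module.finrank ℝ V * μ (G '' s) := by
  have h := Measure.isAddLeftInvariant_eq_smul μ (Measure.hausdorffMeasure (Module.finrank ℝ V))
  have h1 := hG.le_hausdorffMeasure_image (d := Module.finrank ℝ V) (Nat.cast_nonneg _) s
  rw [ENNReal.rpow_natCast] at h1
  rw [h]
  simp only [Measure.smul_apply, ENNReal.smul_def, smul_eq_mul]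
  rw [mul_left_comm]
  exact mul_le_mul_right h1 _

/-- Pseudo-orbits starting in `S`. -/
def Sl (N : ℕ) (g : ℕ → E d → E d) (S : Set (E d)) (κ : ℝ) : Set (Fin (N + 1) → E d) :=
  {w | w 0 ∈ S ∧ ∀ j : Fin N, ‖w j.succ - g j (w j.castSucc)‖ ≤ κ}

theorem meas_Sl (N : ℕ) {g : ℕ → E d → E d} (hg : ∀ j, Continuous (g j)) {S : Set (E d)}
    (hS : MeasurableSet S) (κ : ℝ) : MeasurableSet (Sl N g S κ) := by
  have h1 : MeasurableSet {w : Fin (N + 1) → E d | w 0 ∈ S} := measurable_pi_apply 0 hS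
  have h2 : IsClosed {w : Fin (N + 1) → E d | ∀ j : Fin N, ‖w j.succ - g j (w j.castSucc)‖ ≤ κ} := by
    rw [ofPred_forall]
    refine isClosed_iInter fun j => isClosed_le ?_ continuous_const
    have := hg j
    fun_prop
  exact h1.inter h2.measurableSet

theorem vol_Sl (N : ℕ) : ∀ {g : ℕ → E d → E d}, (∀ j, Continuous (g j)) → ∀ {S : Set (E d)},
    MeasurableSet S → ∀ {κ : ℝ}, 0 ≤ κ →
      volume (Sl N g S κ) = volume S * ENNReal.ofReal ((2 * κ) ^ d) ^ N := by
  induction N with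
  | zero =>
    intro g _ S hS κ _
    have : Sl 0 g S κ = MeasurableEquiv.funUnique (Fin 1) (E d) ⁻¹' S := by
      ext w; simp [Sl]
    rw [this, pow_zero, mul_one]
    exact (volume_preserving_funUnique (Fin 1) (E d)).measure_preimage hS.nullMeasurableSet
  | succ N ih =>
    intro g hg S hS κ hκ
    have hp := (volume_preserving_piFinSuccAbove (fun _ : Fin (N + 2) => E d) 0).symm
    have hm := meas_Sl (N + 1) hg hS κ
    rw [← hp.measure_preimage hm.nullMeasurableSet, Measure.volume_eq_prod,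
      Measure.prod_apply (hp.measurable hm)]
    have : ∀ u : E d, volume (Prod.mk u ⁻¹' ((MeasurableEquiv.piFinSuccAbove
        (fun _ : Fin (N + 2) => E d) 0).symm ⁻¹' Sl (N + 1) g S κ)) =
        S.indicator (fun _ => ENNReal.ofReal ((2 * κ) ^ d) ^ (N + 1)) u := by
      intro u
      by_cases hu : u ∈ S
      · have e : Prod.mk u ⁻¹' ((MeasurableEquiv.piFinSuccAbove
            (fun _ : Fin (N + 2) => E d) 0).symm ⁻¹' Sl (N + 1) g S κ) =
            Sl N (fun j => g (j + 1)) (closedBall (g 0 u) κ) κ := by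
          ext w
          simp [Sl, hu, MeasurableEquiv.piFinSuccAbove, Fin.forall_fin_succ, dist_eq_norm,
            Fin.insertNthEquiv]
        rw [e, ih (fun j => hg (j + 1)) measurableSet_closedBall hκ, indicator_of_mem hu,
          Real.volume_pi_closedBall _ hκ, pow_succ', Fintype.card_fin]
      · have e : Prod.mk u ⁻¹' ((MeasurableEquiv.piFinSuccAbove
            (fun _ : Fin (N + 2) => E d) 0).symm ⁻¹' Sl (N + 1) g S κ) = ∅ := by
          ext w
          simp [Sl, hu, MeasurableEquiv.piFinSuccAbove, Fin.insertNthEquiv]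
        rw [e, indicator_of_notMem hu, measure_empty]
    simp only [this]
    rw [lintegral_indicator hS, setLIntegral_const, mul_comm]

theorem close (N : ℕ) {g : ℕ → E d → E d} (L : ℕ → ℝ) (hL : ∀ j, 0 ≤ L j)
    (hg : ∀ j u v, ‖g j u - g j v‖ ≤ L j * ‖u - v‖) : ∃ c : ℝ, 1 ≤ c ∧
    ∀ (κ : ℝ) (S : Set (E d)), 0 ≤ κ → ∀ w ∈ Sl N g S κ, ∀ j : Fin (N + 1),
      ‖w j - orb g (w 0) j‖ ≤ c * κ := by
  let c : ℕ → ℝ := fun n => Nat.rec 1 (fun j x => (L j + 1) * x + 1) n
  have c0 : c 0 = 1 := rfl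
  have cs : ∀ j, c (j + 1) = (L j + 1) * c j + 1 := fun _ => rfl
  have c1 : ∀ j, 1 ≤ c j := by
    intro j
    induction j with
    | zero => exact le_rfl
    | succ j ih => rw [cs]; have := hL j; nlinarith
  have cm : Monotone c := monotone_nat_of_le_succ fun j => by
    rw [cs]; have := hL j; have := c1 j; nlinarith
  refine ⟨c N, c1 N, fun κ S hκ w hw j => ?_⟩
  have : ‖w j - orb g (w 0) j‖ ≤ c j * κ := by
    induction j using Fin.induction with
    | zero => simp [orb, c0, hκ]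
    | succ j ih =>
      have h1 := hw.2 j
      have h2 := hg j (w j.castSucc) (orb g (w 0) j)
      simp only [Fin.val_succ, Fin.val_castSucc] at ih ⊢
      rw [cs]
      have e : w j.succ - orb g (w 0) (j + 1) = (w j.succ - g j (w j.castSucc)) +
          (g j (w j.castSucc) - g j (orb g (w 0) j)) := by simp [orb]
      rw [e]
      refine (norm_add_le _ _).trans ?_
      have h3 : L j * ‖w j.castSucc - orb g (w 0) j‖ ≤ L j * (c j * κ) :=
        mul_le_mul_of_nonneg_left ih (hL j)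
      have := mul_nonneg (zero_le_one.trans (c1 j)) hκ
      nlinarith
  exact this.trans (mul_le_mul_of_nonneg_right (cm (Nat.lt_succ_iff.1 j.2)) hκ)

theorem orb_lin (A : ℕ → E d →L[ℝ] E d) (u : E d) (j : ℕ) :
    orb (fun j u => A j u) u j = pp A j u := by
  induction j with
  | zero => rfl
  | succ j ih => simp [orb, pp, ih]

theorem cont_orb {g : ℕ → E d → E d} (hg : ∀ j, Continuous (g j)) (j : ℕ) :
    Continuous fun u => orb g u j := by
  induction j with
  | zero => exact continuous_id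
  | succ j ih => exact (hg j).comp ih

theorem meas_Bd {g : ℕ → E d → E d} (hg : ∀ j, Continuous (g j)) (N : ℕ) (r : ℝ) :
    MeasurableSet (Bd g N r) := by
  refine IsClosed.measurableSet ?_
  simp only [Bd, ofPred_forall]
  exact isClosed_iInter fun j => isClosed_iInter fun _ =>
    isClosed_le (cont_orb hg j).norm continuous_const

theorem Bl_eq (A : ℕ → E d →L[ℝ] E d) (N : ℕ) (r : ℝ) :
    Bl A N r = Bd (fun j u => A j u) N r := by
  ext u; simp [Bl, Bd, orb_lin]

theorem right_inv {A : ℕ → E d →L[ℝ] E d} {N : ℕ} {K : ℝ} (hA : WRI A N K) :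
    ∃ R : (Fin N → E d) → Fin (N + 1) → E d,
      (∀ y y', ‖R y - R y'‖ ≤ K * N * d * ‖y - y'‖) ∧
      ∀ y (j : Fin N), R y j.succ - A j (R y j.castSucc) = y j := by
  classical
  have hK : 0 ≤ K := by
    obtain ⟨w, hw, -⟩ := hA (fun _ => 0) (by simp)
    exact (norm_nonneg _).trans (hw 0 (Nat.zero_le _))
  choose W hW1 hW2 using fun (i : Fin N) (k : Fin d) =>
    hA (fun j => if j = i then Pi.single k 1 else 0) (fun j => by
      split_ifs
      · rw [Pi.norm_single]; simp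
      · simp)
  refine ⟨fun y j => ∑ i, ∑ k, y i k • W i k j, fun y y' => ?_, fun y j => ?_⟩
  · refine (pi_norm_le_iff_of_nonneg (by positivity)).2 fun j => ?_
    simp only [Pi.sub_apply, ← Finset.sum_sub_distrib, ← sub_smul]
    calc _ ≤ ∑ i : Fin N, ∑ k : Fin d, ‖y - y'‖ * K := by
          refine norm_sum_le_of_le _ fun i _ => norm_sum_le_of_le _ fun k _ => ?_
          rw [norm_smul]
          refine mul_le_mul ?_ (hW1 i k j (Nat.lt_succ_iff.1 j.2)) (norm_nonneg _) (norm_nonneg _)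
          exact (norm_le_pi_norm ((y - y') i) k).trans (norm_le_pi_norm (y - y') i)
      _ = _ := by simp; ring
  · simp only [Fin.val_succ, Fin.val_castSucc, map_sum, map_smul, ← Finset.sum_sub_distrib,
      ← smul_sub, hW2 _ _ j j.2, add_sub_cancel_left, Fin.val_inj]
    rw [Finset.sum_eq_single j (fun i _ hi => by simp [hi.symm]) (by simp)]
    ext k
    simp [Finset.sum_apply, Pi.single_apply]

theorem exists_G {A : ℕ → E d →L[ℝ] E d} {N : ℕ} {K ε : ℝ} (hA : WRI A N K)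
    (h : ℕ → E d → E d) (hε : 0 ≤ ε) (hh : ∀ j u v, ‖h j u - h j v‖ ≤ ε * ‖u - v‖)
    (hK : K * N * d * ε ≤ 1 / 2) : ∃ G : (Fin (N + 1) → E d) → Fin (N + 1) → E d,
      Function.Surjective G ∧ (∀ w w', ‖G w - G w'‖ ≤ 2 * ‖w - w'‖) ∧
      (∀ w w', ‖w - w'‖ ≤ 2 * ‖G w - G w'‖) ∧
      ∀ w (j : Fin N), G w j.succ - A j (G w j.castSucc) =
        w j.succ - (A j (w j.castSucc) + h j (w j.castSucc)) := by
  have hK0 : 0 ≤ K := by
    obtain ⟨w, hw, -⟩ := hA (fun _ => 0) (by simp)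
    exact (norm_nonneg _).trans (hw 0 (Nat.zero_le _))
  obtain ⟨R, hR1, hR2⟩ := right_inv hA
  let Hh : (Fin (N + 1) → E d) → Fin N → E d := fun w j => h j (w j.castSucc)
  have hH : ∀ w w', ‖R (Hh w) - R (Hh w')‖ ≤ 1 / 2 * ‖w - w'‖ := by
    intro w w'
    have h1 : ‖Hh w - Hh w'‖ ≤ ε * ‖w - w'‖ := by
      refine (pi_norm_le_iff_of_nonneg (by positivity)).2 fun j => (hh _ _ _).trans ?_
      exact mul_le_mul_of_nonneg_left (norm_le_pi_norm (w - w') j.castSucc) hε
    calc _ ≤ K * N * d * (ε * ‖w - w'‖) := (hR1 _ _).trans (by gcongr)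
      _ = K * N * d * ε * ‖w - w'‖ := by ring
      _ ≤ _ := by gcongr
  refine ⟨fun w => w - R (Hh w), fun z => ?_, fun w w' => ?_, fun w w' => ?_, fun w j => ?_⟩
  · have hc : ContractingWith (1 / 2) fun w => z + R (Hh w) := by
      refine ⟨by norm_num, LipschitzWith.of_dist_le_mul fun w w' => ?_⟩
      rw [dist_eq_norm, dist_eq_norm, add_sub_add_left_eq_sub]
      simpa using hH w w'
    refine ⟨hc.fixedPoint _, ?_⟩
    exact sub_eq_iff_eq_add.2 (hc.fixedPoint_isFixedPt).symm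
  · have e : w - R (Hh w) - (w' - R (Hh w')) = (w - w') - (R (Hh w) - R (Hh w')) := by abel
    rw [e]
    refine (norm_sub_le _ _).trans ?_
    have := hH w w'; have := norm_nonneg (w - w')
    linarith
  · have e : w - w' = (w - R (Hh w) - (w' - R (Hh w'))) + (R (Hh w) - R (Hh w')) := by abel
    have h1 := norm_add_le (w - R (Hh w) - (w' - R (Hh w'))) (R (Hh w) - R (Hh w'))
    rw [← e] at h1
    have := hH w w'
    linarith
  · have := hR2 (Hh w) j
    simp only [Pi.sub_apply, map_sub, Hh] at this ⊢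
    rw [← this]; abel

theorem finrank_eq (N : ℕ) : Module.finrank ℝ (Fin (N + 1) → E d) = d * (N + 1) := by
  simp [Module.finrank_pi_fintype, mul_comm]

theorem cancel {a b c : ℝ≥0∞} {κ : ℝ} (hκ : 0 < κ) (N : ℕ)
    (h : a * ENNReal.ofReal ((2 * κ) ^ d) ^ N ≤ c * (b * ENNReal.ofReal ((2 * κ) ^ d) ^ N)) :
    a ≤ c * b := by
  rw [← mul_assoc] at h
  exact (ENNReal.mul_le_mul_iff_left (pow_ne_zero _ (by simpa using by positivity))
    (ENNReal.pow_ne_top ENNReal.ofReal_ne_top)).1 h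

theorem cont_h {h : E d → E d} {ε : ℝ} (hε : 0 ≤ ε) (hh : ∀ u v, ‖h u - h v‖ ≤ ε * ‖u - v‖) :
    Continuous h :=
  (LipschitzWith.of_dist_le_mul (K := ⟨ε, hε⟩) fun u v => by
    rw [dist_eq_norm, dist_eq_norm]; exact hh u v).continuous

theorem lipA (A : ℕ → E d →L[ℝ] E d) (j : ℕ) (u v : E d) : ‖A j u - A j v‖ ≤ ‖A j‖ * ‖u - v‖ := by
  rw [← map_sub]; exact (A j).le_opNorm _

theorem lipg (A : ℕ → E d →L[ℝ] E d) {h : ℕ → E d → E d} {ε : ℝ}
    (hh : ∀ j u v, ‖h j u - h j v‖ ≤ ε * ‖u - v‖) (j : ℕ) (u v : E d) :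
    ‖A j u + h j u - (A j v + h j v)‖ ≤ (‖A j‖ + ε) * ‖u - v‖ := by
  rw [add_sub_add_comm, add_mul]
  exact (norm_add_le _ _).trans (add_le_add (lipA A j u v) (hh j u v))

end ChainVol

open ChainVol

theorem vol_Bd_le {A : ℕ → E d →L[ℝ] E d} {N : ℕ} {K ε r : ℝ} (hA : WRI A N K)
    (h : ℕ → E d → E d) (hε : 0 ≤ ε) (hh : ∀ j u v, ‖h j u - h j v‖ ≤ ε * ‖u - v‖)
    (hK : K * N * d * ε ≤ 1 / 2) (hr : 0 < r) :
    volume (Bd (fun j u => A j u + h j u) N r) ≤ 2 ^ (d * (N + 1)) * volume (Bl A N (8 * r)) := by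
  obtain ⟨G, -, G1, G2, G3⟩ := exists_G hA h hε hh hK
  have hg : ∀ j, Continuous fun u => A j u + h j u := fun j =>
    (A j).continuous.add (cont_h hε (hh j))
  have hA' : ∀ j, Continuous fun u => A j u := fun j => (A j).continuous
  obtain ⟨c, hc, cl⟩ := close N (g := fun j u => A j u + h j u) (fun j => ‖A j‖ + ε)
    (fun j => by positivity) (lipg A hh)
  obtain ⟨c', hc', cl'⟩ := close N (g := fun j u => A j u) (fun j => ‖A j‖)
    (fun j => by positivity) (lipA A)
  obtain ⟨κ, hκ⟩ : ∃ κ : ℝ, κ = r / (c + c') := ⟨_, rfl⟩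
  have hκ0 : 0 < κ := by rw [hκ]; positivity
  have hκ1 : (c + c') * κ = r := by rw [hκ]; field_simp
  rcases (Bd (fun j u => A j u + h j u) N r).eq_empty_or_nonempty with he | ⟨u, hu⟩
  · simp [he]
  refine cancel (d := d) hκ0 N ?_
  rw [← vol_Sl N hg (meas_Bd hg N r) hκ0.le, Bl_eq, ← vol_Sl N hA' (meas_Bd hA' N _) hκ0.le]
  have hanti : AntilipschitzWith 2 G := AntilipschitzWith.of_le_mul_dist fun w w' => by
    rw [dist_eq_norm, dist_eq_norm]; simpa using G2 w w'
  refine (vol_anti volume hanti _).trans ?_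
  rw [finrank_eq]
  refine mul_le_mul' (by simp) ?_
  obtain ⟨w0, hw0⟩ : ∃ w0 : Fin (N + 1) → E d, ∀ j, w0 j = orb (fun j u => A j u + h j u) u j :=
    ⟨_, fun _ => rfl⟩
  rw [← measure_preimage_add_right volume (-G w0) (Sl N _ _ _)]
  refine measure_mono ?_
  rintro _ ⟨w, hw, rfl⟩
  have hz : G w + -G w0 ∈ Sl N (fun j u => A j u) univ κ := by
    refine ⟨mem_univ _, fun j => ?_⟩
    have h1 := G3 w j
    have h2 := G3 w0 j
    have h3 : w0 j.succ - (A j (w0 j.castSucc) + h j (w0 j.castSucc)) = 0 := by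
      simp [hw0, orb]
    have e : (G w + -G w0) j.succ - A j ((G w + -G w0) j.castSucc) =
        (G w j.succ - A j (G w j.castSucc)) - (G w0 j.succ - A j (G w0 j.castSucc)) := by
      simp only [Pi.add_apply, Pi.neg_apply, map_add, map_neg]; abel
    rw [e, h1, h2, h3, sub_zero]
    exact hw.2 j
  refine ⟨fun j hj => ?_, hz.2⟩
  have h1 := cl' κ _ hκ0.le _ hz ⟨j, Nat.lt_succ_of_le hj⟩
  have h2 : ‖w - w0‖ ≤ 3 * r := by
    refine (pi_norm_le_iff_of_nonneg (by positivity)).2 fun i => ?_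
    have a1 := cl κ _ hκ0.le w hw i
    have a2 := hw.1 i (Nat.lt_succ_iff.1 i.2)
    have a3 := hu i (Nat.lt_succ_iff.1 i.2)
    rw [← hw0] at a3
    have a4 := norm_sub_le (w i) (w0 i)
    have a5 := norm_le_insert' (w i) (orb (fun j u => A j u + h j u) (w 0) i)
    have : c * κ ≤ r := by nlinarith
    simp only [Pi.sub_apply]
    linarith
  have h3 : ‖(G w + -G w0) ⟨j, Nat.lt_succ_of_le hj⟩‖ ≤ 6 * r := by
    refine (norm_le_pi_norm _ _).trans ?_
    rw [← sub_eq_add_neg]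
    linarith [G1 w w0]
  have h4 := norm_le_insert ((G w + -G w0) ⟨j, Nat.lt_succ_of_le hj⟩)
    (orb (fun j u => A j u) ((G w + -G w0) 0) j)
  have : c' * κ ≤ r := by nlinarith
  simp only at h1
  linarith

theorem vol_Bl_le {A : ℕ → E d →L[ℝ] E d} {N : ℕ} {K ε r R : ℝ} (hA : WRI A N K)
    (h : ℕ → E d → E d) (hε : 0 ≤ ε) (hh : ∀ j u v, ‖h j u - h j v‖ ≤ ε * ‖u - v‖)
    (hK : K * N * d * ε ≤ 1 / 2) (hr : 0 < r) (w : ℕ → E d) (hw : ∀ j ≤ N, ‖w j‖ ≤ R)
    (hw' : ∀ j < N, w (j + 1) = A j (w j) + h j 0) :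
    volume (Bl A N r) ≤
      2 ^ (d * (N + 1)) * volume (Bd (fun j u => A j u + h j u) N (2 * R + 5 * r)) := by
  obtain ⟨G, G0, G1, G2, G3⟩ := exists_G hA h hε hh hK
  have hg : ∀ j, Continuous fun u => A j u + h j u := fun j =>
    (A j).continuous.add (cont_h hε (hh j))
  have hA' : ∀ j, Continuous fun u => A j u := fun j => (A j).continuous
  obtain ⟨c, hc, cl⟩ := close N (g := fun j u => A j u + h j u) (fun j => ‖A j‖ + ε)
    (fun j => by positivity) (lipg A hh)
  obtain ⟨c', hc', cl'⟩ := close N (g := fun j u => A j u) (fun j => ‖A j‖)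
    (fun j => by positivity) (lipA A)
  obtain ⟨κ, hκ⟩ : ∃ κ : ℝ, κ = r / (c + c') := ⟨_, rfl⟩
  have hκ0 : 0 < κ := by rw [hκ]; positivity
  have hκ1 : (c + c') * κ = r := by rw [hκ]; field_simp
  have hR : 0 ≤ R := (norm_nonneg _).trans (hw 0 (Nat.zero_le _))
  refine cancel (d := d) hκ0 N ?_
  rw [← vol_Sl N hg (meas_Bd hg N _) hκ0.le, Bl_eq, ← vol_Sl N hA' (meas_Bd hA' N _) hκ0.le]
  have hlip : LipschitzWith 2 G := LipschitzWith.of_dist_le_mul fun w w' => by
    rw [dist_eq_norm, dist_eq_norm]; simpa using G1 w w'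
  have hv := vol_lip volume hlip (Sl N (fun j u => A j u + h j u)
    (Bd (fun j u => A j u + h j u) N (2 * R + 5 * r)) κ)
  rw [finrank_eq] at hv
  refine le_trans ?_ (hv.trans (mul_le_mul' (by simp) le_rfl))
  obtain ⟨w0, hw0⟩ : ∃ w0 : Fin (N + 1) → E d, ∀ j, w0 j = w j := ⟨_, fun _ => rfl⟩
  rw [← measure_preimage_add_right volume (w0 + G 0) (G '' _)]
  refine measure_mono fun v hv => ?_
  obtain ⟨z, hz⟩ := G0 (v + (w0 + G 0))
  refine ⟨z, ?_, hz⟩
  have hz1 : z ∈ Sl N (fun j u => A j u + h j u) univ κ := by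
    refine ⟨mem_univ _, fun j => ?_⟩
    have h1 := G3 z j
    have h2 := G3 0 j
    have h3 := hw' j j.2
    simp only [Pi.zero_apply, map_zero, zero_add, zero_sub] at h2
    have e : (v + (w0 + G 0)) j.succ - A j ((v + (w0 + G 0)) j.castSucc) =
        (v j.succ - A j (v j.castSucc)) + (w (j + 1) - A j (w j)) +
          (G 0 j.succ - A j (G 0 j.castSucc)) := by
      simp only [Pi.add_apply, map_add, hw0, Fin.val_succ, Fin.val_castSucc]; abel
    simp only
    rw [← h1, hz, e, h2, h3]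
    simpa using hv.2 j
  refine ⟨fun j hj => ?_, hz1.2⟩
  have h1 := cl κ _ hκ0.le _ hz1 ⟨j, Nat.lt_succ_of_le hj⟩
  have h2 : ‖v + w0‖ ≤ R + 2 * r := by
    refine (pi_norm_le_iff_of_nonneg (by positivity)).2 fun i => ?_
    have a1 := cl' κ _ hκ0.le v hv i
    have a2 := hv.1 i (Nat.lt_succ_iff.1 i.2)
    have a3 := hw i (Nat.lt_succ_iff.1 i.2)
    rw [← hw0] at a3
    have a4 := norm_add_le (v i) (w0 i)
    have a5 := norm_le_insert' (v i) (orb (fun j u => A j u) (v 0) i)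
    have : c' * κ ≤ r := by nlinarith
    simp only [Pi.add_apply]
    linarith
  have h3 : ‖z ⟨j, Nat.lt_succ_of_le hj⟩‖ ≤ 2 * R + 4 * r := by
    refine (norm_le_pi_norm _ _).trans ?_
    have := G2 z 0
    rw [hz, sub_zero, ← add_assoc, add_sub_cancel_right] at this
    linarith
  have h4 := norm_le_insert (z ⟨j, Nat.lt_succ_of_le hj⟩)
    (orb (fun j u => A j u + h j u) (z 0) j)
  have : c * κ ≤ r := by nlinarith
  simp only at h1
  linarith

end Vale.Agent.P109
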