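import Vale.Agent.P109.Defs

/-! P109: pseudorandom bipartite graphs. -/

namespace Vale.Agent.P109

open MeasureTheory Set Metric Filter Topology
open scoped ENNReal Pointwise

namespace Code

open Finset

variable {K V : Type} [Field K] [Fintype K] [AddCommGroup V] [Fintype V]

theorem parseval {ψ : AddChar K ℂ} (hψ : ψ ≠ 1) (a : K → ℂ) :
    ∑ v, ‖∑ u, a u * ψ (u * v)‖ ^ 2 = Fintype.card K * ∑ u, ‖a u‖ ^ 2 := by
  classical
  have hp := AddChar.IsPrimitive.of_ne_one hψ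
  have h : ∀ v, ((‖∑ u, a u * ψ (u * v)‖ ^ 2 : ℝ) : ℂ) =
      ∑ u, ∑ u', a u * (starRingEnd ℂ) (a u') * ψ (v * (u - u')) := by
    intro v
    rw [Complex.ofReal_pow, ← Complex.mul_conj', map_sum, sum_mul_sum]
    refine sum_congr rfl fun u _ => sum_congr rfl fun u' _ => ?_
    have e : v * (u - u') = u * v + -(u' * v) := by ring
    rw [e, AddChar.map_add_eq_mul, AddChar.map_neg_eq_conj, map_mul (starRingEnd ℂ)]
    ring
  apply Complex.ofReal_injective
  rw [Complex.ofReal_sum]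
  simp only [h]
  rw [sum_comm]
  have h2 : ∀ u, ∑ v, ∑ u', a u * (starRingEnd ℂ) (a u') * ψ (v * (u - u')) =
      (Fintype.card K : ℂ) * ((‖a u‖ ^ 2 : ℝ) : ℂ) := by
    intro u
    rw [sum_comm, sum_eq_single u]
    · rw [← mul_sum, AddChar.sum_mulShift _ hp, if_pos (sub_self u), Complex.mul_conj',
        Complex.ofReal_pow]
      ring
    · intro u' _ hu
      rw [← mul_sum, AddChar.sum_mulShift _ hp, if_neg (sub_ne_zero.2 (Ne.symm hu))]
      simp
    · simp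
  simp only [h2]
  rw [← mul_sum]
  push_cast
  rfl

theorem bilinear {ψ : AddChar K ℂ} (hψ : ψ ≠ 1) (a c : K → ℂ) :
    ‖∑ v, c v * ∑ u, a u * ψ (u * v)‖ ^ 2 ≤
      Fintype.card K * (∑ u, ‖a u‖ ^ 2) * ∑ v, ‖c v‖ ^ 2 := by
  have h1 : ‖∑ v, c v * ∑ u, a u * ψ (u * v)‖ ≤ ∑ v, ‖c v‖ * ‖∑ u, a u * ψ (u * v)‖ :=
    (norm_sum_le _ _).trans (le_of_eq (sum_congr rfl fun v _ => norm_mul _ _))
  refine (pow_le_pow_left₀ (norm_nonneg _) h1 2).trans ?_
  refine (sum_mul_sq_le_sq_mul_sq _ _ _).trans (le_of_eq ?_)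
  rw [parseval hψ, mul_comm]

omit [Field K] in
theorem sq_sum_le (χ : AddChar V ℂ) (α : K × V → ℝ) {A ϑ : ℝ} (hϑ : 0 ≤ ϑ)
    (h0 : ∀ u, 0 ≤ α u)
    (hs : ∑ u, α u ≤ A) (hb : ∀ u, α u ≤ ϑ * A) :
    ∑ u, ‖∑ x, (α (u, x) : ℂ) * χ (-x)‖ ^ 2 ≤ Fintype.card V * ϑ * A ^ 2 := by
  have h1 : ∀ u, ‖∑ x, (α (u, x) : ℂ) * χ (-x)‖ ≤ ∑ x, α (u, x) := fun u =>
    (norm_sum_le _ _).trans (le_of_eq (sum_congr rfl fun x _ => by
      rw [norm_mul, AddChar.norm_apply, mul_one, Complex.norm_real, Real.norm_of_nonneg (h0 _)]))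
  have h2 : ∀ u, ∑ x, α (u, x) ≤ Fintype.card V * (ϑ * A) := fun u => by
    refine (sum_le_sum fun x _ => hb (u, x)).trans (le_of_eq ?_)
    simp
  have h3 : ∀ u, 0 ≤ ∑ x, α (u, x) := fun u => sum_nonneg fun x _ => h0 _
  have h4 : ∀ u, ‖∑ x, (α (u, x) : ℂ) * χ (-x)‖ ^ 2 ≤
      Fintype.card V * (ϑ * A) * ∑ x, α (u, x) := fun u => by
    refine (pow_le_pow_left₀ (norm_nonneg _) (h1 u) 2).trans ?_
    rw [sq]
    exact mul_le_mul_of_nonneg_right (h2 u) (h3 u)
  refine (sum_le_sum fun u _ => h4 u).trans ?_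
  rw [← mul_sum, ← Fintype.sum_prod_type]
  have hA : 0 ≤ A := le_trans (sum_nonneg fun u _ => h0 u) hs
  refine (mul_le_mul_of_nonneg_left hs (by positivity)).trans (le_of_eq ?_)
  ring

theorem real_bound (π : K →+ V) (hπ : Function.Surjective π) (α β : K × V → ℝ) {A B ϑ : ℝ}
    (hϑ : 0 ≤ ϑ) (hα0 : ∀ u, 0 ≤ α u) (hαs : ∑ u, α u ≤ A) (hαb : ∀ u, α u ≤ ϑ * A)
    (hβ0 : ∀ u, 0 ≤ β u) (hβs : ∑ u, β u ≤ B) (hβb : ∀ u, β u ≤ ϑ * B)
    (hK : (Fintype.card K : ℝ) * (Fintype.card V * ϑ) ^ 2 ≤ ((Fintype.card V : ℝ)⁻¹) ^ 2) :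
    ∑ y : K × K × V, α (y.1, y.2.2) * β (y.2.1, π (y.1 * y.2.1) - y.2.2) ≤
      2 * (Fintype.card V : ℝ)⁻¹ * (A * B) := by
  classical
  have hA : 0 ≤ A := le_trans (sum_nonneg fun u _ => hα0 u) hαs
  have hB : 0 ≤ B := le_trans (sum_nonneg fun u _ => hβ0 u) hβs
  have hV : (0 : ℝ) < Fintype.card V := by exact_mod_cast Fintype.card_pos
  set S : ℝ := ∑ y : K × K × V, α (y.1, y.2.2) * β (y.2.1, π (y.1 * y.2.1) - y.2.2) with hS
  set F : AddChar V ℂ → ℂ := fun χ => ∑ v, (∑ z, (β (v, z) : ℂ) * χ (-z)) *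
    ∑ u, (∑ x, (α (u, x) : ℂ) * χ (-x)) * χ.compAddMonoidHom π (u * v) with hF
  have key : ∑ χ, F χ = (Fintype.card V : ℂ) * (S : ℂ) := by
    have h1 : ∀ χ, F χ = ∑ u, ∑ v, ∑ x, ∑ z,
        (α (u, x) : ℂ) * β (v, z) * χ (π (u * v) - x - z) := by
      intro χ
      simp only [hF, mul_sum, sum_mul]
      rw [sum_comm]
      refine sum_congr rfl fun u _ => sum_congr rfl fun v _ => sum_congr rfl fun x _ =>
        sum_congr rfl fun z _ => ?_
      rw [sub_eq_add_neg, sub_eq_add_neg, AddChar.map_add_eq_mul, AddChar.map_add_eq_mul,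
        AddChar.compAddMonoidHom_apply]
      ring
    simp only [h1]
    rw [hS, Complex.ofReal_sum, mul_sum, Fintype.sum_prod_type, sum_comm]
    refine sum_congr rfl fun u _ => ?_
    rw [Fintype.sum_prod_type, sum_comm]
    refine sum_congr rfl fun v _ => ?_
    rw [sum_comm]
    refine sum_congr rfl fun x _ => ?_
    rw [sum_comm, sum_eq_single (π (u * v) - x)]
    · rw [← mul_sum, AddChar.sum_apply_eq_ite, if_pos (sub_self _)]
      push_cast
      ring
    · intro z _ hz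
      rw [← mul_sum, AddChar.sum_apply_eq_ite, if_neg (sub_ne_zero.2 (Ne.symm hz)), mul_zero]
    · simp
  have h0 : ‖F 1‖ ≤ A * B := by
    have e : F 1 = ((∑ u, α u : ℝ) : ℂ) * ((∑ u, β u : ℝ) : ℂ) := by
      simp only [hF, AddChar.one_apply, AddChar.compAddMonoidHom_apply, mul_one, ← sum_mul,
        Fintype.sum_prod_type]
      push_cast
      ring
    rw [e, norm_mul, Complex.norm_real, Complex.norm_real,
      Real.norm_of_nonneg (sum_nonneg fun u _ => hα0 u),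
      Real.norm_of_nonneg (sum_nonneg fun u _ => hβ0 u)]
    exact mul_le_mul hαs hβs (sum_nonneg fun u _ => hβ0 u) hA
  have h1 : ∀ χ, χ ≠ 1 → ‖F χ‖ ≤ (Fintype.card V : ℝ)⁻¹ * (A * B) := by
    intro χ hχ
    have hψ : χ.compAddMonoidHom π ≠ 1 := fun h =>
      hχ (AddChar.compAddMonoidHom_injective_left π hπ (h.trans rfl))
    have h2 := bilinear hψ (fun u => ∑ x, (α (u, x) : ℂ) * χ (-x))
      fun v => ∑ z, (β (v, z) : ℂ) * χ (-z)
    have h3 := sq_sum_le χ α hϑ hα0 hαs hαb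
    have h4 := sq_sum_le χ β hϑ hβ0 hβs hβb
    refine le_of_sq_le_sq (h2.trans ?_) (by positivity)
    have h5 := mul_le_mul (mul_le_mul_of_nonneg_left h3 (Nat.cast_nonneg (Fintype.card K))) h4
      (sum_nonneg fun _ _ => by positivity) (by positivity)
    refine h5.trans ?_
    have h6 := mul_le_mul_of_nonneg_right hK (sq_nonneg (A * B))
    calc _ = (Fintype.card K : ℝ) * (Fintype.card V * ϑ) ^ 2 * (A * B) ^ 2 := by ring
      _ ≤ _ := h6
      _ = _ := by ring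
  have h2 : ‖∑ χ, F χ‖ ≤ A * B + Fintype.card V * ((Fintype.card V : ℝ)⁻¹ * (A * B)) := by
    rw [← add_sum_erase _ _ (mem_univ 1)]
    refine (norm_add_le _ _).trans (add_le_add h0 ((norm_sum_le _ _).trans ?_))
    refine (sum_le_sum fun χ hχ => h1 χ (ne_of_mem_erase hχ)).trans ?_
    rw [sum_const, nsmul_eq_mul]
    refine mul_le_mul_of_nonneg_right ?_ (by positivity)
    have := card_erase_le (s := (univ : Finset (AddChar V ℂ))) (a := 1)
    rw [card_univ, AddChar.card_eq] at this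
    exact_mod_cast this
  rw [key, norm_mul, Complex.norm_natCast, Complex.norm_real, ← mul_assoc,
    mul_inv_cancel₀ hV.ne', one_mul] at h2
  have h3 := (mul_le_mul_of_nonneg_left (le_abs_self S) hV.le).trans h2
  rw [mul_comm 2, mul_assoc, ← div_eq_inv_mul, le_div_iff₀ hV]
  linarith

theorem pr_bound (π : K →+ V) (hπ : Function.Surjective π) (ϑ t : ℝ≥0∞) (hϑ : ϑ ≠ ⊤)
    (ht : t = 2 * (Fintype.card V : ℝ≥0∞)⁻¹)
    (hK : (Fintype.card K : ℝ) * (Fintype.card V * ϑ.toReal) ^ 2 ≤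
      ((Fintype.card V : ℝ)⁻¹) ^ 2) :
    PR (fun y : K × K × V => (y.1, y.2.2))
      (fun y : K × K × V => (y.2.1, π (y.1 * y.2.1) - y.2.2)) ϑ t := by
  intro α β A B hαs hβs hαb hβb
  have hV : (Fintype.card V : ℝ≥0∞) ≠ 0 := by exact_mod_cast Fintype.card_ne_zero
  have ht0 : t ≠ 0 := by simp [ht]
  have ht1 : t ≠ ⊤ := by
    rw [ht]; exact ENNReal.mul_ne_top (by simp) (ENNReal.inv_ne_top.2 hV)
  by_cases hA0 : A = 0
  · have : ∀ u, α u = 0 := fun u => by simpa [hA0] using hαb u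
    simp [this]
  by_cases hB0 : B = 0
  · have : ∀ u, β u = 0 := fun u => by simpa [hB0] using hβb u
    simp [this]
  by_cases hA : A = ⊤
  · simp [hA, hB0, ht0]
  by_cases hB : B = ⊤
  · simp [hB, hA0, ht0]
  have hα : ∀ u, α u ≠ ⊤ := fun u => ne_top_of_le_ne_top (ENNReal.mul_ne_top hϑ hA) (hαb u)
  have hβ : ∀ u, β u ≠ ⊤ := fun u => ne_top_of_le_ne_top (ENNReal.mul_ne_top hϑ hB) (hβb u)
  have h := real_bound π hπ (fun u => (α u).toReal) (fun u => (β u).toReal) (A := A.toReal)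
    (B := B.toReal) (ϑ := ϑ.toReal) ENNReal.toReal_nonneg (fun _ => ENNReal.toReal_nonneg)
    (by rw [← ENNReal.toReal_sum fun u _ => hα u]; exact ENNReal.toReal_mono hA hαs)
    (fun u => by
      rw [← ENNReal.toReal_mul]; exact ENNReal.toReal_mono (ENNReal.mul_ne_top hϑ hA) (hαb u))
    (fun _ => ENNReal.toReal_nonneg)
    (by rw [← ENNReal.toReal_sum fun u _ => hβ u]; exact ENNReal.toReal_mono hB hβs)
    (fun u => by
      rw [← ENNReal.toReal_mul]; exact ENNReal.toReal_mono (ENNReal.mul_ne_top hϑ hB) (hβb u))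
    hK
  rw [← ENNReal.toReal_le_toReal (ENNReal.sum_ne_top.2 fun y _ => ENNReal.mul_ne_top (hα _) (hβ _))
    (ENNReal.mul_ne_top ht1 (ENNReal.mul_ne_top hA hB)),
    ENNReal.toReal_sum fun y _ => ENNReal.mul_ne_top (hα _) (hβ _)]
  simpa [ht] using h

theorem pr_equiv {W W' U U' : Type} [Fintype W] [Fintype W'] [Fintype U] [Fintype U']
    {l r : U' → U} {ϑ t : ℝ≥0∞} (h : PR l r ϑ t) (σ : U ≃ W) (τ : W' ≃ U') :
    PR (fun y => σ (l (τ y))) (fun y => σ (r (τ y))) ϑ t := by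
  intro α β A B hαs hβs hαb hβb
  have := h (fun u => α (σ u)) (fun u => β (σ u)) A B (by rw [σ.sum_comp]; exact hαs)
    (by rw [σ.sum_comp]; exact hβs) (fun u => hαb _) fun u => hβb _
  rwa [← τ.sum_comp] at this

/-- The second coordinate system on the edge set. -/
def swap (π : K →+ V) : K × K × V ≃ (K × V) × K where
  toFun y := ((y.2.1, π (y.1 * y.2.1) - y.2.2), y.1)
  invFun z := (z.2, z.1.1, π (z.2 * z.1.1) - z.1.2)
  left_inv y := by simp
  right_inv z := by simp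

/-- The first coordinate system on the edge set. -/
def straight (K V : Type) : K × K × V ≃ (K × V) × K where
  toFun y := ((y.1, y.2.2), y.2.1)
  invFun z := (z.1.1, z.2, z.1.2)
  left_inv _ := rfl
  right_inv _ := rfl

theorem exists_surj (n D : ℕ) (hn : n ≠ 0) (hD : D ≤ n) :
    ∃ π : GaloisField 2 n →+ (Fin D → ZMod 2), Function.Surjective π := by
  let b := Module.finBasisOfFinrankEq (ZMod 2) (GaloisField 2 n) (GaloisField.finrank 2 hn)
  refine ⟨(LinearMap.funLeft (ZMod 2) (ZMod 2) (Fin.castLE hD) ∘ₗ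
    b.equivFun.toLinearMap).toAddMonoidHom, ?_⟩
  exact (LinearMap.funLeft_surjective_of_injective (ZMod 2) (ZMod 2) _
    (Fin.castLE_injective hD)).comp
    b.equivFun.surjective

end Code

theorem exists_code (b b' D : ℕ) (h : b' + D = 2 * b) (h1 : 1 ≤ b) (h6 : 6 * D ≤ b) :
    ∃ e : Bool → (Fin (2 ^ b') ≃ Fin (2 ^ b) × Fin (2 ^ (b - D))),
      (Function.Injective fun y => ((e false y).1, (e true y).1)) ∧
      PR (fun y => (e false y).1) (fun y => (e true y).1)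
        (2 ^ (b - b / 4))⁻¹ (2 * (2 ^ D)⁻¹) := by
  have hn : b - D ≠ 0 := by omega
  obtain ⟨π, hπ⟩ := Code.exists_surj (b - D) D hn (by omega)
  let _ : Fintype (GaloisField 2 (b - D)) := Fintype.ofFinite _
  have hK : Fintype.card (GaloisField 2 (b - D)) = 2 ^ (b - D) := by
    rw [← Nat.card_eq_fintype_card, GaloisField.card 2 _ hn]
  have hV : Fintype.card (Fin D → ZMod 2) = 2 ^ D := by simp
  let σ : GaloisField 2 (b - D) × (Fin D → ZMod 2) ≃ Fin (2 ^ b) :=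
    Fintype.equivFinOfCardEq (by rw [Fintype.card_prod, hK, hV, ← pow_add]; congr 1; omega)
  let κ : GaloisField 2 (b - D) ≃ Fin (2 ^ (b - D)) := Fintype.equivFinOfCardEq hK
  let τ : Fin (2 ^ b') ≃ GaloisField 2 (b - D) × GaloisField 2 (b - D) × (Fin D → ZMod 2) :=
    (Fintype.equivFinOfCardEq (by
      rw [Fintype.card_prod, Fintype.card_prod, hK, hV, ← pow_add, ← pow_add]
      congr 1; omega)).symm
  refine ⟨fun c => τ.trans ((cond c (Code.swap π) (Code.straight _ _)).trans (σ.prodCongr κ)),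
    ?_, ?_⟩
  · intro y y' hy
    simp only [Prod.mk.injEq] at hy
    have h2 := σ.injective hy.1
    have h3 := σ.injective hy.2
    apply τ.injective
    have h4 : (τ y).1 = (τ y').1 := congrArg (fun z => z.1) h2
    have h5 : (τ y).2.2 = (τ y').2.2 := congrArg (fun z => z.2) h2
    have h6 : (τ y).2.1 = (τ y').2.1 := congrArg (fun z => z.1) h3
    exact Prod.ext h4 (Prod.ext h6 h5)
  · refine Code.pr_equiv (Code.pr_bound π hπ _ _ (by simp) (by rw [hV]; simp) ?_) σ τ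
    rw [hK, hV]
    simp only [ENNReal.toReal_inv, ENNReal.toReal_pow, ENNReal.toReal_ofNat, Nat.cast_pow,
      Nat.cast_ofNat]
    have e1 : (2 : ℝ) ^ (b - D) * (2 ^ D * (2 ^ (b - b / 4))⁻¹) ^ 2 =
        2 ^ (b - D + 2 * D) / 2 ^ (2 * (b - b / 4)) := by
      rw [pow_add, pow_mul', pow_mul']
      field_simp
    have e2 : ((2 : ℝ) ^ D)⁻¹ ^ 2 = 1 / 2 ^ (2 * D) := by
      rw [pow_mul']
      field_simp
    rw [e1, e2, div_le_div_iff₀ (by positivity) (by positivity), one_mul, ← pow_add]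
    exact pow_le_pow_right₀ one_le_two (by omega)

end Vale.Agent.P109
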