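import Vale.Agent.P109.Defs

/-! P109: symmetric convex bodies. -/

namespace Vale.Agent.P109

open MeasureTheory Set Metric Filter Topology
open scoped ENNReal Pointwise

variable {d : ℕ}

theorem SymCvx.image {B : Set (E d)} (hB : SymCvx B) (P : E d →L[ℝ] E d) : SymCvx (P '' B) := by
  refine ⟨hB.cvx.linear_image P.toLinearMap, hB.cpt.image P.continuous, ⟨0, hB.zero, map_zero P⟩,
    ?_⟩
  rintro _ ⟨x, hx, rfl⟩
  exact ⟨-x, hB.neg x hx, map_neg P x⟩

theorem SymCvx.add {B1 B2 : Set (E d)} (h1 : SymCvx B1) (h2 : SymCvx B2) : SymCvx (B1 + B2) := by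
  refine ⟨h1.cvx.add h2.cvx, h1.cpt.add h2.cpt, ⟨0, h1.zero, 0, h2.zero, add_zero 0⟩, ?_⟩
  rintro _ ⟨x, hx, y, hy, rfl⟩
  exact ⟨-x, h1.neg x hx, -y, h2.neg y hy, (neg_add x y).symm⟩

theorem SymCvx.smul {B : Set (E d)} (hB : SymCvx B) (c : ℝ) : SymCvx (c • B) := by
  refine ⟨hB.cvx.smul c, hB.cpt.smul c, ⟨0, hB.zero, smul_zero c⟩, ?_⟩
  rintro _ ⟨x, hx, rfl⟩
  exact ⟨-x, hB.neg x hx, smul_neg c x⟩

theorem SymCvx.inter_preimage {B1 B2 : Set (E d)} (h1 : SymCvx B1) (h2 : SymCvx B2)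
    (P : E d →L[ℝ] E d) : SymCvx (B1 ∩ P ⁻¹' B2) := by
  refine ⟨h1.cvx.inter (h2.cvx.linear_preimage P.toLinearMap),
    h1.cpt.inter_right (h2.cpt.isClosed.preimage P.continuous), ⟨h1.zero, ?_⟩, ?_⟩
  · rw [mem_preimage, map_zero]; exact h2.zero
  · rintro x ⟨hx, hx'⟩
    refine ⟨h1.neg x hx, ?_⟩
    rw [mem_preimage, map_neg]
    exact h2.neg _ hx'

theorem symCvx_closedBall {r : ℝ} (hr : 0 ≤ r) : SymCvx (closedBall (0 : E d) r) := by
  refine ⟨convex_closedBall _ _, isCompact_closedBall _ _, mem_closedBall_self hr, ?_⟩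
  intro x hx
  rw [mem_closedBall_zero_iff] at hx ⊢
  rwa [norm_neg]

theorem symCvx_Bl (A : ℕ → E d →L[ℝ] E d) (N : ℕ) {r : ℝ} (hr : 0 ≤ r) : SymCvx (Bl A N r) := by
  have he : Bl A N r = ⋂ j ∈ Iic N, pp A j ⁻¹' closedBall (0 : E d) r := by
    ext u
    simp only [Bl, mem_ofPred_eq, mem_iInter, mem_Iic, mem_preimage, mem_closedBall_zero_iff]
  refine ⟨?_, ?_, ?_, ?_⟩
  · rw [he]
    exact convex_iInter₂ fun j _ => (convex_closedBall _ _).linear_preimage (pp A j).toLinearMap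
  · refine (isCompact_closedBall (0 : E d) r).of_isClosed_subset ?_ ?_
    · rw [he]
      exact isClosed_biInter fun j _ => isClosed_closedBall.preimage (pp A j).continuous
    · intro u hu
      rw [mem_closedBall_zero_iff]
      exact hu 0 (Nat.zero_le _)
  · intro j _
    rw [map_zero, norm_zero]
    exact hr
  · intro u hu j hj
    rw [map_neg, norm_neg]
    exact hu j hj

theorem SymCvx.smul_mem {B : Set (E d)} (hB : SymCvx B) {c : ℝ} (hc : |c| ≤ 1) {x : E d}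
    (hx : x ∈ B) : c • x ∈ B := by
  rw [abs_le] at hc
  rcases le_total 0 c with h | h
  · exact hB.cvx.smul_mem_of_zero_mem hB.zero hx ⟨h, hc.2⟩
  · have := hB.cvx.smul_mem_of_zero_mem hB.zero (hB.neg x hx) (t := -c) ⟨by linarith, by linarith⟩
    rwa [neg_smul_neg] at this

theorem SymCvx.smul_subset {B : Set (E d)} (hB : SymCvx B) {s t : ℝ} (hs : 0 ≤ s) (hst : s ≤ t) :
    s • B ⊆ t • B := by
  rintro _ ⟨x, hx, rfl⟩
  rcases (hs.trans hst).eq_or_lt with h | h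
  · have : s = t := le_antisymm hst (h ▸ hs)
    subst this
    exact ⟨x, hx, rfl⟩
  · refine ⟨(s / t) • x, hB.smul_mem ?_ hx, ?_⟩
    · rw [abs_of_nonneg (div_nonneg hs h.le)]
      exact (div_le_one h).2 hst
    · simp only [smul_smul]
      rw [mul_div_cancel₀ _ h.ne']

theorem SymCvx.smul_add_smul {B : Set (E d)} (hB : SymCvx B) {s t : ℝ} (hs : 0 ≤ s) (ht : 0 ≤ t) :
    s • B + t • B = (s + t) • B :=
  (hB.cvx.add_smul hs ht).symm

namespace Cvx

theorem half_sub {B : Set (E d)} (hB : SymCvx B) {x y : E d} (hx : x ∈ B) (hy : y ∈ B) :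
    (2⁻¹ : ℝ) • (x - y) ∈ B := by
  have := hB.cvx hx (hB.neg y hy) (a := 2⁻¹) (b := 2⁻¹) (by norm_num) (by norm_num) (by norm_num)
  rwa [← smul_add, ← sub_eq_add_neg] at this

theorem vol_smul (c : ℝ) (hc : 0 ≤ c) (B : Set (E d)) :
    volume (c • B) = ENNReal.ofReal c ^ d * volume B := by
  rw [Measure.addHaar_smul_of_nonneg volume hc, Module.finrank_fin_fun, ENNReal.ofReal_pow hc]

theorem vol_two (B : Set (E d)) : volume ((2 : ℝ) • B) = 2 ^ d * volume B := by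
  rw [vol_smul 2 (by norm_num), ENNReal.ofReal_ofNat]

theorem vol_half (B : Set (E d)) : 2 ^ d * volume ((2⁻¹ : ℝ) • B) = volume B := by
  rw [← vol_two, smul_smul, mul_inv_cancel₀ (by norm_num), one_smul]

/-- The slices of the graph set. -/
def sl (B1 B2 : Set (E d)) (P : E d →L[ℝ] E d) (x : E d) : Set (E d) :=
  {u | u ∈ B1 ∧ P u - x ∈ B2}

theorem lint_sl {B1 B2 : Set (E d)} (h1 : SymCvx B1) (h2 : SymCvx B2) (P : E d →L[ℝ] E d) :
    ∫⁻ x, volume (sl B1 B2 P x) = volume B1 * volume B2 := by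
  have hS : MeasurableSet {z : E d × E d | z.2 ∈ B1 ∧ P z.2 - z.1 ∈ B2} := by
    refine IsClosed.measurableSet (IsClosed.inter ?_ ?_)
    · exact h1.cpt.isClosed.preimage continuous_snd
    · exact h2.cpt.isClosed.preimage ((P.continuous.comp continuous_snd).sub continuous_fst)
  have e1 := Measure.prod_apply (μ := volume) (ν := volume) hS
  have e2 := Measure.prod_apply_symm (μ := volume) (ν := volume) hS
  have e3 : ∀ u : E d, volume ((fun x => (x, u)) ⁻¹'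
      {z : E d × E d | z.2 ∈ B1 ∧ P z.2 - z.1 ∈ B2}) = B1.indicator (fun _ => volume B2) u := by
    intro u
    by_cases hu : u ∈ B1
    · rw [indicator_of_mem hu,
        ← (Measure.measurePreserving_sub_left volume (P u)).measure_preimage
          h2.cpt.measurableSet.nullMeasurableSet]
      congr 1
      ext x
      simp only [mem_preimage, mem_ofPred_eq, hu, true_and]
    · rw [indicator_of_notMem hu]
      have : (fun x => (x, u)) ⁻¹' {z : E d × E d | z.2 ∈ B1 ∧ P z.2 - z.1 ∈ B2} = ∅ := by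
        ext x
        simp only [mem_preimage, mem_ofPred_eq, hu, false_and, mem_empty_iff_false]
      rw [this, measure_empty]
  simp only [e3] at e2
  rw [lintegral_indicator_const h1.cpt.measurableSet, e1, mul_comm] at e2
  exact e2

theorem sl_le {B1 B2 : Set (E d)} (h1 : SymCvx B1) (h2 : SymCvx B2) (P : E d →L[ℝ] E d)
    (x : E d) : volume (sl B1 B2 P x) ≤
      (P '' B1 + B2).indicator (fun _ => 2 ^ d * volume (B1 ∩ P ⁻¹' B2)) x := by
  rcases (sl B1 B2 P x).eq_empty_or_nonempty with h | ⟨u0, hu0⟩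
  · rw [h, measure_empty]; exact zero_le
  · have hx : x ∈ P '' B1 + B2 :=
      ⟨P u0, ⟨u0, hu0.1, rfl⟩, -(P u0 - x), h2.neg _ hu0.2, by simp⟩
    rw [indicator_of_mem hx, ← vol_two, ← measure_preimage_add volume (-u0) ((2 : ℝ) • _)]
    refine measure_mono fun u hu => ?_
    refine ⟨(2⁻¹ : ℝ) • (u - u0), ⟨half_sub h1 hu.1 hu0.1, ?_⟩, ?_⟩
    · have := half_sub h2 hu.2 hu0.2
      rw [mem_preimage, map_smul, map_sub]
      rwa [sub_sub_sub_cancel_right] at this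
    · simp only [smul_smul]
      rw [mul_inv_cancel₀ (by norm_num), one_smul, neg_add_eq_sub]

theorem le_sl {B1 B2 : Set (E d)} (h1 : SymCvx B1) (h2 : SymCvx B2) (P : E d →L[ℝ] E d)
    (x : E d) : ((2⁻¹ : ℝ) • (P '' B1 + B2)).indicator
      (fun _ => volume ((2⁻¹ : ℝ) • (B1 ∩ P ⁻¹' B2))) x ≤ volume (sl B1 B2 P x) := by
  by_cases hx : x ∈ (2⁻¹ : ℝ) • (P '' B1 + B2)
  · rw [indicator_of_mem hx]
    obtain ⟨_, ⟨_, ⟨u0, hu0, rfl⟩, b0, hb0, rfl⟩, rfl⟩ := hx
    rw [← measure_preimage_add volume ((2⁻¹ : ℝ) • u0) (sl B1 B2 P _)]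
    refine measure_mono ?_
    rintro _ ⟨v, ⟨hv1, hv2⟩, rfl⟩
    refine ⟨?_, ?_⟩
    · have := half_sub h1 hu0 (h1.neg v hv1)
      rwa [sub_neg_eq_add, smul_add] at this
    · have := half_sub h2 hv2 hb0
      have e : P ((2⁻¹ : ℝ) • u0 + (2⁻¹ : ℝ) • v) - (2⁻¹ : ℝ) • (P u0 + b0) =
          (2⁻¹ : ℝ) • (P v - b0) := by
        rw [map_add, map_smul, map_smul, smul_add, smul_sub]
        abel
      exact e ▸ this
  · rw [indicator_of_notMem hx]; exact zero_le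

end Cvx

/-- V1. -/
theorem vol_mul_le {B1 B2 : Set (E d)} (h1 : SymCvx B1) (h2 : SymCvx B2) (P : E d →L[ℝ] E d) :
    volume B1 * volume B2 ≤ 2 ^ d * (volume (B1 ∩ P ⁻¹' B2) * volume (P '' B1 + B2)) := by
  rw [← Cvx.lint_sl h1 h2 P, ← mul_assoc,
    ← lintegral_indicator_const ((h1.image P).add h2).cpt.measurableSet]
  exact lintegral_mono fun x => Cvx.sl_le h1 h2 P x

/-- V2. -/
theorem vol_inter_mul_le {B1 B2 : Set (E d)} (h1 : SymCvx B1) (h2 : SymCvx B2)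
    (P : E d →L[ℝ] E d) :
    volume (B1 ∩ P ⁻¹' B2) * volume (P '' B1 + B2) ≤ 4 ^ d * (volume B1 * volume B2) := by
  have h := lintegral_mono (μ := volume) fun x => Cvx.le_sl h1 h2 P x
  rw [lintegral_indicator_const (((h1.image P).add h2).smul _).cpt.measurableSet,
    Cvx.lint_sl h1 h2 P] at h
  rw [← Cvx.vol_half (B1 ∩ P ⁻¹' B2), ← Cvx.vol_half (P '' B1 + B2), mul_mul_mul_comm, ← mul_pow,
    show (2 : ℝ≥0∞) * 2 = 4 by norm_num]
  exact mul_le_mul_right h _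

namespace Cvx

theorem mem_of_vol {B : Set (E d)} (hB : SymCvx B) (h2 : B ⊆ closedBall 0 2) {ρ : ℝ}
    (h0 : 0 < ρ) (hv : ENNReal.ofReal (2 * 8 ^ d * ρ) < volume B) {e : E d} (he : ‖e‖ ≤ 1) :
    ρ • e ∈ B := by
  by_contra hn
  set n := ⌊ρ⁻¹⌋₊ with hn'
  let T : ℕ → Set (E d) := fun k => (fun x => -((k * ρ) • e) + x) ⁻¹' ((2⁻¹ : ℝ) • B)
  have hT : ∀ k, volume (T k) = volume ((2⁻¹ : ℝ) • B) := fun k => measure_preimage_add _ _ _
  have hm : ∀ k, MeasurableSet (T k) := fun k =>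
    ((hB.smul _).cpt.isClosed.preimage (continuous_const.add continuous_id)).measurableSet
  have key : ∀ j k : ℕ, j < k → Disjoint (T j) (T k) := by
    intro j k hjk
    rw [Set.disjoint_left]
    rintro x ⟨b, hb, hb'⟩ ⟨c, hc, hc'⟩
    apply hn
    have h3 := half_sub hB hb hc
    have hlt : (j : ℝ) + 1 ≤ k := by exact_mod_cast hjk
    have e1 : (2⁻¹ : ℝ) • (b - c) = (((k : ℝ) - j) * ρ) • e := by
      simp only at hb' hc'
      rw [smul_sub, hb', hc', sub_mul, sub_smul]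
      abel
    rw [e1] at h3
    have h4 := hB.smul_mem (c := ((k : ℝ) - j)⁻¹) (by
      rw [abs_of_nonneg (inv_nonneg.2 (by linarith))]
      exact inv_le_one_of_one_le₀ (by linarith)) h3
    rwa [smul_smul, inv_mul_cancel_left₀ (by linarith)] at h4
  have hsub : (⋃ k ∈ Finset.range (n + 1), T k) ⊆ closedBall 0 2 := by
    intro x hx
    simp only [mem_iUnion, Finset.mem_range] at hx
    obtain ⟨k, hk, b, hb, hb'⟩ := hx
    have h3 := mem_closedBall_zero_iff.1 (h2 hb)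
    have h4 : (k : ℝ) ≤ ρ⁻¹ :=
      le_trans (by exact_mod_cast Nat.lt_succ_iff.1 hk) (Nat.floor_le (inv_nonneg.2 h0.le))
    have h5 : (k : ℝ) * ρ ≤ 1 := by
      have := mul_le_mul_of_nonneg_right h4 h0.le
      rwa [inv_mul_cancel₀ h0.ne'] at this
    have e1 : x = ((k : ℝ) * ρ) • e + (2⁻¹ : ℝ) • b := by
      simp only at hb'
      rw [hb']; abel
    rw [mem_closedBall_zero_iff, e1]
    refine (norm_add_le _ _).trans ?_
    rw [norm_smul, norm_smul, Real.norm_of_nonneg (by positivity),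
      Real.norm_of_nonneg (by norm_num)]
    have h6 : (k : ℝ) * ρ * ‖e‖ ≤ 1 := mul_le_one₀ h5 (norm_nonneg _) he
    linarith
  have hvol := measure_mono (μ := volume) hsub
  rw [measure_biUnion_finset (fun j _ k _ hjk => by
      rcases lt_or_gt_of_ne hjk with h | h
      · exact key j k h
      · exact (key k j h).symm) fun k _ => hm k] at hvol
  simp only [hT, Finset.sum_const, Finset.card_range, nsmul_eq_mul] at hvol
  rw [Real.volume_pi_closedBall _ (by norm_num), Fintype.card_fin] at hvol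
  have h7 : (1 : ℝ≥0∞) ≤ ENNReal.ofReal ρ * ((n + 1 : ℕ) : ℝ≥0∞) := by
    rw [← ENNReal.ofReal_natCast, ← ENNReal.ofReal_mul h0.le, ENNReal.one_le_ofReal]
    have := mul_lt_mul_of_pos_left (Nat.lt_floor_add_one ρ⁻¹) h0
    rw [mul_inv_cancel₀ h0.ne'] at this
    push_cast
    exact this.le
  refine absurd hv (not_lt.2 ?_)
  calc volume B = 1 * (2 ^ d * volume ((2⁻¹ : ℝ) • B)) := by rw [vol_half, one_mul]
    _ ≤ (ENNReal.ofReal ρ * ((n + 1 : ℕ) : ℝ≥0∞)) * (2 ^ d * volume ((2⁻¹ : ℝ) • B)) :=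
        mul_le_mul_left h7 _
    _ = ENNReal.ofReal ρ * 2 ^ d * (((n + 1 : ℕ) : ℝ≥0∞) * volume ((2⁻¹ : ℝ) • B)) := by ring
    _ ≤ ENNReal.ofReal ρ * 2 ^ d * ENNReal.ofReal ((2 * 2) ^ d) := mul_le_mul_right hvol _
    _ = ENNReal.ofReal (ρ * 2 ^ d * (2 * 2) ^ d) := by
        rw [ENNReal.ofReal_mul (by positivity), ENNReal.ofReal_mul h0.le,
          ENNReal.ofReal_pow (p := 2) (by norm_num), ENNReal.ofReal_ofNat]
    _ ≤ ENNReal.ofReal (2 * 8 ^ d * ρ) := by
        refine ENNReal.ofReal_le_ofReal ?_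
        rw [mul_assoc, ← mul_pow, show (2 : ℝ) * (2 * 2) = 8 by norm_num]
        have : (0 : ℝ) ≤ ρ * 8 ^ d := by positivity
        linarith

end Cvx

/-- V3. -/
theorem ball_subset_of_vol {B : Set (E d)} (hB : SymCvx B) (h2 : B ⊆ closedBall 0 2) {ρ : ℝ}
    (h0 : 0 < ρ) (h1 : ρ ≤ 1) (hv : ENNReal.ofReal (2 * 8 ^ d * ρ) < volume B) :
    closedBall (0 : E d) (ρ / d) ⊆ B := by
  have _ := h1
  intro x hx
  rcases Nat.eq_zero_or_pos d with rfl | hd
  · rw [Subsingleton.elim x 0]; exact hB.zero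
  have hd' : (0 : ℝ) < d := by exact_mod_cast hd
  rw [mem_closedBall_zero_iff] at hx
  have hmem : ∀ i : Fin d, (d * x i / ρ) • ρ • (Pi.single i (1 : ℝ) : E d) ∈ B := by
    intro i
    refine hB.smul_mem ?_ (Cvx.mem_of_vol hB h2 h0 hv (by rw [Pi.norm_single, norm_one]))
    have h3 : |x i| ≤ ρ / d := (norm_le_pi_norm x i).trans hx
    rw [abs_div, abs_mul, abs_of_pos hd', abs_of_pos h0, div_le_one h0]
    rw [le_div_iff₀ hd'] at h3
    linarith
  have := hB.cvx.sum_mem (t := Finset.univ) (w := fun _ : Fin d => (d : ℝ)⁻¹)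
    (fun _ _ => by positivity) (by
      rw [Finset.sum_const, Finset.card_univ, Fintype.card_fin, nsmul_eq_mul,
        mul_inv_cancel₀ hd'.ne']) fun i _ => hmem i
  have e : ∑ i : Fin d, (d : ℝ)⁻¹ • (d * x i / ρ) • ρ • (Pi.single i (1 : ℝ) : E d) = x := by
    rw [← Finset.univ_sum_single x]
    refine Finset.sum_congr rfl fun i _ => ?_
    rw [Finset.univ_sum_single, smul_smul, smul_smul, ← Pi.single_smul', smul_eq_mul, mul_one]
    congr 1
    field_simp
  rwa [e] at this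

/-- V4. -/
theorem absorb {B : Set (E d)} (hB : SymCvx B) {ρ : ℝ}
    (h : closedBall (0 : E d) ρ ⊆ B + closedBall 0 (ρ / 2)) :
    closedBall (0 : E d) ρ ⊆ (2 : ℝ) • B := by
  intro x hx
  have key : ∀ k : ℕ, ∃ b ∈ (2 - 2 * (2⁻¹ : ℝ) ^ k) • B, ‖x - b‖ ≤ (2⁻¹ : ℝ) ^ k * ρ := by
    intro k
    induction k with
    | zero =>
      refine ⟨0, (hB.smul _).zero, ?_⟩
      rw [sub_zero, pow_zero, one_mul]
      exact mem_closedBall_zero_iff.1 hx
    | succ k ih =>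
      obtain ⟨b, hb, hb'⟩ := ih
      have hp : (0 : ℝ) < 2⁻¹ ^ k := by positivity
      have hp1 : (2⁻¹ : ℝ) ^ k ≤ 1 := pow_le_one₀ (by norm_num) (by norm_num)
      obtain ⟨b', hb1, y, hy, he⟩ := h (a := ((2⁻¹ : ℝ) ^ k)⁻¹ • (x - b)) (by
        rw [mem_closedBall_zero_iff, norm_smul, Real.norm_of_nonneg (by positivity),
          inv_mul_le_iff₀ hp]
        exact hb')
      have e1 : (2 - 2 * (2⁻¹ : ℝ) ^ (k + 1)) = (2 - 2 * (2⁻¹ : ℝ) ^ k) + (2⁻¹ : ℝ) ^ k := by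
        rw [pow_succ]; ring
      refine ⟨b + (2⁻¹ : ℝ) ^ k • b', ?_, ?_⟩
      · rw [e1, ← hB.smul_add_smul (by linarith) hp.le]
        exact ⟨b, hb, _, ⟨b', hb1, rfl⟩, rfl⟩
      · have e2 : x - (b + (2⁻¹ : ℝ) ^ k • b') = (2⁻¹ : ℝ) ^ k • y := by
          have e3 : x - b = (2⁻¹ : ℝ) ^ k • (b' + y) := by
            simp only at he
            rw [he, smul_smul, mul_inv_cancel₀ hp.ne', one_smul]
          rw [← sub_sub, e3, smul_add, add_sub_cancel_left]
        rw [e2, norm_smul, Real.norm_of_nonneg hp.le, pow_succ, mul_assoc]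
        refine mul_le_mul_of_nonneg_left ?_ hp.le
        have := mem_closedBall_zero_iff.1 hy
        linarith
  rw [← (hB.smul 2).cpt.isClosed.closure_eq, Metric.mem_closure_iff]
  intro ε hε
  have ht : Tendsto (fun k : ℕ => (2⁻¹ : ℝ) ^ k * ρ) atTop (𝓝 (0 * ρ)) :=
    (tendsto_pow_atTop_nhds_zero_of_lt_one (by norm_num) (by norm_num)).mul_const ρ
  rw [zero_mul] at ht
  obtain ⟨k, hk⟩ := (ht.eventually_lt_const hε).exists
  obtain ⟨b, hb, hb'⟩ := key k
  have hp : (0 : ℝ) < 2⁻¹ ^ k := by positivity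
  have hp1 : (2⁻¹ : ℝ) ^ k ≤ 1 := pow_le_one₀ (by norm_num) (by norm_num)
  refine ⟨b, hB.smul_subset (by linarith) (by linarith) hb, ?_⟩
  rw [dist_eq_norm]
  exact hb'.trans_lt hk

end Vale.Agent.P109
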