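import Vale.Agent.P109.AdicBasic

/-! P109: adic systems have finite entropy. -/

namespace Vale.Agent.P109

open MeasureTheory Set Metric Filter Topology
open scoped ENNReal Pointwise

namespace Ent

theorem integral_comp_fin {X ι : Type} [MeasurableSpace X] [Fintype ι] [MeasurableSpace ι]
    [MeasurableSingletonClass ι] (μ : Measure X) [IsFiniteMeasure μ] {η : X → ι}
    (hη : Measurable η) (g : ι → ℝ) :
    ∫ x, g (η x) ∂μ = ∑ i, μ.real (η ⁻¹' {i}) * g i := by
  rw [← integral_map hη.aemeasurable (measurable_of_countable g).aestronglyMeasurable,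
    integral_fintype Integrable.of_finite]
  refine Finset.sum_congr rfl fun i _ => ?_
  rw [smul_eq_mul, map_measureReal_apply hη (measurableSet_singleton i)]

theorem gibbs {X ι : Type} [MeasurableSpace X] [Fintype ι] [MeasurableSpace ι]
    [MeasurableSingletonClass ι] (μ : Measure X) [IsProbabilityMeasure μ] {η : X → ι}
    (hη : Measurable η) (q : ι → ℝ) (hq : ∀ i, 0 < q i) (hq' : ∑ i, q i ≤ 1) :
    shannon μ η ≤ ∫ x, -Real.log (q (η x)) ∂μ := by
  rw [integral_comp_fin μ hη fun i => -Real.log (q i)]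
  have h1 : ∑ i, μ.real (η ⁻¹' {i}) = 1 := by
    simpa using (integral_comp_fin μ hη fun _ => (1 : ℝ)).symm
  have h2 : ∀ i, Real.negMulLog (μ.real (η ⁻¹' {i})) ≤
      μ.real (η ⁻¹' {i}) * -Real.log (q i) + (q i - μ.real (η ⁻¹' {i})) := by
    intro i
    rcases (measureReal_nonneg : 0 ≤ μ.real (η ⁻¹' {i})).eq_or_lt with h | h
    · rw [← h]; simpa using (hq i).le
    · generalize μ.real (η ⁻¹' {i}) = p at h
      have h3 := Real.log_le_sub_one_of_pos (div_pos (hq i) h)
      rw [Real.log_div (hq i).ne' h.ne'] at h3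
      have h4 := mul_le_mul_of_nonneg_left h3 h.le
      have h5 : p * (q i / p - 1) = q i - p := by field_simp
      rw [Real.negMulLog]
      nlinarith
  refine (Finset.sum_le_sum fun i _ => h2 i).trans ?_
  rw [Finset.sum_add_distrib, Finset.sum_sub_distrib, h1]
  linarith

/-- The entropy of a name which is well approximated by few names. -/
theorem shannon_le {X Z : Type} [MeasurableSpace X] [Fintype Z] (μ : Measure X)
    [IsProbabilityMeasure μ] {r N : ℕ} (hr : 0 < r) (P Q : Fin N → X → Fin r)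
    (hP : ∀ t, Measurable (P t)) (hQ : ∀ t, Measurable (Q t)) (z : X → Z)
    (nm : Z → Fin N → Fin r) (hz : ∀ x t, nm (z x) t = Q t x)
    (hε : ∀ t, μ.real {x | P t x ≠ Q t x} ≤ (r : ℝ)⁻¹) :
    shannon μ (fun x t => P t x) ≤ Real.log (Fintype.card Z) + N * (Real.log 2 + 1) := by
  classical
  have hr' : (0 : ℝ) < r := by exact_mod_cast hr
  have : Nonempty X := μ.nonempty_of_neZero
  have : Nonempty Z := ⟨z (Classical.arbitrary X)⟩
  have hZ : (0 : ℝ) < Fintype.card Z := by exact_mod_cast Fintype.card_pos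
  let κ : Fin r → Fin r → ℝ := fun a c => if c = a then 2⁻¹ else (2 * r : ℝ)⁻¹
  have κp : ∀ a c, 0 < κ a c := by
    intro a c; simp only [κ]; split_ifs <;> positivity
  have κs : ∀ a, ∑ c, κ a c ≤ 1 := by
    intro a
    have : ∀ c, κ a c ≤ (if c = a then 2⁻¹ else 0) + (2 * r : ℝ)⁻¹ := by
      intro c; simp only [κ]; split_ifs
      · have : (0 : ℝ) ≤ (2 * r : ℝ)⁻¹ := by positivity
        linarith
      · simp
    refine (Finset.sum_le_sum fun c _ => this c).trans ?_
    rw [Finset.sum_add_distrib]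
    simp only [Finset.sum_ite_eq', Finset.mem_univ, if_true, Finset.sum_const, Finset.card_univ,
      Fintype.card_fin, nsmul_eq_mul]
    have : (r : ℝ) * (2 * r : ℝ)⁻¹ = 2⁻¹ := by field_simp
    rw [this]; norm_num
  have κl : ∀ a c, -Real.log (κ a c) = Real.log 2 + Real.log r * (if c ≠ a then 1 else 0) := by
    intro a c
    by_cases h : c = a
    · simp [κ, h]
    · simp only [κ, h, if_false, ne_eq, not_false_eq_true, if_true, mul_one]
      rw [Real.log_inv, neg_neg, Real.log_mul (by norm_num) hr'.ne']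
  let q : (Fin N → Fin r) → ℝ := fun η =>
    (Fintype.card Z : ℝ)⁻¹ * ∑ y : Z, ∏ t, κ (nm y t) (η t)
  have qp : ∀ η, 0 < q η := fun η =>
    mul_pos (inv_pos.2 hZ) (Finset.sum_pos (fun y _ => Finset.prod_pos fun t _ => κp _ _)
      Finset.univ_nonempty)
  have qs : ∑ η, q η ≤ 1 := by
    simp only [q]
    rw [← Finset.mul_sum, Finset.sum_comm]
    have : ∀ y : Z, ∑ η : Fin N → Fin r, ∏ t, κ (nm y t) (η t) ≤ 1 := by
      intro y
      rw [← Fintype.piFinset_univ, ← Finset.prod_univ_sum]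
      exact Finset.prod_le_one (fun t _ => Finset.sum_nonneg fun c _ => (κp _ _).le)
        fun t _ => κs _
    refine (mul_le_mul_of_nonneg_left (Finset.sum_le_sum fun y _ => this y)
      (inv_pos.2 hZ).le).trans ?_
    simp
  have hη : Measurable fun x t => P t x := measurable_pi_iff.2 hP
  refine (gibbs μ hη q qp qs).trans ?_
  have hm : ∀ t, MeasurableSet {x | P t x ≠ Q t x} := fun t =>
    (measurableSet_eq_fun (hP t) (hQ t)).compl
  have hi : ∀ t, Integrable (fun x => Real.log 2 + Real.log r *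
      ({x | P t x ≠ Q t x}.indicator (fun _ => (1 : ℝ)) x)) μ := fun t =>
    (integrable_const _).add (((integrable_const _).indicator (hm t)).const_mul _)
  have hpt : ∀ x, -Real.log (q fun t => P t x) ≤ Real.log (Fintype.card Z) +
      ∑ t, (Real.log 2 + Real.log r * ({x | P t x ≠ Q t x}.indicator (fun _ => (1 : ℝ)) x)) := by
    intro x
    have h1 : (Fintype.card Z : ℝ)⁻¹ * ∏ t, κ (nm (z x) t) (P t x) ≤ q fun t => P t x :=
      mul_le_mul_of_nonneg_left (Finset.single_le_sum (f := fun y => ∏ t, κ (nm y t) (P t x))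
        (fun y _ => (Finset.prod_pos fun t _ => κp _ _).le) (Finset.mem_univ _))
        (inv_pos.2 hZ).le
    have h2 : 0 < ∏ t, κ (nm (z x) t) (P t x) := Finset.prod_pos fun t _ => κp _ _
    have h3 := Real.log_le_log (mul_pos (inv_pos.2 hZ) h2) h1
    rw [Real.log_mul (inv_pos.2 hZ).ne' h2.ne', Real.log_inv,
      Real.log_prod (fun t _ => (κp _ _).ne')] at h3
    have h4 : ∑ t, (Real.log 2 + Real.log r *
        ({x | P t x ≠ Q t x}.indicator (fun _ => (1 : ℝ)) x)) =
        -∑ t, Real.log (κ (nm (z x) t) (P t x)) := by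
      rw [← Finset.sum_neg_distrib]
      refine Finset.sum_congr rfl fun t _ => ?_
      rw [κl, hz, indicator_apply]
      rfl
    rw [h4]; linarith
  have hint : Integrable (fun x => -Real.log (q fun t => P t x)) μ :=
    (Integrable.of_finite (μ := μ.map fun x t => P t x) (f := fun η => -Real.log (q η))).comp_measurable
      hη
  refine (integral_mono hint ((integrable_const _).add (integrable_finsetSum _ fun t _ => hi t))
    hpt).trans ?_
  simp only [Pi.add_apply]
  rw [integral_add (integrable_const _) (integrable_finsetSum _ fun t _ => hi t),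
    integral_finsetSum _ fun t _ => hi t]
  have h5 : ∀ t, ∫ x, (Real.log 2 + Real.log r *
      ({x | P t x ≠ Q t x}.indicator (fun _ => (1 : ℝ)) x)) ∂μ ≤ Real.log 2 + 1 := by
    intro t
    rw [integral_add (integrable_const _) (((integrable_const _).indicator (hm t)).const_mul _),
      integral_const_mul, integral_indicator (hm t)]
    simp only [integral_const, probReal_univ, smul_eq_mul, one_mul, measureReal_restrict_apply_univ,
      mul_one]
    have h6 : 0 ≤ Real.log r := Real.log_natCast_nonneg r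
    have h7 : Real.log r ≤ r := (Real.log_le_sub_one_of_pos hr').trans (by linarith)
    have h8 : Real.log r * μ.real {x | P t x ≠ Q t x} ≤ r * (r : ℝ)⁻¹ :=
      mul_le_mul h7 (hε t) measureReal_nonneg hr'.le
    rw [mul_inv_cancel₀ hr'.ne'] at h8
    linarith
  have h9 := Finset.sum_le_sum fun t (_ : t ∈ Finset.univ) => h5 t
  simp only [Finset.sum_const, Finset.card_univ, Fintype.card_fin, nsmul_eq_mul] at h9
  simp only [integral_const, probReal_univ, smul_eq_mul, one_mul]
  linarith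

variable {b D : ℕ → ℕ} {F : Fam b D} {X : Type} [MeasurableSpace X] {μ : Measure X} {T : X → X}

theorem down (Ad : Adic F μ T) {n m : ℕ} (h : n ≤ m) :
    ∃ g : ℕ × Fin (2 ^ b m) → ℕ × Fin (2 ^ b n),
      ∀ x, (Ad.pos n x, Ad.w n x) = g (Ad.pos m x, Ad.w m x) := by
  induction m, h using Nat.le_induction with
  | base => exact ⟨id, fun _ => rfl⟩
  | succ m _ ih =>
    obtain ⟨g, hg⟩ := ih
    refine ⟨fun y => g (y.1 % 2 ^ m, if y.1 < 2 ^ m then F.lft m y.2 else F.rgt m y.2),
      fun x => ?_⟩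
    simp only
    rw [Ad.pos_succ, ← Ad.w_succ, hg]

theorem approx [IsProbabilityMeasure μ] (Ad : Adic F μ T) (hG : Ad.Gen) {r : ℕ} (hr : 0 < r)
    {P : X → Fin r} (hP : Measurable P) :
    ∃ (n : ℕ) (Q : ℕ × Fin (2 ^ b n) → Fin r),
      μ.real {x | P x ≠ Q (Ad.pos n x, Ad.w n x)} ≤ (r : ℝ)⁻¹ := by
  classical
  have hr0 : (r : ℝ≥0∞) ≠ 0 := by exact_mod_cast hr.ne'
  have hε : (0 : ℝ≥0∞) < (r : ℝ≥0∞)⁻¹ * (r : ℝ≥0∞)⁻¹ :=
    ENNReal.mul_pos (by simp) (by simp)
  choose k B hB using fun i : Fin r => hG (P ⁻¹' {i}) (hP (measurableSet_singleton i)) _ hε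
  choose g hg using fun i : Fin r =>
    down Ad (Finset.le_sup (f := k) (Finset.mem_univ i) : k i ≤ Finset.univ.sup k)
  refine ⟨Finset.univ.sup k, fun y => if h : ∃ i, g i y ∈ B i then h.choose else ⟨0, hr⟩, ?_⟩
  refine ENNReal.toReal_le_of_le_ofReal (by positivity) ?_
  refine le_trans (measure_mono (t := ⋃ i, symmDiff (P ⁻¹' {i})
    {x | (Ad.pos (k i) x, Ad.w (k i) x) ∈ B i}) ?_) ((measure_iUnion_le _).trans ?_)
  · intro x hx
    by_contra hn
    simp only [mem_iUnion, not_exists, mem_symmDiff, mem_preimage, mem_singleton_iff,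
      mem_ofPred_eq, hg, not_or, not_and, not_not] at hn
    apply hx
    have h : ∃ i, g i (Ad.pos _ x, Ad.w _ x) ∈ B i := ⟨P x, (hn (P x)).1 rfl⟩
    simp only [dif_pos h]
    exact (hn _).2 h.choose_spec
  · rw [tsum_fintype]
    refine (Finset.sum_le_sum fun i _ => (hB i).le).trans ?_
    simp only [Finset.sum_const, Finset.card_univ, Fintype.card_fin, nsmul_eq_mul]
    rw [← mul_assoc, ENNReal.mul_inv_cancel hr0 (by simp), one_mul,
      ENNReal.ofReal_inv_of_pos (by exact_mod_cast hr)]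
    simp

theorem w_block (Ad : Adic F μ T) (n t : ℕ) (x : X) :
    Ad.w n (T^[(Ad.pos n x + t) / 2 ^ n * 2 ^ n - Ad.pos n x] x) = Ad.w n (T^[t] x) := by
  have hp := Ad.pos_lt n x
  have hd := Nat.div_add_mod (Ad.pos n x + t) (2 ^ n)
  have hm : (Ad.pos n x + t) % 2 ^ n < 2 ^ n := Nat.mod_lt _ (by positivity)
  rw [mul_comm] at hd
  generalize (Ad.pos n x + t) / 2 ^ n = q at hd ⊢
  have hs : q * 2 ^ n - Ad.pos n x ≤ t := by omega
  have e : T^[t] x = T^[t - (q * 2 ^ n - Ad.pos n x)] (T^[q * 2 ^ n - Ad.pos n x] x) := by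
    rw [← Function.iterate_add_apply, Nat.sub_add_cancel hs]
  rw [e]
  refine (Ad.w_iterate ?_).symm
  rw [Ad.pos_iterate]
  rcases Nat.eq_zero_or_pos q with rfl | hq
  · simp only [zero_mul, zero_add, Nat.zero_sub, add_zero, Nat.sub_zero] at hd ⊢
    rw [Nat.mod_eq_of_lt hp]; omega
  · have h1 : 2 ^ n ≤ q * 2 ^ n := Nat.le_mul_of_pos_left _ hq
    have h2 : Ad.pos n x + (q * 2 ^ n - Ad.pos n x) = q * 2 ^ n := by omega
    rw [h2, Nat.mul_mod_left]; omega

end Ent

theorem Adic.ksEntropy_lt_top {b D : ℕ → ℕ} {F : Fam b D} {X : Type} [MeasurableSpace X]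
    {μ : Measure X} [IsProbabilityMeasure μ] {T : X → X} (Ad : Adic F μ T)
    (hT : MeasurePreserving T μ μ) (hG : Ad.Gen) : ksEntropy μ T < ∞ := by
  refine lt_of_le_of_lt ?_ (ENNReal.ofReal_lt_top (r := 4))
  refine iSup_le fun r => iSup_le fun P => iSup_le fun hP => ?_
  have : Nonempty X := μ.nonempty_of_neZero
  have hr : 0 < r := (P (Classical.arbitrary X)).pos
  obtain ⟨n, Q, hQ⟩ := Ent.approx Ad hG hr hP
  have mQ : Measurable fun x => Q (Ad.pos n x, Ad.w n x) :=
    (measurable_of_countable Q).comp ((Ad.meas_pos n).prodMk (Ad.meas_w n))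
  refine limsup_le_of_le (by isBoundedDefault) ?_
  filter_upwards [eventually_ge_atTop (n + 2 * 2 ^ n)] with N hN
  refine ENNReal.ofReal_le_ofReal ?_
  have hp : 0 < 2 ^ n := by positivity
  have hN0 : (0 : ℝ) < N := by exact_mod_cast (by omega : 0 < N)
  have hq : ∀ (p : Fin (2 ^ n)) (t : Fin N), (p.val + t.val) / 2 ^ n < N / 2 ^ n + 2 := by
    intro p t
    have h1 : (p.val + t.val) / 2 ^ n ≤ (N + 2 ^ n) / 2 ^ n :=
      Nat.div_le_div_right (by have := p.isLt; have := t.isLt; omega)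
    rw [Nat.add_div_right _ hp] at h1
    omega
  have h := Ent.shannon_le (Z := Fin (2 ^ n) × (Fin (N / 2 ^ n + 2) → Fin (2 ^ b n))) μ hr
    (fun (t : Fin N) x => P (T^[t] x))
    (fun t x => Q (Ad.pos n (T^[t] x), Ad.w n (T^[t] x)))
    (fun t => hP.comp (hT.measurable.iterate t)) (fun t => mQ.comp (hT.measurable.iterate t))
    (fun x => (⟨Ad.pos n x, Ad.pos_lt n x⟩, fun q => Ad.w n (T^[q.val * 2 ^ n - Ad.pos n x] x)))
    (fun y t => Q ((y.1.val + t.val) % 2 ^ n, y.2 ⟨_, hq y.1 t⟩))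
    (fun x t => by
      simp only
      rw [Ent.w_block, Ad.pos_iterate])
    (fun t => by
      have e := (hT.iterate t).measureReal_preimage
        (s := {x | P x ≠ Q (Ad.pos n x, Ad.w n x)})
        (measurableSet_eq_fun hP mQ).compl.nullMeasurableSet
      exact e.le.trans hQ)
  have hc : Real.log (Fintype.card (Fin (2 ^ n) × (Fin (N / 2 ^ n + 2) → Fin (2 ^ b n)))) ≤
      2 * N * Real.log 2 := by
    simp only [Fintype.card_prod, Fintype.card_fin, Fintype.card_pi, Finset.prod_const,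
      Finset.card_univ]
    rw [← pow_mul, ← pow_add]
    push_cast
    rw [Real.log_pow]
    refine mul_le_mul_of_nonneg_right ?_ (Real.log_nonneg (by norm_num))
    have h1 : b n * (N / 2 ^ n + 2) ≤ 2 ^ n * (N / 2 ^ n + 2) :=
      Nat.mul_le_mul_right _ (F.b_le n)
    have h2 := Nat.mul_div_le N (2 ^ n)
    have h3 : n + b n * (N / 2 ^ n + 2) ≤ 2 * N := by
      rw [mul_add (2 ^ n)] at h1; omega
    exact_mod_cast h3
  rw [div_le_iff₀ hN0]
  have h2 : Real.log 2 ≤ 1 := (Real.log_le_sub_one_of_pos (by norm_num)).trans (by norm_num)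
  nlinarith

end Vale.Agent.P109
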