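import Vale.Agent.P109.BadProb

/-! P109: the initial gain after a free stretch of levels. -/

namespace Vale.Agent.P109

open MeasureTheory Set Metric Filter Topology
open scoped ENNReal Pointwise

namespace Init

theorem sum_mul (f : ℕ → ℝ) (M N : ℕ) :
    ∑ t ∈ Finset.range (N * M), f t =
      ∑ p ∈ Finset.range M, ∑ i ∈ Finset.range N, f (p + i * M) := by
  induction N with
  | zero => simp
  | succ N ih =>
    rw [add_mul, one_mul, Finset.sum_range_add, ih, ← Finset.sum_add_distrib]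
    refine Finset.sum_congr rfl fun p _ => ?_
    rw [Finset.sum_range_succ, add_comm (N * M)]

theorem logs : 1 / 4 ≤ Real.log (3 / 2) - Real.log 3 / 10 ∧ Real.log 3 ≤ 2 ∧ 0 ≤ Real.log 3 ∧
    Real.log (1 / 2) = Real.log (3 / 2) - Real.log 3 := by
  have h1 : Real.log 3 = Real.log 2 + Real.log (3 / 2) := by
    rw [← Real.log_mul (by norm_num) (by norm_num)]; norm_num
  have h2 : 4 * Real.log 2 ≤ 7 * Real.log (3 / 2) := by
    have := Real.log_le_log (x := 2 ^ 4) (y := (3 / 2) ^ 7) (by norm_num) (by norm_num)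
    rw [Real.log_pow, Real.log_pow] at this
    exact_mod_cast this
  have h3 : Real.log (3 / 2) ≤ Real.log 2 := Real.log_le_log (by norm_num) (by norm_num)
  have h4 := Real.log_two_gt_d9
  have h5 := Real.log_two_lt_d9
  refine ⟨by linarith, by linarith, by linarith, ?_⟩
  rw [one_div, Real.log_inv]; linarith

theorem exists_guess {d : ℕ} {C : ℝ} (hC : 2 ≤ C) {b D : ℕ → ℕ} {F : Fam b D} {Ω : Type}
    [MeasurableSpace Ω] (J : Joint d C F Ω) {τ : ℕ} (hτ : 1 ≤ τ) (m : ℕ) :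
    ∃ g : Nm d m → ℕ → Fin (2 ^ b 0), ∀ x t c, t < m * τ → J.Z.GoodO τ (m * τ) x →
      J.Z.f^[t] x ∈ J.K c → g (J.Z.nm τ m x) t = c := by
  have h : ∀ (a : Nm d m) (t : ℕ), ∃ c₀ : Fin (2 ^ b 0), ∀ x c, t < m * τ → J.Z.nm τ m x = a →
      J.Z.GoodO τ (m * τ) x → J.Z.f^[t] x ∈ J.K c → c₀ = c := by
    intro a t
    by_cases h : ∃ c x, J.Z.nm τ m x = a ∧ J.Z.GoodO τ (m * τ) x ∧ J.Z.f^[t] x ∈ J.K c
    swap
    · exact ⟨⟨0, by positivity⟩, fun x c _ h1 h2 h3 => absurd ⟨c, x, h1, h2, h3⟩ h⟩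
    obtain ⟨c₀, x₀, a1, a2, a3⟩ := h
    refine ⟨c₀, fun x c ht h1 h2 h3 => ?_⟩
    by_contra hne
    have hsep := J.sep _ _ hne _ a3 _ h3
    obtain ⟨j, i, hi, rfl⟩ : ∃ j i, i < τ ∧ t = i + j * τ :=
      ⟨t / τ, t % τ, Nat.mod_lt _ (by omega), by rw [mul_comm]; exact (Nat.mod_add_div t τ).symm⟩
    have hj : j < m := by
      by_contra hj
      have := Nat.mul_le_mul_right τ (not_lt.1 hj)
      omega
    have hCY : C ≤ C ^ τ := le_self_pow₀ (by linarith) (by omega)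
    have hy0 : 0 < (C ^ τ)⁻¹ := by positivity
    have hy1 : (C ^ τ)⁻¹ < 1 := inv_lt_one_of_one_lt₀ (by linarith)
    have e19 : C ^ τ * (C ^ τ)⁻¹ ^ 20 = (C ^ τ)⁻¹ ^ 19 := by field_simp
    have hn : ‖J.Z.f^[j * τ] x₀ - J.Z.f^[j * τ] x‖ ≤ (C ^ τ)⁻¹ ^ 20 :=
      norm_sub_le_of_cell_eq (by positivity) (congrFun (a1.trans h1.symm) ⟨j, by omega⟩)
    have := J.Z.lip_iter hC (t := τ) (x := J.Z.f^[j * τ] x) (r := (C ^ τ)⁻¹ ^ 18)
      (s := (C ^ τ)⁻¹ ^ 20) (fun k hk => by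
        rw [← Function.iterate_add_apply]
        refine h2 _ ?_
        calc k + j * τ ≤ (j + 1) * τ := by nlinarith
          _ ≤ m * τ := Nat.mul_le_mul_right _ hj)
      (by rw [e19]; exact pow_lt_pow_right_of_lt_one₀ hy0 hy1 (by norm_num)) hn
      (y' := J.Z.f^[j * τ] x) (by simp; positivity) i hi.le
    rw [← Function.iterate_add_apply, ← Function.iterate_add_apply] at this
    have h4 : C ^ i ≤ C ^ τ := pow_le_pow_right₀ (by linarith) hi.le
    have h5 : (C ^ τ)⁻¹ ^ 19 < (C ^ τ)⁻¹ ^ 1 := pow_lt_pow_right_of_lt_one₀ hy0 hy1 (by norm_num)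
    have h6 : (C ^ τ)⁻¹ ≤ C⁻¹ := inv_anti₀ (by linarith) hCY
    have h7 : C ^ i * ‖J.Z.f^[j * τ] x₀ - J.Z.f^[j * τ] x‖ ≤ C ^ τ * (C ^ τ)⁻¹ ^ 20 := by gcongr
    rw [pow_one] at h5
    linarith
  choose g hg using h
  exact ⟨g, fun x t c ht h1 h2 => hg _ t x c ht rfl h1 h2⟩

end Init

open Init BadProb

theorem init_pred (d : ℕ) {C : ℝ} (hC : 2 ≤ C) (l : ℕ) : ∃ n₁ : ℕ,
    ∀ (b D : ℕ → ℕ) (F : Fam b D) (Ω : Type) [MeasurableSpace Ω] (J : Joint d C F Ω) (n₀ n : ℕ),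
      n₁ ≤ n → n₀ ≤ n → (∀ j, n₀ ≤ j → j < n → D j = 0) →
        J.Pred l n (b n * Real.log 2 - 2 ^ n / 2 ^ n₀ / 4 + 2) := by
  classical
  obtain ⟨n₁, hn₁⟩ := eventually_atTop.1 (ev_exp l)
  refine ⟨n₁ + l, fun b D F Ω _ J n₀ n hn hn₀ hD => ?_⟩
  have e1 := hn₁ n (by omega)
  obtain ⟨τ, hτ⟩ : ∃ τ, τ = 2 ^ (n - l) := ⟨_, rfl⟩
  obtain ⟨N, hN⟩ : ∃ N, N = 2 ^ (n - n₀) := ⟨_, rfl⟩
  rw [← hτ] at e1
  have hmτ : 2 ^ l * τ = 2 ^ n := by rw [hτ, ← pow_add]; congr 1; omega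
  have hNn : N * 2 ^ n₀ = 2 ^ n := by rw [hN, ← pow_add]; congr 1; omega
  have hNn' : (2 : ℝ) ^ n = N * 2 ^ n₀ := by exact_mod_cast hNn.symm
  obtain ⟨g, hg⟩ := exists_guess hC J (τ := τ) (by omega) (2 ^ l)
  rw [hmτ] at hg
  have := J.Ad.P_prob n
  have := J.prob
  obtain ⟨l1, l2, l3, l4⟩ := logs
  -- errors
  obtain ⟨Er, hEr⟩ : ∃ Er : Set Ω, Er = {ω | J.Φ ω ∉ J.K (J.Ad.w 0 ω)} := ⟨_, rfl⟩
  have mEr : MeasurableSet Er := by
    have : Er = ⋃ c, (J.Ad.w 0 ⁻¹' {c} ∩ J.Φ ⁻¹' (J.K c)ᶜ) := by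
      ext ω; simp [hEr]
    rw [this]
    exact MeasurableSet.iUnion fun c => (J.Ad.meas_w 0 (measurableSet_singleton _)).inter
      (J.hΦ.measurable (J.measK c).compl)
  have mE : ∀ t, MeasurableSet (J.T^[t] ⁻¹' Er) := fun t => J.pres.measurable.iterate t mEr
  have hsum : ∑ t ∈ Finset.range (2 ^ n), (J.Ad.P n).real (J.T^[t] ⁻¹' Er) ≤ 2 ^ n / 10 := by
    have t1 := J.Ad.tower_real J.pres (j := 0) (n := n) (Nat.zero_le _)
      (φ := Er.indicator 1) (measurable_one.indicator mEr) (B := 1) (fun x => by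
        by_cases h : x ∈ Er <;> simp [h])
    simp only [Nat.sub_zero, pow_zero, mul_one, J.Ad.P_zero, integral_indicator_one mEr] at t1
    have t2 : ∀ t, ∫ x, Er.indicator (1 : Ω → ℝ) (J.T^[t] x) ∂(J.Ad.P n) =
        (J.Ad.P n).real (J.T^[t] ⁻¹' Er) := fun t => by
      rw [← integral_indicator_one (mE t)]; rfl
    simp only [t2] at t1
    rw [t1, div_eq_mul_inv]
    gcongr
    have := J.see
    rw [← hEr] at this
    refine (ENNReal.toReal_mono (by simp) this).trans (by simp)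
  obtain ⟨p, hp, hpe⟩ : ∃ p ∈ Finset.range (2 ^ n₀), ∑ i ∈ Finset.range N,
      (J.Ad.P n).real (J.T^[p + i * 2 ^ n₀] ⁻¹' Er) ≤ N / 10 := by
    refine Finset.exists_le_of_sum_le (by simp) ?_
    rw [← sum_mul (fun t => (J.Ad.P n).real (J.T^[t] ⁻¹' Er)), hNn]
    refine hsum.trans (le_of_eq ?_)
    simp only [Finset.sum_const, Finset.card_range, nsmul_eq_mul, hNn']
    push_cast; ring
  rw [Finset.mem_range] at hp
  obtain ⟨Bad, hBad⟩ : ∃ Bad : Set Ω,
    Bad = toMeasurable (J.Ad.P n) {ω | ¬ J.Z.GoodO τ (2 ^ n) (J.Φ ω)} := ⟨_, rfl⟩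
  have mBad : MeasurableSet Bad := by rw [hBad]; exact measurableSet_toMeasurable _ _
  have hBad1 : (J.Ad.P n).real Bad ≤ (2 ^ (n + 1))⁻¹ * (2 ^ n)⁻¹ := by
    refine ENNReal.toReal_le_of_le_ofReal (by positivity) ?_
    rw [hBad, measure_toMeasurable]
    exact not_goodO hC J (by omega) le_rfl
  -- the kernel
  let φ : Nm d (2 ^ l) → ℕ → Fin (2 ^ b 0) → ℝ := fun a i c =>
    if c = g a (p + i * 2 ^ n₀) then 3 / 2 else 1 / 2
  have hφ0 : ∀ a i c, 0 < φ a i c := fun a i c => by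
    simp only [φ]; split_ifs <;> norm_num
  have hφ : ∀ a i, ∑ c, φ a i c = 2 := fun a i => by
    have : ∀ c, φ a i c = 1 / 2 + if c = g a (p + i * 2 ^ n₀) then 1 else 0 := fun c => by
      simp only [φ]; split_ifs <;> norm_num
    simp only [this, Finset.sum_add_distrib, Finset.sum_ite_eq', Finset.mem_univ, if_true,
      Finset.sum_const, Finset.card_univ, Fintype.card_fin, F.b0]
    norm_num
  let k : Nm d (2 ^ l) → Fin (2 ^ b n) → ℝ := fun a y =>
    (2 ^ b n)⁻¹ * ∏ i ∈ Finset.range N, φ a i (F.lt n y (p + i * 2 ^ n₀))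
  have hk : Ker k := by
    refine ⟨fun a y => mul_pos (by positivity) (Finset.prod_pos fun i _ => hφ0 _ _ _), fun a => ?_⟩
    simp only [k]
    rw [← Finset.mul_sum, hN, F.sum_prod_lt hn₀ hD hp (φ a) (hφ a)]
    exact le_of_eq (inv_mul_cancel₀ (by positivity))
  let ψ : Ω → ℝ := fun ω => b n * Real.log 2 - N * Real.log (3 / 2) + Real.log 3 *
    ∑ i ∈ Finset.range N, ((J.T^[p + i * 2 ^ n₀] ⁻¹' Er).indicator 1 ω + Bad.indicator 1 ω)
  have ind : ∀ {s : Set Ω}, MeasurableSet s → Integrable (s.indicator (1 : Ω → ℝ)) (J.Ad.P n) :=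
    fun hs => (integrable_const 1).indicator hs
  have i0 : ∀ i, Integrable (fun ω => (J.T^[p + i * 2 ^ n₀] ⁻¹' Er).indicator (1 : Ω → ℝ) ω +
      Bad.indicator 1 ω) (J.Ad.P n) := fun i => (ind (mE _)).add (ind mBad)
  have i1 : Integrable (fun ω => ∑ i ∈ Finset.range N,
      ((J.T^[p + i * 2 ^ n₀] ⁻¹' Er).indicator (1 : Ω → ℝ) ω + Bad.indicator 1 ω)) (J.Ad.P n) :=
    integrable_finsetSum _ fun i _ => i0 i
  have iψ : Integrable ψ (J.Ad.P n) := (integrable_const _).add (i1.const_mul _)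
  have hle : ∀ᵐ ω ∂(J.Ad.P n),
      -Real.log (k (J.Z.nm τ (2 ^ l) (J.Φ ω)) (J.Ad.w n ω)) ≤ ψ ω := by
    filter_upwards [J.Ad.ae_pos n] with ω hω
    simp only [k, ψ]
    rw [Real.log_mul (by positivity) (Finset.prod_pos fun i _ => hφ0 _ _ _).ne', Real.log_inv,
      Real.log_pow, Real.log_prod fun i _ => (hφ0 _ _ _).ne', Finset.mul_sum]
    have : ∑ i ∈ Finset.range N, (Real.log (3 / 2) - Real.log 3 *
        ((J.T^[p + i * 2 ^ n₀] ⁻¹' Er).indicator (1 : Ω → ℝ) ω + Bad.indicator 1 ω)) ≤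
        ∑ i ∈ Finset.range N, Real.log (φ (J.Z.nm τ (2 ^ l) (J.Φ ω)) i
          (F.lt n (J.Ad.w n ω) (p + i * 2 ^ n₀))) := by
      refine Finset.sum_le_sum fun i hi => ?_
      rw [Finset.mem_range] at hi
      have ht : p + i * 2 ^ n₀ < 2 ^ n := by
        calc p + i * 2 ^ n₀ < (i + 1) * 2 ^ n₀ := by nlinarith
          _ ≤ N * 2 ^ n₀ := Nat.mul_le_mul_right _ hi
          _ = _ := hNn
      have a1 : (0 : ℝ) ≤ (J.T^[p + i * 2 ^ n₀] ⁻¹' Er).indicator (1 : Ω → ℝ) ω :=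
        indicator_nonneg (fun _ _ => zero_le_one) _
      have a2 : (0 : ℝ) ≤ Bad.indicator (1 : Ω → ℝ) ω :=
        indicator_nonneg (fun _ _ => zero_le_one) _
      simp only [φ]
      split_ifs with hc
      · nlinarith
      · have : (1 : ℝ) ≤ (J.T^[p + i * 2 ^ n₀] ⁻¹' Er).indicator (1 : Ω → ℝ) ω +
            Bad.indicator 1 ω := by
          by_cases h1 : ω ∈ J.T^[p + i * 2 ^ n₀] ⁻¹' Er
          · rw [indicator_of_mem h1]; simpa using a2
          by_cases h2 : ω ∈ Bad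
          · rw [indicator_of_mem h2]; simpa using a1
          exfalso
          refine hc (hg _ _ _ ht ?_ ?_).symm
          · by_contra h3
            exact h2 (hBad ▸ subset_toMeasurable _ _ h3)
          · rw [← J.Ad.letter hω ht, ← iter_Φ]
            simpa [hEr] using h1
        rw [l4]; nlinarith
    rw [Finset.sum_sub_distrib] at this
    simp only [Finset.sum_const, Finset.card_range, nsmul_eq_mul] at this
    linarith
  have hψ0 : 0 ≤ᵐ[J.Ad.P n] ψ := by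
    filter_upwards [hle] with ω hω
    refine le_trans ?_ hω
    have h1 := hk.2 (J.Z.nm τ (2 ^ l) (J.Φ ω))
    have h2 := Finset.single_le_sum (f := k (J.Z.nm τ (2 ^ l) (J.Φ ω)))
      (fun y _ => (hk.1 _ y).le) (Finset.mem_univ (J.Ad.w n ω))
    have := Real.log_nonpos (hk.1 _ _).le (h2.trans h1)
    simp only [Pi.zero_apply]; linarith
  refine ⟨k, hk, ∫ ω, ψ ω ∂(J.Ad.P n), integral_nonneg_of_ae hψ0, ?_, ?_⟩
  · simp only [ψ]
    rw [integral_add (integrable_const _) (i1.const_mul _), integral_const_mul,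
      integral_finsetSum _ fun i _ => i0 i]
    simp only [integral_add (ind (mE _)) (ind mBad), integral_indicator_one (mE _),
      integral_indicator_one mBad, integral_const, probReal_univ, smul_eq_mul, one_mul,
      Finset.sum_add_distrib, Finset.sum_const, Finset.card_range, nsmul_eq_mul]
    have h1 : (N : ℝ) * (J.Ad.P n).real Bad ≤ 1 := by
      have h2 : (N : ℝ) ≤ 2 ^ n := by
        rw [hNn']; exact le_mul_of_one_le_right (Nat.cast_nonneg _) (one_le_pow₀ (by norm_num))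
      have h3 : ((2 : ℝ) ^ (n + 1))⁻¹ ≤ 1 := inv_le_one_of_one_le₀ (one_le_pow₀ (by norm_num))
      calc _ ≤ 2 ^ n * (1 * ((2 : ℝ) ^ n)⁻¹) := by
            gcongr
            exact hBad1.trans (by gcongr)
        _ = 1 := by field_simp
    have h2 : (2 : ℝ) ^ n / 2 ^ n₀ = N := by rw [hNn']; field_simp
    have h3 : (0 : ℝ) ≤ N := Nat.cast_nonneg _
    rw [h2]
    have h4 := mul_le_mul_of_nonneg_left (add_le_add hpe h1) l3
    nlinarith
  · rw [← hτ, ofReal_integral_eq_lintegral_ofReal iψ hψ0]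
    refine lintegral_mono_ae ?_
    filter_upwards [hle] with ω hω
    exact ENNReal.ofReal_le_ofReal hω

end Vale.Agent.P109
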