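import Vale.Agent.P109.Level
import Vale.Agent.P109.Init

/-! P109: one epoch of the construction kills all models with given constants. -/

namespace Vale.Agent.P109

open MeasureTheory Set Metric Filter Topology
open scoped ENNReal Pointwise

namespace Epoch

theorem pred_mono {d : ℕ} {C : ℝ} {b D : ℕ → ℕ} {F : Fam b D} {Ω : Type} [MeasurableSpace Ω]
    {J : Joint d C F Ω} {l n : ℕ} {x y : ℝ} (h : J.Pred l n x) (hxy : x ≤ y) : J.Pred l n y := by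
  obtain ⟨k, hk, s, h0, h1, h2⟩ := h
  exact ⟨k, hk, s, h0, h1.trans hxy, h2⟩

theorem pred_nonneg {d : ℕ} {C : ℝ} {b D : ℕ → ℕ} {F : Fam b D} {Ω : Type} [MeasurableSpace Ω]
    {J : Joint d C F Ω} {l n : ℕ} {x : ℝ} (h : J.Pred l n x) : 0 ≤ x := by
  obtain ⟨k, hk, s, h0, h1, h2⟩ := h
  exact h0.trans h1

/-- the telescoping potential -/
noncomputable def psi (a : ℕ → ℝ) (l n : ℕ) : ℝ := ∑ i ∈ Finset.range (l + 1), a (n - l + i)

theorem psi_succ (a : ℕ → ℝ) {l n : ℕ} (h : l ≤ n) :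
    psi a l (n + 1) = psi a l n - (a (n - l) - a (n + 1)) := by
  have h1 := Finset.sum_range_succ (fun i => a (n - l + i)) (l + 1)
  have h2 := Finset.sum_range_succ' (fun i => a (n - l + i)) (l + 1)
  have h3 : psi a l (n + 1) = ∑ i ∈ Finset.range (l + 1), a (n - l + (i + 1)) :=
    Finset.sum_congr rfl fun i _ => by rw [show n + 1 - l + i = n - l + (i + 1) by omega]
  rw [show n - l + (l + 1) = n + 1 by omega] at h1
  rw [add_zero] at h2
  rw [h3, psi]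
  linarith

theorem psi_mem (a : ℕ → ℝ) (l n : ℕ) {M : ℝ} (h : ∀ j, 0 ≤ a j ∧ a j ≤ M) :
    0 ≤ psi a l n ∧ psi a l n ≤ (l + 1) * M := by
  refine ⟨Finset.sum_nonneg fun i _ => (h _).1, ?_⟩
  refine (Finset.sum_le_sum fun i _ => (h (n - l + i)).2).trans ?_
  rw [Finset.sum_const, Finset.card_range, nsmul_eq_mul]
  push_cast
  exact le_rfl

theorem step_ineq {B B' Dn L lg P Q t c u Ψ Δ : ℝ} (hB : B' + Dn = 2 * B) (hD : Dn * Q = P)
    (hQ : 1 ≤ Q) (hP : 0 < P) (ht : 0 ≤ t) (hlg : 0 < lg) :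
    2 * (B * L - P * (c + u / lg / Q * Ψ + 4 * t)) - Dn * L + (2 * u * Δ / lg + t) * Dn + P * t ≤
      B' * L - P * 2 * (c + u / lg / Q * (Ψ - Δ) + 4 * (t * (3 / 4))) := by
  have hQ0 : 0 < Q := by linarith
  have h1 : Dn = P / Q := by rw [← hD]; field_simp
  have h2 : B' = 2 * B - Dn := by linarith
  have h3 : t * Dn ≤ t * P := by
    refine mul_le_mul_of_nonneg_left ?_ ht
    rw [h1]
    exact div_le_self hP.le hQ
  have h4 : 2 * u * Δ / lg * Dn = P * 2 * (u / lg / Q * Δ) := by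
    rw [h1]; field_simp
  rw [h2, add_mul, h4]
  nlinarith

theorem exists_pow (x : ℝ) {r : ℝ} (hr : 1 < r) : ∃ N : ℕ, ∀ n, N ≤ n → x ≤ r ^ n :=
  eventually_atTop.1 ((tendsto_pow_atTop_atTop_of_one_lt hr).eventually_ge_atTop x)

end Epoch

open Epoch in
theorem epoch (d : ℕ) {C : ℝ} (hC : 2 ≤ C) (n₀ : ℕ) : ∃ lam n₁ : ℕ, n₀ + 7 ≤ lam ∧
    ∀ (b D : ℕ → ℕ) (F : Fam b D) (n' n'' : ℕ), n₁ ≤ n' → n₀ ≤ n' → n' ≤ n'' →
      (∀ j, n₀ ≤ j → j < n' → D j = 0) →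
      (∀ n, n' ≤ n → n < n'' → D n = 2 ^ (n - lam) ∧ 2 ^ (n - n₀ - 4) ≤ b n) →
      b n'' ≤ 2 ^ (n'' - n₀ - 4) →
      ∀ (Ω : Type) [MeasurableSpace Ω], IsEmpty (Joint d C F Ω) := by
  obtain ⟨l, n₂, hl, hlev⟩ := level_pred d hC n₀
  obtain ⟨n₃, hini⟩ := init_pred d hC l
  obtain ⟨N₁, hN₁⟩ := exists_pow (16 * 2 ^ n₀ * (2 ^ l * ((l + 1) * d))) (one_lt_two (α := ℝ))
  obtain ⟨N₂, hN₂⟩ := exists_pow (96 * 2 ^ n₀) (show (1 : ℝ) < 4 / 3 by norm_num)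
  obtain ⟨lam, h7, hlam⟩ : ∃ lam, n₀ + 7 ≤ lam ∧ N₁ ≤ lam := ⟨n₀ + 7 + N₁, by omega, by omega⟩
  refine ⟨lam, lam + n₂ + n₃ + N₂, h7, ?_⟩
  intro b D F n' n'' h1 h0 h2 hD0 hD hb Ω _
  refine ⟨fun J => ?_⟩
  have hlg : 0 < Real.log C := Real.log_pos (by linarith)
  have hψ := fun n => psi_mem J.a l n (J.a_mem hC)
  have hK : (0 : ℝ) ≤ 2 ^ l / Real.log C / 2 ^ lam := by positivity
  have hc : (0 : ℝ) < (2 ^ n₀)⁻¹ := by positivity
  have key : ∀ n, n' ≤ n → n ≤ n'' → J.Pred l n (b n * Real.log 2 -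
      2 ^ n * ((2 ^ n₀)⁻¹ / 8 + 2 ^ l / Real.log C / 2 ^ lam * psi J.a l n + 4 * (3 / 4) ^ n)) := by
    intro n hn
    induction n, hn using Nat.le_induction with
    | base =>
      intro _
      refine pred_mono (hini b D F Ω J n₀ n' (by omega) h0 hD0) ?_
      have e1 : 2 ^ l / Real.log C / 2 ^ lam * psi J.a l n' ≤ (2 ^ n₀)⁻¹ / 16 := by
        refine (mul_le_mul_of_nonneg_left (hψ n').2 hK).trans ?_
        have e : 2 ^ l / Real.log C / 2 ^ lam * ((l + 1) * (d * Real.log C)) =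
            (2 ^ l * ((l + 1) * d)) / (2 : ℝ) ^ lam := by field_simp
        rw [e, div_le_iff₀ (by positivity)]
        refine le_trans (le_of_eq ?_) (mul_le_mul_of_nonneg_left (hN₁ lam hlam) (by positivity))
        field_simp
      have e2 : 6 * (3 / 4 : ℝ) ^ n' ≤ (2 ^ n₀)⁻¹ / 16 := by
        have e : (4 / 3 : ℝ) ^ n' * (3 / 4) ^ n' = 1 := by
          rw [← mul_pow]; norm_num
        have e' := mul_le_mul_of_nonneg_right (hN₂ n' (by omega))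
          (show (0 : ℝ) ≤ (3 / 4) ^ n' * (2 ^ n₀)⁻¹ by positivity)
        have e'' : (96 * 2 ^ n₀ : ℝ) * ((3 / 4) ^ n' * (2 ^ n₀)⁻¹) = 96 * (3 / 4) ^ n' := by
          field_simp
        rw [e'', ← mul_assoc, e, one_mul] at e'
        linarith
      have e3 : (1 : ℝ) ≤ 2 ^ n' * (3 / 4) ^ n' := by
        rw [← mul_pow]; exact one_le_pow₀ (by norm_num)
      have e4 : (0 : ℝ) < 2 ^ n' := by positivity
      have e5 := mul_le_mul_of_nonneg_left e1 e4.le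
      have e6 := mul_le_mul_of_nonneg_left e2 e4.le
      rw [div_eq_mul_inv ((2 : ℝ) ^ n')]
      nlinarith
    | succ n hn ih =>
      intro hn'
      obtain ⟨d1, d2⟩ := hD n hn hn'
      refine pred_mono (hlev b D F Ω J n _ (by omega) d2 (ih (by omega))) ?_
      have e1 : (b (n + 1) : ℝ) + D n = 2 * b n := by exact_mod_cast F.step n
      have e2 : (D n : ℝ) * 2 ^ lam = 2 ^ n := by
        rw [d1, Nat.cast_pow, Nat.cast_ofNat, ← pow_add, Nat.sub_add_cancel (by omega)]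
      have e3 : (3 / 2 : ℝ) ^ n = 2 ^ n * (3 / 4) ^ n := by
        rw [← mul_pow]; norm_num
      rw [psi_succ J.a (show l ≤ n by omega), pow_succ, pow_succ, e3]
      exact step_ineq e1 e2 (one_le_pow₀ one_le_two) (by positivity) (by positivity) hlg
  have h3 := pred_nonneg (key n'' h2 le_rfl)
  have h4 : (b n'' : ℝ) * 16 ≤ 2 ^ n'' * (2 ^ n₀)⁻¹ := by
    have e1 : (b n'' : ℝ) ≤ 2 ^ (n'' - n₀ - 4) := by exact_mod_cast hb
    have e2 : (2 : ℝ) ^ n'' = 2 ^ (n'' - n₀ - 4) * 2 ^ 4 * 2 ^ n₀ := by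
      rw [← pow_add, ← pow_add]; congr 1; omega
    rw [e2, mul_assoc, mul_inv_cancel₀ (by positivity), mul_one]
    linarith
  have h5 : Real.log 2 ≤ 1 := by linarith [Real.log_two_lt_d9]
  have h6 : (b n'' : ℝ) * Real.log 2 ≤ b n'' := mul_le_of_le_one_right (Nat.cast_nonneg _) h5
  have h8 : (0 : ℝ) ≤ 2 ^ n'' * (2 ^ l / Real.log C / 2 ^ lam * psi J.a l n'' + 4 * (3 / 4) ^ n'') :=
    mul_nonneg (by positivity) (add_nonneg (mul_nonneg hK (hψ n'').1) (by positivity))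
  have h9 : (0 : ℝ) < 2 ^ n'' * (2 ^ n₀)⁻¹ := by positivity
  nlinarith

end Vale.Agent.P109
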