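import Vale.Agent.P109.AdicBasic

/-! P109: ergodicity of adic systems with infinitely many free levels. -/

namespace Vale.Agent.P109

open MeasureTheory Set Metric Filter Topology
open scoped ENNReal Pointwise

namespace Ergodic

variable {b D : ℕ → ℕ} {F : Fam b D} {X : Type} [MeasurableSpace X] {μ : Measure X} {T : X → X}
  (Ad : Adic F μ T)

theorem lift {n m : ℕ} (h : n ≤ m) (B : Set (ℕ × Fin (2 ^ b n))) :
    ∃ B' : Set (ℕ × Fin (2 ^ b m)),
      {x | (Ad.pos n x, Ad.w n x) ∈ B} = {x | (Ad.pos m x, Ad.w m x) ∈ B'} := by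
  induction m, h using Nat.le_induction with
  | base => exact ⟨B, rfl⟩
  | succ m _ ih =>
    obtain ⟨B', hB⟩ := ih
    refine ⟨{z | (z.1 % 2 ^ m, if z.1 < 2 ^ m then F.lft m z.2 else F.rgt m z.2) ∈ B'}, ?_⟩
    rw [hB]
    ext x
    simp only [mem_ofPred_eq, Ad.pos_succ, ← Ad.w_succ]

theorem int_w (n : ℕ) (h : Fin (2 ^ b n) → ℝ) :
    ∫ x, h (Ad.w n x) ∂(Ad.P n) = (2 ^ b n)⁻¹ * ∑ y, h y := by
  have := Ad.P_prob n
  rw [← integral_map (Ad.meas_w n).aemeasurable (measurable_of_countable h).aestronglyMeasurable,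
    integral_fintype .of_finite, Finset.mul_sum]
  refine Finset.sum_congr rfl fun y _ => ?_
  rw [map_measureReal_apply (Ad.meas_w n) (.singleton y), measureReal_def]
  exact congrArg₂ _ ((congrArg ENNReal.toReal (Ad.P_w n y)).trans (by simp)) rfl

theorem main [IsProbabilityMeasure μ] (hT : MeasurePreserving T μ μ) {n : ℕ} (hD : D n = 0)
    {f : X → ℝ} (hf : Measurable f) (f01 : ∀ x, f x = 0 ∨ f x = 1) (fT : ∀ x, f (T x) = f x)
    (β : ℕ × Fin (2 ^ b n) → ℝ) (β0 : ∀ z, 0 ≤ β z) (β1 : ∀ z, β z ≤ 1) :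
    (∫ x, f x ∂μ) * (1 - ∫ x, f x ∂μ) ≤ 3 * ∫ x, |f x - β (Ad.pos n x, Ad.w n x)| ∂μ := by
  have i0 := Ad.P_prob n
  have i1 := Ad.P_prob (n + 1)
  have fk : ∀ k x, f (T^[k] x) = f x := fun k => by
    induction k with
    | zero => exact fun _ => rfl
    | succ k ih => exact fun x => by rw [Function.iterate_succ_apply', fT, ih]
  have f0 : ∀ x, 0 ≤ f x ∧ f x ≤ 1 := fun x => by rcases f01 x with h | h <;> simp [h]
  have int : ∀ (ν : Measure X) [IsFiniteMeasure ν] (g : X → ℝ), Measurable g → (∀ x, |g x| ≤ 1) →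
      Integrable g ν := fun ν _ g h1 h2 => .of_bound h1.aestronglyMeasurable 1 (.of_forall h2)
  set N : ℝ := 2 ^ n with hN
  have N0 : 0 < N := by positivity
  obtain ⟨φ, hφ⟩ : ∃ φ : Fin (2 ^ b n) → ℝ,
      ∀ y, φ y = N⁻¹ * ∑ i ∈ Finset.range (2 ^ n), β (i, y) := ⟨_, fun _ => rfl⟩
  have φ0 : ∀ y, 0 ≤ φ y ∧ φ y ≤ 1 := fun y => by
    rw [hφ]
    refine ⟨mul_nonneg (by positivity) (Finset.sum_nonneg fun _ _ => β0 _), ?_⟩
    rw [inv_mul_le_one₀ N0]
    simpa [hN] using Finset.sum_le_card_nsmul (Finset.range (2 ^ n)) (fun i => β (i, y)) 1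
      fun _ _ => β1 _
  have mw : ∀ m (g : Fin (2 ^ b m) → ℝ), Measurable fun x => g (Ad.w m x) := fun m g =>
    (measurable_of_countable g).comp (Ad.meas_w m)
  have ab : ∀ s t : ℝ, 0 ≤ s ∧ s ≤ 1 → 0 ≤ t ∧ t ≤ 1 → |s - t| ≤ 1 := fun s t h1 h2 =>
    abs_le.2 ⟨by linarith, by linarith⟩
  have m1 : Measurable fun x => |f x - β (Ad.pos n x, Ad.w n x)| :=
    (hf.sub ((measurable_of_countable β).comp ((Ad.meas_pos n).prodMk (Ad.meas_w n)))).abs
  have b1 : ∀ x, |(|f x - β (Ad.pos n x, Ad.w n x)|)| ≤ 1 := fun x => by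
    rw [abs_abs]
    exact ab _ _ (f0 x) ⟨β0 _, β1 _⟩
  have m2 : Measurable fun x => |f x - φ (Ad.w n x)| := (hf.sub (mw n φ)).abs
  have b2 : ∀ x, |(|f x - φ (Ad.w n x)|)| ≤ 1 := fun x => by
    rw [abs_abs]
    exact ab _ _ (f0 x) (φ0 _)
  have s1 : ∫ x, |f x - φ (Ad.w n x)| ∂(Ad.P n) ≤ ∫ x, |f x - β (Ad.pos n x, Ad.w n x)| ∂μ := by
    have t := Ad.tower_real hT (Nat.zero_le n) m1 b1
    have it := fun i : ℕ => int (Ad.P n) _ (m1.comp (hT.measurable.iterate i)) fun x => b1 _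
    simp only [Function.comp_def] at it
    simp only [Nat.sub_zero, pow_zero, mul_one, Ad.P_zero] at t
    rw [← integral_finsetSum _ fun i _ => it i, ← hN, ← inv_mul_eq_iff_eq_mul₀ N0.ne',
      ← integral_const_mul] at t
    rw [← t]
    refine integral_mono_ae (int _ _ m2 b2) ((integrable_finsetSum _ fun i _ => it i).const_mul _)
      ((Ad.ae_pos n).mono fun x hx => ?_)
    have e : f x - φ (Ad.w n x) = N⁻¹ * ∑ i ∈ Finset.range (2 ^ n), (f x - β (i, Ad.w n x)) := by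
      rw [hφ, Finset.sum_sub_distrib, mul_sub]
      simp [← hN, N0.ne']
    simp only [e, abs_mul, abs_of_pos (inv_pos.2 N0)]
    refine mul_le_mul_of_nonneg_left ((Finset.abs_sum_le_sum_abs _ _).trans_eq
      (Finset.sum_congr rfl fun i hi => ?_)) (by positivity)
    rw [Finset.mem_range] at hi
    rw [fk, Ad.pos_iterate, Ad.w_iterate (by omega), hx, zero_add,
      Nat.mod_eq_of_lt hi]
  have f1 : ∀ x, |f x| ≤ 1 := fun x => by simpa using ab _ 0 (f0 x) (by simp)
  have s2 : ∫ x, f x ∂(Ad.P n) = ∫ x, f x ∂μ := by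
    have t := Ad.tower_real hT (Nat.zero_le n) hf f1
    simpa [fk, Ad.P_zero] using t
  set c : ℝ := (2 ^ b n)⁻¹ * ∑ y, φ y with hc
  have s3 : |∫ x, f x ∂μ - c| ≤ ∫ x, |f x - φ (Ad.w n x)| ∂(Ad.P n) := by
    rw [← s2, hc, ← int_w Ad, ← integral_sub (int _ _ hf f1)
      (int _ _ (mw n φ) fun x => by simpa using ab _ 0 (φ0 _) (by simp))]
    exact abs_integral_le_integral_abs
  have s4 : c * (1 - c) ≤ 2 * ∫ x, |f x - φ (Ad.w n x)| ∂(Ad.P n) := by
    have t := Ad.tower_real hT (Nat.le_succ n) m2 b2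
    have it := fun i : ℕ => int (Ad.P (n + 1)) _ (m2.comp (hT.measurable.iterate i)) fun x => b2 _
    simp only [Function.comp_def] at it
    simp only [Nat.succ_eq_add_one, Nat.add_sub_cancel_left, pow_one, Finset.sum_range_succ,
      Finset.sum_range_zero, zero_add, zero_mul, one_mul] at t
    rw [← t, ← integral_add (it 0) (it _)]
    have e : c * (1 - c) =
        ∫ x, φ (F.lft n (Ad.w (n + 1) x)) * (1 - φ (F.rgt n (Ad.w (n + 1) x))) ∂(Ad.P (n + 1)) := by
      have h2 : b (n + 1) = b n + b n := by have := F.step n; omega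
      rw [int_w Ad (n + 1) fun y => φ (F.lft n y) * (1 - φ (F.rgt n y)),
        F.sum_free hD fun u v => φ u * (1 - φ v), ← Finset.sum_mul_sum, Finset.sum_sub_distrib, hc,
        show (2 : ℝ) ^ b (n + 1) = 2 ^ b n * 2 ^ b n by rw [h2, pow_add]]
      simp only [Finset.sum_const, Finset.card_univ, Fintype.card_fin, nsmul_eq_mul, mul_one]
      push_cast
      field_simp
    rw [e]
    refine integral_mono_ae (int _ _ (mw (n + 1) fun y => φ (F.lft n y) * (1 - φ (F.rgt n y)))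
      fun x => ?_) ((it 0).add (it _)) ((Ad.ae_pos (n + 1)).mono fun x hx => ?_)
    · have := φ0 (F.lft n (Ad.w (n + 1) x))
      have := φ0 (F.rgt n (Ad.w (n + 1) x))
      rw [abs_of_nonneg (by nlinarith)]
      nlinarith
    · simp only [fk, Function.iterate_zero, id, Ad.w_eq_rgt hx, Ad.w_eq_lft hx]
      have h1 := φ0 (F.lft n (Ad.w (n + 1) x))
      have h2 := φ0 (F.rgt n (Ad.w (n + 1) x))
      generalize φ (F.lft n (Ad.w (n + 1) x)) = s at *
      generalize φ (F.rgt n (Ad.w (n + 1) x)) = t at *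
      rcases f01 x with h | h <;> rw [h]
      · nlinarith [neg_le_abs (0 - s), abs_nonneg (0 - t)]
      · nlinarith [le_abs_self (1 - t), abs_nonneg (1 - s)]
  have a0 : 0 ≤ ∫ x, f x ∂μ := integral_nonneg fun x => (f0 x).1
  have a1 : ∫ x, f x ∂μ ≤ 1 := by
    simpa using integral_mono (int μ f hf f1) (integrable_const 1) fun x => (f0 x).2
  have c0 : 0 ≤ c := mul_nonneg (by positivity) (Finset.sum_nonneg fun y _ => (φ0 y).1)
  have c1 : c ≤ 1 := by
    rw [hc, inv_mul_le_one₀ (by positivity)]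
    simpa using Finset.sum_le_card_nsmul Finset.univ φ 1 fun y _ => (φ0 y).2
  rcases abs_cases (∫ x, f x ∂μ - c) with h | h <;> nlinarith [h.1, h.2]

end Ergodic

theorem Adic.ergodic {b D : ℕ → ℕ} {F : Fam b D} {X : Type} [MeasurableSpace X] {μ : Measure X}
    [IsProbabilityMeasure μ] {T : X → X} (Ad : Adic F μ T) (hT : MeasurePreserving T μ μ)
    (hG : Ad.Gen) (hD : ∀ N, ∃ n, N ≤ n ∧ D n = 0) : Ergodic T μ := by
  refine ⟨hT, ⟨fun A hA hi => ?_⟩⟩
  have key : μ.real A * (1 - μ.real A) ≤ 0 := by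
    refine le_of_forall_pos_le_add fun ε hε => ?_
    obtain ⟨n, B, hB⟩ := hG A hA (.ofReal (ε / 3)) (by simpa using hε)
    obtain ⟨m, hm, hm0⟩ := hD n
    obtain ⟨B', hB'⟩ := Ergodic.lift Ad hm B
    rw [hB'] at hB
    have mB : MeasurableSet {x | (Ad.pos m x, Ad.w m x) ∈ B'} :=
      ((Ad.meas_pos m).prodMk (Ad.meas_w m)) B'.to_countable.measurableSet
    have := Ergodic.main Ad hT hm0 (f := A.indicator 1) (measurable_one.indicator hA)
      (fun x => by by_cases h : x ∈ A <;> simp [h])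
      (fun x => by rw [← indicator_comp_right, hi]; rfl) (B'.indicator 1)
      (fun z => by by_cases h : z ∈ B' <;> simp [h]) fun z => by by_cases h : z ∈ B' <;> simp [h]
    have e : (fun x => |A.indicator (1 : X → ℝ) x - B'.indicator 1 (Ad.pos m x, Ad.w m x)|) =
        (symmDiff A {x | (Ad.pos m x, Ad.w m x) ∈ B'}).indicator 1 := funext fun x => by
      by_cases h : x ∈ A <;> by_cases h' : (Ad.pos m x, Ad.w m x) ∈ B' <;>
        simp [h, h', mem_symmDiff, indicator]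
    rw [e, integral_indicator_one hA, integral_indicator_one (hA.symmDiff mB)] at this
    have h3 := ENNReal.toReal_le_of_le_ofReal (by positivity) hB.le
    rw [← measureReal_def] at h3
    linarith
  rw [eventuallyConst_set]
  have h0 : 0 ≤ μ.real A := measureReal_nonneg
  have h1 : μ.real A ≤ 1 := measureReal_le_one
  rcases mul_eq_zero.1 (key.antisymm (by nlinarith)) with h | h
  · exact .inr ((measureReal_eq_zero_iff (measure_ne_top _ _)).1 h |> measure_eq_zero_iff_ae_notMem.1)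
  · rw [← probReal_compl_eq_one_sub hA, measureReal_eq_zero_iff (measure_ne_top _ _)] at h
    exact .inl h

end Vale.Agent.P109
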