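import Vale.Agent.P109.Defs

/-! P109: the gain of a predictor on a pseudorandom graph. -/

namespace Vale.Agent.P109

open MeasureTheory Set Metric Filter Topology
open scoped ENNReal Pointwise

namespace Gain

open Classical in
theorem card_heavy {W : Type} [Fintype W] (f : W → ℝ≥0∞) {A ϑ : ℝ≥0∞} (h : ∑ u, f u ≤ A) :
    ((Finset.univ.filter fun u => ¬ f u ≤ ϑ * A).card : ℝ≥0∞) ≤ ϑ⁻¹ := by
  set T := Finset.univ.filter fun u => ¬ f u ≤ ϑ * A with hT
  rcases T.eq_empty_or_nonempty with h0 | ⟨u, hu⟩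
  · simp [h0]
  have hlt : ∀ u ∈ T, ϑ * A < f u := fun u hu => not_le.1 (Finset.mem_filter.1 hu).2
  have hle : f u ≤ A := (Finset.single_le_sum (fun _ _ => zero_le) (Finset.mem_univ u)).trans h
  have hA0 : A ≠ 0 := fun h0 => by
    have := (hlt u hu).trans_le hle
    simp [h0] at this
  by_cases hϑ : ϑ = 0
  · simp [hϑ]
  have hA : A ≠ ⊤ := fun h0 => by
    have := hlt u hu
    simp [h0, ENNReal.mul_top hϑ] at this
  have h1 : (T.card : ℝ≥0∞) * (ϑ * A) ≤ A := by
    rw [← nsmul_eq_mul]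
    exact (Finset.card_nsmul_le_sum T f _ fun u hu => (hlt u hu).le).trans
      ((Finset.sum_le_sum_of_subset (Finset.subset_univ T)).trans h)
  rw [ENNReal.le_inv_iff_mul_le, ← ENNReal.mul_le_mul_iff_left hA0 hA, one_mul, mul_assoc]
  exact h1

theorem prob_heavy {Ω Q W : Type} [MeasurableSpace Ω] [Fintype W] (P : Measure Ω) (S : Finset Q)
    (s : Ω → Q) (w : Ω → W) {p ϑ : ℝ≥0∞} (hp : ∀ u, P {ω | w ω = u} ≤ p)
    (f : Q → W → ℝ≥0∞) (A : Q → ℝ≥0∞) (h : ∀ r, ∑ u, f r u ≤ A r) :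
    P {ω | s ω ∈ S ∧ ¬ f (s ω) (w ω) ≤ ϑ * A (s ω)} ≤ S.card * (ϑ⁻¹ * p) := by
  classical
  have h1 : {ω | s ω ∈ S ∧ ¬ f (s ω) (w ω) ≤ ϑ * A (s ω)} ⊆
      ⋃ r ∈ S, ⋃ u ∈ Finset.univ.filter fun u => ¬ f r u ≤ ϑ * A r, {ω | w ω = u} := by
    rintro ω ⟨h1, h2⟩
    simp only [mem_iUnion]
    exact ⟨s ω, h1, w ω, Finset.mem_filter.2 ⟨Finset.mem_univ _, h2⟩, rfl⟩
  refine (measure_mono h1).trans ((measure_biUnion_finset_le _ _).trans ?_)
  rw [← nsmul_eq_mul]
  refine Finset.sum_le_card_nsmul _ _ _ fun r _ => (measure_biUnion_finset_le _ _).trans ?_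
  refine (Finset.sum_le_card_nsmul _ _ _ fun u _ => hp u).trans ?_
  rw [nsmul_eq_mul]
  exact mul_le_mul_left (card_heavy (f r) (h r)) p

theorem sum_edges_le {W W' : Type} [Fintype W] [Fintype W'] {lft rgt : W' → W}
    (hinj : Function.Injective fun y => (lft y, rgt y)) {f g : W → ℝ} (hf : ∀ u, 0 ≤ f u)
    (hg : ∀ u, 0 ≤ g u) (hf1 : ∑ u, f u ≤ 1) (hg1 : ∑ u, g u ≤ 1) :
    ∑ y, f (lft y) * g (rgt y) ≤ 1 := by
  classical
  have h1 : ∑ y, f (lft y) * g (rgt y) ≤ ∑ z : W × W, f z.1 * g z.2 := by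
    rw [← Finset.sum_image (s := Finset.univ) (g := fun y => (lft y, rgt y))
      (f := fun z : W × W => f z.1 * g z.2) (fun a _ b _ hab => hinj hab)]
    exact Finset.sum_le_sum_of_subset_of_nonneg (Finset.subset_univ _)
      fun z _ _ => mul_nonneg (hf _) (hg _)
  refine h1.trans ?_
  rw [Fintype.sum_prod_type, ← Finset.sum_mul_sum]
  exact mul_le_one₀ hf1 (Finset.sum_nonneg fun u _ => hg u) hg1

theorem pointwise {x z Z κ k' : ℝ} {D : ℕ} (hx : 0 < x) (hz : 0 < z) (hκ : 1 ≤ κ) (hZ : 0 < Z)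
    (hk : k' = x * z / 2 * (1 + 1 / Z)) :
    -Real.log k' + D * Real.log 2 ≤
      Real.log (4 * κ) + -Real.log x + -Real.log z + Z / (2 * κ / 2 ^ D) := by
  have h1 : x * z / 2 / Z ≤ k' := by
    rw [hk, mul_add, mul_one_div]
    have : 0 < x * z / 2 * 1 := by positivity
    linarith
  have h2 := Real.log_le_log (by positivity) h1
  rw [Real.log_div (by positivity) hZ.ne', Real.log_div (by positivity) (by norm_num),
    Real.log_mul hx.ne' hz.ne'] at h2
  have h3 := Real.log_le_self (x := Z / (2 * κ / 2 ^ D)) (by positivity)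
  rw [Real.log_div hZ.ne' (by positivity), Real.log_div (by positivity) (by positivity),
    Real.log_pow] at h3
  have h4 : Real.log (4 * κ) = Real.log 2 + Real.log (2 * κ) := by
    rw [← Real.log_mul (by norm_num) (by positivity)]; congr 1; ring
  linarith

theorem pointwise' {x z κ k' : ℝ} (hx : 0 < x) (hz : 0 < z) (hκ : 1 ≤ κ) (hk : x * z / 2 ≤ k') :
    -Real.log k' ≤ Real.log (4 * κ) + -Real.log x + -Real.log z := by
  have h2 := Real.log_le_log (by positivity) hk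
  rw [Real.log_div (by positivity) (by norm_num), Real.log_mul hx.ne' hz.ne'] at h2
  have h4 : Real.log 2 ≤ Real.log (4 * κ) := Real.log_le_log (by norm_num) (by linarith)
  linarith

open Classical in
theorem mass_le {N Q W W' : Type} [Fintype W] [Fintype W'] (lft rgt : W' → W) {ϑ t : ℝ≥0∞}
    (hpr : PR lft rgt ϑ t) (S : Finset Q) (q : N → Q) (α : N → ℝ≥0∞) (β : Q → N → ℝ≥0∞)
    (kk : N → W → ℝ≥0∞) (αs βs : Q → W → ℝ≥0∞) (As Bs : Q → ℝ≥0∞)
    (hαs : ∀ s u, αs s u = ∑' a, if q a = s then α a * kk a u else 0)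
    (hAs : ∀ s, As s = ∑' a, if q a = s then α a else 0)
    (hβs : ∀ s u, βs s u = ∑' b, β s b * kk b u) (hBs : ∀ s, Bs s = ∑' b, β s b)
    (hα : ∀ s, ∑ u, αs s u ≤ As s) (hβ : ∀ s, ∑ u, βs s u ≤ Bs s) :
    ∑' a, ∑' b, (if q a ∈ S then α a * β (q a) b *
      ∑ y, (if αs (q a) (lft y) ≤ ϑ * As (q a) ∧ βs (q a) (rgt y) ≤ ϑ * Bs (q a) then
        kk a (lft y) * kk b (rgt y) else 0) else 0) ≤ t * ∑' a, ∑' b, α a * β (q a) b := by
  have h1 : ∀ a, ∑' b, (if q a ∈ S then α a * β (q a) b *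
      ∑ y, (if αs (q a) (lft y) ≤ ϑ * As (q a) ∧ βs (q a) (rgt y) ≤ ϑ * Bs (q a) then
        kk a (lft y) * kk b (rgt y) else 0) else 0) =
      ∑ s ∈ S, ∑ y, (if αs s (lft y) ≤ ϑ * As s then
        (if q a = s then α a * kk a (lft y) else 0) else 0) *
        (if βs s (rgt y) ≤ ϑ * Bs s then βs s (rgt y) else 0) := by
    intro a
    by_cases ha : q a ∈ S
    · rw [Finset.sum_eq_single (q a) (fun s _ hs => by simp [hs.symm]) fun h => absurd ha h]
      simp only [ha, if_true, Finset.mul_sum]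
      rw [Summable.tsum_finsetSum fun _ _ => ENNReal.summable]
      refine Finset.sum_congr rfl fun y _ => ?_
      by_cases h0 : αs (q a) (lft y) ≤ ϑ * As (q a)
      · by_cases h1 : βs (q a) (rgt y) ≤ ϑ * Bs (q a)
        · simp only [h0, h1, and_self, if_true]
          rw [hβs, ← ENNReal.tsum_mul_left]
          exact tsum_congr fun b => by ring
        · simp [h1]
      · simp [h0]
    · simp only [ha, if_false, tsum_zero]
      refine (Finset.sum_eq_zero fun s hs => ?_).symm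
      have : q a ≠ s := fun h => ha (h ▸ hs)
      simp [this]
  have h2 : ∀ s, ∑' a, ∑ y, (if αs s (lft y) ≤ ϑ * As s then
        (if q a = s then α a * kk a (lft y) else 0) else 0) *
        (if βs s (rgt y) ≤ ϑ * Bs s then βs s (rgt y) else 0) ≤ t * (As s * Bs s) := by
    intro s
    rw [Summable.tsum_finsetSum fun _ _ => ENNReal.summable]
    refine le_trans (le_of_eq (Finset.sum_congr rfl fun y _ => ?_))
      (hpr (fun u => if αs s u ≤ ϑ * As s then αs s u else 0)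
        (fun u => if βs s u ≤ ϑ * Bs s then βs s u else 0) (As s) (Bs s)
        ((Finset.sum_le_sum fun u _ => by split_ifs <;> simp).trans (hα s))
        ((Finset.sum_le_sum fun u _ => by split_ifs <;> simp).trans (hβ s))
        (fun u => by split_ifs with h; exacts [h, zero_le])
        (fun u => by split_ifs with h; exacts [h, zero_le]))
    rw [ENNReal.tsum_mul_right]
    congr 1
    split_ifs with h
    · rw [hαs]
    · simp
  simp only [h1]
  rw [Summable.tsum_finsetSum fun _ _ => ENNReal.summable]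
  refine (Finset.sum_le_sum fun s _ => h2 s).trans ?_
  rw [← Finset.mul_sum]
  refine mul_le_mul_right ?_ t
  simp only [hAs, ← ENNReal.tsum_mul_right]
  rw [← Summable.tsum_finsetSum fun _ _ => ENNReal.summable]
  refine ENNReal.tsum_le_tsum fun a => ?_
  rw [ENNReal.tsum_mul_left, ← hBs]
  by_cases ha : q a ∈ S
  · rw [Finset.sum_eq_single (q a) (fun s _ hs => by simp [hs.symm]) fun h => absurd ha h]
    simp
  · refine le_trans (le_of_eq (Finset.sum_eq_zero fun s hs => ?_)) zero_le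
    have : q a ≠ s := fun h => ha (h ▸ hs)
    simp [this]

end Gain

theorem gain {Ω N Q W W' : Type} [MeasurableSpace Ω] [Countable N] [MeasurableSpace N]
    [MeasurableSingletonClass N] [Fintype W] [Fintype W'] [MeasurableSpace W']
    [MeasurableSingletonClass W'] (P : Measure Ω) [IsProbabilityMeasure P]
    (a0 a1 : Ω → N) (y : Ω → W') (h0 : Measurable a0) (h1 : Measurable a1) (hy : Measurable y)
    (lft rgt : W' → W) (hinj : Function.Injective fun y => (lft y, rgt y))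
    (ϑ : ℝ≥0∞) (D : ℕ) (hpr : PR lft rgt ϑ (2 * (2 ^ D)⁻¹))
    (p : ℝ≥0∞) (hl : ∀ u, P {ω | lft (y ω) = u} ≤ p) (hr : ∀ u, P {ω | rgt (y ω) = u} ≤ p)
    (Nice : Set Ω) (S : Finset Q) (q : N → Q) (α : N → ℝ≥0∞) (β : Q → N → ℝ≥0∞)
    {κ : ℝ} (hκ : 1 ≤ κ) (hsum : ∑' a, ∑' b, α a * β (q a) b ≤ ENNReal.ofReal κ)
    (hN : ∀ ω ∈ Nice, q (a0 ω) ∈ S ∧
      P {ω' | a0 ω' = a0 ω ∧ a1 ω' = a1 ω} ≤ α (a0 ω) * β (q (a0 ω)) (a1 ω))
    (k : N → W → ℝ) (hk : Ker k) :
    ∃ k' : N × N → W' → ℝ, Ker k' ∧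
      Loss P k' (fun ω => (a0 ω, a1 ω)) y + ENNReal.ofReal (D * Real.log 2) ≤
        Loss P k a0 (fun ω => lft (y ω)) + Loss P k a1 (fun ω => rgt (y ω)) +
          (P Niceᶜ + 2 * (S.card * (ϑ⁻¹ * p))) * ENNReal.ofReal (D * Real.log 2) +
          ENNReal.ofReal (Real.log (4 * κ) + 1) := by
  classical
  obtain ⟨hk0, hk1⟩ := hk
  set kk : N → W → ℝ≥0∞ := fun a u => ENNReal.ofReal (k a u) with hkk
  have hkk1 : ∀ a, ∑ u, kk a u ≤ 1 := fun a => by
    rw [← ENNReal.ofReal_sum_of_nonneg fun u _ => (hk0 a u).le]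
    exact ENNReal.ofReal_le_one.2 (hk1 a)
  set αs : Q → W → ℝ≥0∞ := fun s u => ∑' a, if q a = s then α a * kk a u else 0 with hαs
  set As : Q → ℝ≥0∞ := fun s => ∑' a, if q a = s then α a else 0 with hAs
  set βs : Q → W → ℝ≥0∞ := fun s u => ∑' b, β s b * kk b u with hβs
  set Bs : Q → ℝ≥0∞ := fun s => ∑' b, β s b with hBs
  have hα : ∀ s, ∑ u, αs s u ≤ As s := by
    intro s
    simp only [hαs, hAs]
    rw [← Summable.tsum_finsetSum fun _ _ => ENNReal.summable]
    refine ENNReal.tsum_le_tsum fun a => ?_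
    split_ifs
    · rw [← Finset.mul_sum]
      simpa using mul_le_mul_right (hkk1 a) (α a)
    · simp
  have hβ : ∀ s, ∑ u, βs s u ≤ Bs s := by
    intro s
    simp only [hβs, hBs]
    rw [← Summable.tsum_finsetSum fun _ _ => ENNReal.summable]
    refine ENNReal.tsum_le_tsum fun b => ?_
    rw [← Finset.mul_sum]
    simpa using mul_le_mul_right (hkk1 b) (β s b)
  set Li : N → W' → Prop := fun a w =>
    αs (q a) (lft w) ≤ ϑ * As (q a) ∧ βs (q a) (rgt w) ≤ ϑ * Bs (q a) with hLi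
  set Z : N × N → ℝ := fun c => ∑ w, if Li c.1 w then k c.1 (lft w) * k c.2 (rgt w) else 0 with hZ
  have hterm : ∀ (c : N × N) w, 0 ≤ if Li c.1 w then k c.1 (lft w) * k c.2 (rgt w) else 0 := by
    intro c w
    split_ifs
    · exact (mul_pos (hk0 _ _) (hk0 _ _)).le
    · exact le_rfl
  have hZ0 : ∀ c, 0 ≤ Z c := fun c => Finset.sum_nonneg fun w _ => hterm c w
  have hZpos : ∀ (c : N × N) w, Li c.1 w → 0 < Z c := by
    intro c w hw
    refine lt_of_lt_of_le ?_ (Finset.single_le_sum (fun w _ => hterm c w) (Finset.mem_univ w))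
    rw [if_pos hw]
    exact mul_pos (hk0 _ _) (hk0 _ _)
  set k' : N × N → W' → ℝ := fun c w =>
    k c.1 (lft w) * k c.2 (rgt w) / 2 * (1 + (if Li c.1 w then 1 else 0) / Z c) with hk'
  have hk'ge : ∀ c w, k c.1 (lft w) * k c.2 (rgt w) / 2 ≤ k' c w := by
    intro c w
    have h2 := mul_pos (hk0 c.1 (lft w)) (hk0 c.2 (rgt w))
    refine le_mul_of_one_le_right (by positivity) (le_add_of_nonneg_right (div_nonneg ?_ (hZ0 c)))
    split_ifs <;> norm_num
  have hk'0 : ∀ c w, 0 < k' c w := fun c w =>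
    lt_of_lt_of_le (half_pos (mul_pos (hk0 _ _) (hk0 _ _))) (hk'ge c w)
  have hk'1 : ∀ c, ∑ w, k' c w ≤ 1 := by
    intro c
    have e : ∑ w, k' c w = (∑ w, k c.1 (lft w) * k c.2 (rgt w)) / 2 + Z c / Z c / 2 := by
      nth_rewrite 1 [hZ]
      simp only [Finset.sum_div, ← Finset.sum_add_distrib, hk']
      refine Finset.sum_congr rfl fun w _ => ?_
      split_ifs <;> ring
    have h2 := Gain.sum_edges_le hinj (fun u => (hk0 c.1 u).le) (fun u => (hk0 c.2 u).le)
      (hk1 c.1) (hk1 c.2)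
    have h3 : Z c / Z c ≤ 1 := div_self_le_one _
    rw [e]
    linarith
  refine ⟨k', ⟨hk'0, hk'1⟩, ?_⟩
  set G : Set (N × N) := {c | q c.1 ∈ S ∧
    P {ω' | a0 ω' = c.1 ∧ a1 ω' = c.2} ≤ α c.1 * β (q c.1) c.2} with hG
  set Ev : Set Ω := {ω | (a0 ω, a1 ω) ∈ G ∧ Li (a0 ω) (y ω)} with hEv
  have h01 : Measurable fun ω => (a0 ω, a1 ω) := h0.prodMk h1
  have hEvm : MeasurableSet Ev :=
    (h01.prodMk hy) (MeasurableSet.of_discrete (s := {c : (N × N) × W' | c.1 ∈ G ∧ Li c.1.1 c.2}))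
  set c0 : ℝ≥0∞ := ENNReal.ofReal (D * Real.log 2) with hc0
  set t' : ℝ := 2 * κ / 2 ^ D with ht'
  have ht'0 : 0 < t' := by positivity
  set g : N × N → ℝ≥0∞ := G.indicator fun c => ENNReal.ofReal (Z c / t') with hg
  have hpt : ∀ ω, ENNReal.ofReal (-Real.log (k' (a0 ω, a1 ω) (y ω))) + Ev.indicator (fun _ => c0) ω ≤
      ENNReal.ofReal (Real.log (4 * κ)) + ENNReal.ofReal (-Real.log (k (a0 ω) (lft (y ω)))) +
        ENNReal.ofReal (-Real.log (k (a1 ω) (rgt (y ω)))) + g (a0 ω, a1 ω) := by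
    intro ω
    by_cases hω : ω ∈ Ev
    · have hle : k' (a0 ω, a1 ω) (y ω) ≤ 1 :=
        (Finset.single_le_sum (fun w _ => (hk'0 _ w).le) (Finset.mem_univ _)).trans (hk'1 _)
      have hlog : 0 ≤ -Real.log (k' (a0 ω, a1 ω) (y ω)) :=
        neg_nonneg.2 (Real.log_nonpos (hk'0 _ _).le hle)
      have hD : 0 ≤ D * Real.log 2 := mul_nonneg (Nat.cast_nonneg D) (Real.log_nonneg one_le_two)
      rw [indicator_of_mem hω, hg, indicator_of_mem hω.1, hc0, ← ENNReal.ofReal_add hlog hD]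
      refine (ENNReal.ofReal_le_ofReal (Gain.pointwise (hk0 (a0 ω) (lft (y ω)))
        (hk0 (a1 ω) (rgt (y ω))) hκ (hZpos (a0 ω, a1 ω) _ hω.2) ?_)).trans ?_
      · simp only [hk', if_pos hω.2]
      · exact ENNReal.ofReal_add_le.trans (add_le_add_left (ENNReal.ofReal_add_le.trans
          (add_le_add_left ENNReal.ofReal_add_le _)) _)
    · rw [indicator_of_notMem hω, add_zero]
      refine (ENNReal.ofReal_le_ofReal (Gain.pointwise' (hk0 (a0 ω) (lft (y ω)))
        (hk0 (a1 ω) (rgt (y ω))) hκ (hk'ge (a0 ω, a1 ω) (y ω)))).trans (le_trans ?_ le_self_add)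
      exact ENNReal.ofReal_add_le.trans (add_le_add_left ENNReal.ofReal_add_le _)
  have hint : ∫⁻ ω, g (a0 ω, a1 ω) ∂P ≤ 1 := by
    rw [← lintegral_map (Measurable.of_discrete) h01, lintegral_countable', ENNReal.tsum_prod']
    have h2 := Gain.mass_le lft rgt hpr S q α β kk αs βs As Bs (fun _ _ => rfl) (fun _ => rfl)
      (fun _ _ => rfl) (fun _ => rfl) hα hβ
    have h3 : ∀ a b, g (a, b) * (P.map fun ω => (a0 ω, a1 ω)) {(a, b)} ≤
        (ENNReal.ofReal t')⁻¹ * (if q a ∈ S then α a * β (q a) b *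
          ∑ w, (if Li a w then kk a (lft w) * kk b (rgt w) else 0) else 0) := by
      intro a b
      by_cases hc : (a, b) ∈ G
      · rw [hg, indicator_of_mem hc, if_pos hc.1, Measure.map_apply h01 (measurableSet_singleton _),
          ENNReal.ofReal_div_of_pos ht'0, ENNReal.div_eq_inv_mul, mul_assoc, mul_comm (α a * _)]
        refine mul_le_mul_right (mul_le_mul' (le_of_eq ?_) ?_) _
        · rw [hZ, ENNReal.ofReal_sum_of_nonneg fun w _ => hterm (a, b) w]
          refine Finset.sum_congr rfl fun w _ => ?_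
          split_ifs
          · exact ENNReal.ofReal_mul (hk0 _ _).le
          · simp
        · refine le_trans (le_of_eq (congrArg P ?_)) hc.2
          ext ω
          simp
      · rw [hg, indicator_of_notMem hc, zero_mul]
        exact zero_le
    refine (ENNReal.tsum_le_tsum fun a => ENNReal.tsum_le_tsum fun b => h3 a b).trans ?_
    simp only [ENNReal.tsum_mul_left]
    refine (mul_le_mul_right (h2.trans (mul_le_mul_right hsum _)) _).trans ?_
    have e : (2 * (2 ^ D)⁻¹ : ℝ≥0∞) * ENNReal.ofReal κ = ENNReal.ofReal t' := by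
      rw [ht', ENNReal.ofReal_div_of_pos (by positivity), ENNReal.ofReal_mul zero_le_two,
        ENNReal.ofReal_pow zero_le_two, ENNReal.ofReal_ofNat, div_eq_mul_inv]
      ring
    rw [e, ENNReal.inv_mul_cancel (by simpa using ht'0) ENNReal.ofReal_ne_top]
  have hm0 : Measurable fun ω => ENNReal.ofReal (-Real.log (k (a0 ω) (lft (y ω)))) :=
    (Measurable.of_discrete (f := fun c : N × W' =>
      ENNReal.ofReal (-Real.log (k c.1 (lft c.2))))).comp (h0.prodMk hy)
  have hm1 : Measurable fun ω => ENNReal.ofReal (-Real.log (k (a1 ω) (rgt (y ω)))) :=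
    (Measurable.of_discrete (f := fun c : N × W' =>
      ENNReal.ofReal (-Real.log (k c.1 (rgt c.2))))).comp (h1.prodMk hy)
  have hmg : Measurable fun ω => g (a0 ω, a1 ω) := (Measurable.of_discrete (f := g)).comp h01
  have hmain := lintegral_mono (μ := P) hpt
  rw [lintegral_add_right _ (measurable_const.indicator hEvm), lintegral_add_right _ hmg,
    lintegral_add_right _ hm1, lintegral_add_right _ hm0, lintegral_indicator_const hEvm,
    lintegral_const, measure_univ, mul_one] at hmain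
  have hbad : P Evᶜ ≤ P Niceᶜ + 2 * (S.card * (ϑ⁻¹ * p)) := by
    have hsub : Evᶜ ⊆ Niceᶜ ∪
        ({ω | q (a0 ω) ∈ S ∧ ¬ αs (q (a0 ω)) (lft (y ω)) ≤ ϑ * As (q (a0 ω))} ∪
          {ω | q (a0 ω) ∈ S ∧ ¬ βs (q (a0 ω)) (rgt (y ω)) ≤ ϑ * Bs (q (a0 ω))}) := by
      intro ω hω
      by_cases hn : ω ∈ Nice
      · have h2 := hN ω hn
        have h3 : ¬ Li (a0 ω) (y ω) := fun h => hω ⟨h2, h⟩
        rcases not_and_or.1 h3 with h4 | h4
        · exact Or.inr (Or.inl ⟨h2.1, h4⟩)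
        · exact Or.inr (Or.inr ⟨h2.1, h4⟩)
      · exact Or.inl hn
    refine (measure_mono hsub).trans ((measure_union_le _ _).trans (add_le_add_right ?_ _))
    rw [two_mul]
    exact (measure_union_le _ _).trans (add_le_add
      (Gain.prob_heavy P S (fun ω => q (a0 ω)) _ hl αs As hα)
      (Gain.prob_heavy P S (fun ω => q (a0 ω)) _ hr βs Bs hβ))
  have hsplit : c0 = c0 * P Ev + P Evᶜ * c0 := by
    rw [mul_comm (P Evᶜ), ← mul_add, measure_add_measure_compl hEvm, measure_univ, mul_one]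
  have hlog : 0 ≤ Real.log (4 * κ) := Real.log_nonneg (by linarith)
  rw [ENNReal.ofReal_add hlog zero_le_one, ENNReal.ofReal_one]
  unfold Loss
  nth_rewrite 1 [hsplit]
  rw [← add_assoc]
  refine (add_le_add (hmain.trans (add_le_add_right hint _)) (mul_le_mul_left hbad c0)).trans
    (le_of_eq ?_)
  ring

end Vale.Agent.P109
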