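import Vale.Agent.P109.Defs

/-! P109: changing the name from which one predicts. -/

namespace Vale.Agent.P109

open MeasureTheory Set Metric Filter Topology
open scoped ENNReal Pointwise

theorem nest {Ω N N' W : Type} [MeasurableSpace Ω] [Countable N] [MeasurableSpace N]
    [MeasurableSingletonClass N] [Countable N'] [MeasurableSpace N']
    [MeasurableSingletonClass N'] [Fintype W] [MeasurableSpace W] [MeasurableSingletonClass W]
    (P : Measure Ω) [IsProbabilityMeasure P] (a : Ω → N) (a' : Ω → N') (y : Ω → W)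
    (ha : Measurable a) (ha' : Measurable a') (hy : Measurable y)
    (Opt : N' → Finset N) {M : ℕ} (hM1 : 1 ≤ M) (hM : ∀ c, (Opt c).card ≤ M)
    (G : Set Ω) (hG : ∀ ω ∈ G, a ω ∈ Opt (a' ω)) (k : N → W → ℝ) (hk : Ker k) :
    ∃ k' : N' → W → ℝ, Ker k' ∧ Loss P k' a' y ≤ Loss P k a y +
      ENNReal.ofReal (Real.log (2 * M)) +
        P Gᶜ * ENNReal.ofReal (Real.log (2 * Fintype.card W)) := by
  have M0 : (0 : ℝ) < M := by exact_mod_cast hM1
  have s0 : ∀ c w, 0 ≤ (2 * M : ℝ)⁻¹ * ∑ b ∈ Opt c, k b w := fun c w =>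
    mul_nonneg (by positivity) (Finset.sum_nonneg fun b _ => (hk.1 b w).le)
  have c0 : ∀ _ : W, (0 : ℝ) < (2 * Fintype.card W : ℝ)⁻¹ := fun w => by
    have : 0 < Fintype.card W := Fintype.card_pos_iff.2 ⟨w⟩
    positivity
  refine ⟨fun c w => (2 * M : ℝ)⁻¹ * ∑ b ∈ Opt c, k b w + (2 * Fintype.card W : ℝ)⁻¹,
    ⟨fun c w => add_pos_of_nonneg_of_pos (s0 c w) (c0 w), fun c => ?_⟩, ?_⟩
  · rw [Finset.sum_add_distrib, ← Finset.mul_sum, Finset.sum_comm]
    have h1 : ∑ b ∈ Opt c, ∑ w, k b w ≤ M := by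
      have := Finset.sum_le_card_nsmul (Opt c) (fun b => ∑ w, k b w) 1 fun b _ => hk.2 b
      rw [nsmul_one] at this
      exact this.trans (by exact_mod_cast hM c)
    have h2 : (2 * M : ℝ)⁻¹ * ∑ b ∈ Opt c, ∑ w, k b w ≤ 1 / 2 := by
      rw [inv_mul_le_iff₀ (by positivity)]
      linarith
    have h3 : ∑ _ : W, (2 * Fintype.card W : ℝ)⁻¹ ≤ 1 / 2 := by
      rw [Finset.sum_const, Finset.card_univ, nsmul_eq_mul, mul_inv, mul_left_comm]
      linarith [mul_inv_le_one (a := (Fintype.card W : ℝ))]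
    linarith
  · have mG : MeasurableSet {ω | a ω ∉ Opt (a' ω)} :=
      (ha.prodMk ha') (Set.to_countable {z : N × N' | z.1 ∉ Opt z.2}).measurableSet
    have h1 : P {ω | a ω ∉ Opt (a' ω)} ≤ P Gᶜ := measure_mono fun ω h h' => h (hG ω h')
    refine le_trans ?_ (add_le_add le_rfl (mul_le_mul_left h1 _))
    rw [Loss, Loss, mul_comm (P _), ← lintegral_indicator_const mG,
      ← mul_one (ENNReal.ofReal (Real.log (2 * M))), ← measure_univ (μ := P), ← lintegral_const,
      ← lintegral_add_right _ measurable_const,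
      ← lintegral_add_right _ (measurable_const.indicator mG)]
    refine lintegral_mono fun ω => ?_
    by_cases h : a ω ∈ Opt (a' ω)
    · refine le_add_right (le_trans (ENNReal.ofReal_le_ofReal ?_) ENNReal.ofReal_add_le)
      have h2 := Finset.single_le_sum (fun b _ => (hk.1 b (y ω)).le) h
      have h3 := Real.log_le_log (mul_pos (inv_pos.2 (by positivity)) (hk.1 _ _))
        ((mul_le_mul_of_nonneg_left h2 (show (0 : ℝ) ≤ (2 * M : ℝ)⁻¹ by positivity)).trans
          (le_add_of_nonneg_right (c0 (y ω)).le))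
      rw [Real.log_mul (by positivity) (hk.1 _ _).ne', Real.log_inv] at h3
      linarith
    · refine le_add_left ?_
      rw [indicator_of_mem (show ω ∈ {ω | a ω ∉ Opt (a' ω)} from h)]
      have h3 := Real.log_le_log (c0 (y ω)) (le_add_of_nonneg_left (s0 (a' ω) (y ω)))
      rw [Real.log_inv] at h3
      exact ENNReal.ofReal_le_ofReal (by linarith)

end Vale.Agent.P109
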