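import Vale.Agent.P109.Rect
import Vale.Agent.P109.Gain
import Vale.Agent.P109.Nest
import Vale.Agent.P109.BadProb

/-! P109: from one level to the next. -/

namespace Vale.Agent.P109

open MeasureTheory Set Metric Filter Topology
open scoped ENNReal Pointwise

namespace Level

theorem ev_lin (c : ℝ) : ∀ᶠ n : ℕ in atTop, c + n ≤ (3 / 2 : ℝ) ^ n := by
  have h1 : Tendsto (fun n : ℕ => (n : ℝ) ^ 1 / (3 / 2 : ℝ) ^ n) atTop (𝓝 0) :=
    tendsto_pow_const_div_const_pow_of_one_lt 1 (by norm_num)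
  have h2 : Tendsto (fun n : ℕ => (3 / 2 : ℝ) ^ n) atTop atTop :=
    tendsto_pow_atTop_atTop_of_one_lt (by norm_num)
  filter_upwards [h1.eventually (gt_mem_nhds (show (0 : ℝ) < 1 / 2 by norm_num)),
    h2.eventually_ge_atTop (2 * c)] with n hn hn'
  have h3 : (0 : ℝ) < (3 / 2) ^ n := by positivity
  rw [pow_one, div_lt_iff₀ h3] at hn
  linarith

theorem ev_exp (k : ℕ) : ∀ᶠ n : ℕ in atTop, n + 2 ≤ 2 ^ (n - k) := by
  filter_upwards [eventually_ge_atTop (2 * k + 4)] with n hn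
  obtain ⟨j, rfl⟩ : ∃ j, n = k + j := ⟨n - k, by omega⟩
  rw [Nat.add_sub_cancel_left]
  have h : ∀ i : ℕ, 2 * (i + 2) ≤ 2 ^ (i + 2) := by
    intro i
    induction i with
    | zero => norm_num
    | succ i ih => rw [show i + 1 + 2 = i + 2 + 1 by ring, pow_succ]; omega
  obtain ⟨i, rfl⟩ : ∃ i, j = i + 2 := ⟨j - 2, by omega⟩
  have := h i
  omega

theorem iter_Φ {d : ℕ} {C : ℝ} {b D : ℕ → ℕ} {F : Fam b D} {Ω : Type} [MeasurableSpace Ω]
    (J : Joint d C F Ω) (k : ℕ) (ω : Ω) : J.Φ (J.T^[k] ω) = J.Z.f^[k] (J.Φ ω) := by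
  induction k with
  | zero => rfl
  | succ k ih => rw [Function.iterate_succ_apply', Function.iterate_succ_apply', J.equi, ih]

theorem heavy {b n j : ℕ} {s : ℝ} (hs : s ≤ 2 ^ 2 ^ j) (hb : 2 ^ (j + 3) ≤ b) (hn : n + 2 ≤ 2 ^ j) :
    2 * (s * (2 ^ (b - b / 4) * (2 ^ b)⁻¹)) ≤ (3 / 4 : ℝ) ^ n / 2 := by
  have h1 : 2 * 2 ^ j ≤ b / 4 := by
    rw [Nat.le_div_iff_mul_le (by norm_num)]
    calc 2 * 2 ^ j * 4 = 2 ^ (j + 3) := by ring
      _ ≤ b := hb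
  have h2 : (2 : ℝ) ^ b = 2 ^ (b - b / 4) * 2 ^ (b / 4) := by
    rw [← pow_add]; congr 1; omega
  have h3 : (2 : ℝ) ^ (b - b / 4) * (2 ^ b)⁻¹ = (2 ^ (b / 4))⁻¹ := by
    rw [h2]; field_simp
  have h4 : (2 : ℝ) ^ 2 ^ j * 2 ^ (n + 2) ≤ 2 ^ (b / 4) := by
    rw [← pow_add]; exact pow_le_pow_right₀ (by norm_num) (by omega)
  have h5 : (1 / 2 : ℝ) ^ n ≤ (3 / 4) ^ n := pow_le_pow_left₀ (by norm_num) (by norm_num) n
  rw [h3]
  calc 2 * (s * (2 ^ (b / 4))⁻¹) ≤ 2 * (2 ^ 2 ^ j * (2 ^ 2 ^ j * 2 ^ (n + 2))⁻¹) := by gcongr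
    _ = (1 / 2 : ℝ) ^ n / 2 := by
      rw [one_div, inv_pow, pow_add]; field_simp
    _ ≤ _ := by linarith

end Level

open Level

set_option maxHeartbeats 800000 in
theorem level_pred (d : ℕ) {C : ℝ} (hC : 2 ≤ C) (n₀ : ℕ) : ∃ l n₁ : ℕ, l ≤ n₁ ∧
    ∀ (b D : ℕ → ℕ) (F : Fam b D) (Ω : Type) [MeasurableSpace Ω] (J : Joint d C F Ω) (n : ℕ)
      (x : ℝ), n₁ ≤ n → 2 ^ (n - n₀ - 4) ≤ b n → J.Pred l n x →
        J.Pred l (n + 1) (2 * x - D n * Real.log 2 +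
          (2 * 2 ^ l * (J.a (n - l) - J.a (n + 1)) / Real.log C + (3 / 4) ^ n) * D n +
            (3 / 2) ^ n) := by
  obtain ⟨p, hp⟩ := rect d
  obtain ⟨l', hl'⟩ : ∃ l' : ℕ, C ^ p ≤ 2 ^ 2 ^ l' := by
    obtain ⟨k, hk⟩ := ((tendsto_pow_atTop_atTop_of_one_lt (show (1 : ℝ) < 2 by norm_num)
      ).eventually_ge_atTop (C ^ p)).exists
    exact ⟨k, hk.trans (pow_le_pow_right₀ (by norm_num) Nat.lt_two_pow_self.le)⟩
  obtain ⟨l, hl⟩ : ∃ l, l = l' + n₀ + 7 := ⟨_, rfl⟩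
  obtain ⟨κ, τ₀, hκ, hR⟩ := hp (2 ^ l) C (by positivity) hC
  obtain ⟨n₂, hn₂⟩ := bad_prob d hC l
  obtain ⟨M, hM⟩ : ∃ M : ℕ, M = 3 ^ (2 * (d * (2 ^ l + 1))) := ⟨_, rfl⟩
  have hM1 : 1 ≤ M := by rw [hM]; exact Nat.one_le_pow _ _ (by norm_num)
  obtain ⟨n₃, hn₃⟩ := eventually_atTop.1
    ((ev_lin (Real.log (2 * M) + Real.log (4 * κ) + 3)).and (ev_exp (n₀ + 7)))
  refine ⟨l, l + τ₀ + n₂ + n₃, by omega, ?_⟩
  intro b D F Ω _ J n x hn hb hP
  obtain ⟨hlin, hexp⟩ := hn₃ n (by omega)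
  obtain ⟨B1, B2, B3⟩ := hn₂ b D F Ω J n (by omega)
  obtain ⟨θ, hθ⟩ : ∃ θ : ℝ, θ = 2 * 2 ^ l * (J.a (n - l) - J.a (n + 1)) / Real.log C := ⟨_, rfl⟩
  rw [← hθ] at B2 B3 ⊢
  obtain ⟨τ, hτ⟩ : ∃ τ, τ = 2 ^ (n - l) := ⟨_, rfl⟩
  have hτ₀ : τ₀ ≤ τ := by
    rw [hτ]; exact le_trans (by omega) (Nat.lt_two_pow_self (n := n - l)).le
  have hτ1 : 1 ≤ τ := by rw [hτ]; exact Nat.one_le_two_pow
  have hmτ : 2 ^ l * τ = 2 ^ n := by rw [hτ, ← pow_add]; congr 1; omega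
  have hτ2 : 2 ^ (n + 1 - l) = 2 * τ := by
    rw [hτ, ← pow_succ']; congr 1; omega
  obtain ⟨k, hk, s, hs0, hsx, hL⟩ := hP
  rw [← hτ] at B1 B3 hL
  obtain ⟨S, q, α, β, hS, hsum, hG⟩ := hR τ hτ₀ J.Z
  obtain ⟨Opt, hO1, hO2⟩ := J.Z.exists_opt hC hτ1 (2 ^ l)
  have := J.Ad.P_prob (n + 1)
  have mΦ := J.hΦ.measurable
  have mT : Measurable J.T := J.pres.measurable
  have m0 : Measurable fun ω => J.Z.nm τ (2 ^ l) (J.Φ ω) := (J.Z.measurable_nm _ _).comp mΦ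
  have m1 : Measurable fun ω => J.Z.nm τ (2 ^ l) (J.Z.f^[2 ^ l * τ] (J.Φ ω)) :=
    (J.Z.measurable_nm _ _).comp ((J.Z.pres.measurable.iterate _).comp mΦ)
  have h2n : (1 : ℝ) ≤ 2 ^ (n + 1) := one_le_pow₀ (by norm_num)
  obtain ⟨k', hk', hL'⟩ := gain (J.Ad.P (n + 1)) _ _ (J.Ad.w (n + 1)) m0 m1 (J.Ad.meas_w _)
    (F.lft n) (F.rgt n) (F.inj n) _ (D n) (F.pr n) (2 ^ b n)⁻¹ (fun u => (J.Ad.P_lft n u).le)
    (fun u => (J.Ad.P_rgt n u).le) {ω | J.Z.Good2 τ (2 ^ l) (J.Φ ω)} S q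
    (fun a => 2 ^ (n + 1) * α a) β (κ := 2 ^ (n + 1) * κ) (by nlinarith)
    (by
      simp only [mul_assoc, ENNReal.tsum_mul_left]
      rw [ENNReal.ofReal_mul (by positivity), ENNReal.ofReal_pow (by norm_num),
        ENNReal.ofReal_ofNat]
      simp only [ENNReal.tsum_mul_left] at hsum
      exact mul_le_mul_right hsum _)
    (by
      intro ω hω
      obtain ⟨g1, g2⟩ := hG _ hω
      refine ⟨g1, (J.Ad.P_le _ _).trans ?_⟩
      rw [mul_assoc]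
      refine mul_le_mul_right (le_trans ?_ g2) _
      rw [← J.hΦ.map_eq]
      exact Measure.le_map_apply mΦ.aemeasurable _)
    k hk
  obtain ⟨k'', hk'', hL''⟩ := nest (J.Ad.P (n + 1)) _ (fun ω => J.Z.nm (2 * τ) (2 ^ l) (J.Φ ω))
    (J.Ad.w (n + 1)) (m0.prodMk m1) ((J.Z.measurable_nm _ _).comp mΦ) (J.Ad.meas_w _) Opt hM1
    (by rw [hM]; exact hO1) {ω | J.Z.GoodO τ (2 * 2 ^ l * τ) (J.Φ ω)}
    (fun ω hω => hO2 _ hω) k' hk'
  -- the two halves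
  have hsplit : Loss (J.Ad.P (n + 1)) k (fun ω => J.Z.nm τ (2 ^ l) (J.Φ ω))
        (fun ω => F.lft n (J.Ad.w (n + 1) ω)) +
      Loss (J.Ad.P (n + 1)) k (fun ω => J.Z.nm τ (2 ^ l) (J.Z.f^[2 ^ l * τ] (J.Φ ω)))
        (fun ω => F.rgt n (J.Ad.w (n + 1) ω)) ≤ ENNReal.ofReal (2 * s) := by
    have mφ : Measurable fun ω =>
        ENNReal.ofReal (-Real.log (k (J.Z.nm τ (2 ^ l) (J.Φ ω)) (J.Ad.w n ω))) :=
      (measurable_of_countable (fun z : Nm d (2 ^ l) × Fin (2 ^ b n) =>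
        ENNReal.ofReal (-Real.log (k z.1 z.2)))).comp (m0.prodMk (J.Ad.meas_w n))
    have h := J.Ad.split J.pres n mφ
    rw [ENNReal.ofReal_mul (by norm_num), ENNReal.ofReal_ofNat]
    refine le_trans (le_of_eq ?_) (h.le.trans (mul_le_mul_right hL _))
    unfold Loss
    congr 1
    · refine lintegral_congr_ae ?_
      filter_upwards [J.Ad.ae_pos (n + 1)] with ω hω
      rw [J.Ad.w_eq_lft hω]
    · refine lintegral_congr_ae ?_
      filter_upwards [J.Ad.ae_pos (n + 1)] with ω hω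
      rw [J.Ad.w_eq_rgt hω, iter_Φ, hmτ]
  have hlog2 : 0 ≤ Real.log 2 := Real.log_nonneg (by norm_num)
  have hlog2' : Real.log 2 ≤ 1 := by have := Real.log_two_lt_d9; linarith
  have hδ : 0 ≤ (D n : ℝ) * Real.log 2 := by positivity
  have h34 : (0 : ℝ) ≤ (3 / 4) ^ n := by positivity
  -- heavy words
  have hheavy : 2 * ((S.card : ℝ≥0∞) * (((2 : ℝ≥0∞) ^ (b n - b n / 4))⁻¹⁻¹ * (2 ^ b n)⁻¹)) ≤
      ENNReal.ofReal ((3 / 4) ^ n / 2) := by
    have h1 : (S.card : ℝ) ≤ 2 ^ 2 ^ (n - (n₀ + 7)) := by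
      refine hS.trans ?_
      rw [← pow_mul, mul_comm τ, pow_mul]
      calc (C ^ p) ^ τ ≤ (2 ^ 2 ^ l') ^ τ := by gcongr
        _ = _ := by
          rw [← pow_mul, hτ, ← pow_add]; congr 2; omega
    have h2 := heavy h1 (b := b n) (le_trans (le_of_eq (by congr 1; omega)) hb) hexp
    refine le_trans (le_of_eq ?_) (ENNReal.ofReal_le_ofReal h2)
    rw [inv_inv, ENNReal.ofReal_mul (by norm_num), ENNReal.ofReal_mul (by positivity),
      ENNReal.ofReal_mul (by positivity), ENNReal.ofReal_inv_of_pos (by positivity),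
      ENNReal.ofReal_pow (by norm_num), ENNReal.ofReal_pow (by norm_num), ENNReal.ofReal_ofNat,
      ENNReal.ofReal_natCast]
  have hbad : (J.Ad.P (n + 1)) {ω | J.Z.GoodO τ (2 * 2 ^ l * τ) (J.Φ ω)}ᶜ *
      ENNReal.ofReal (Real.log (2 * Fintype.card (Fin (2 ^ b (n + 1))))) ≤ ENNReal.ofReal 1 := by
    refine (mul_le_mul_left B1 _).trans ?_
    rw [← ENNReal.ofReal_mul (by positivity)]
    refine ENNReal.ofReal_le_ofReal ?_
    rw [Fintype.card_fin]; push_cast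
    rw [← pow_succ', Real.log_pow, inv_mul_le_iff₀ (by positivity)]
    have h1 : ((b (n + 1) + 1 : ℕ) : ℝ) ≤ 2 ^ (n + 2) := by
      have := F.b_le (n + 1)
      have h2 : b (n + 1) + 1 ≤ 2 ^ (n + 2) := by
        rw [pow_succ 2 (n + 1)]
        have : 1 ≤ 2 ^ (n + 1) := Nat.one_le_two_pow
        omega
      exact_mod_cast h2
    gcongr
  have hc1 : 0 ≤ Real.log (2 * M) := Real.log_nonneg (by
    have : (1 : ℝ) ≤ M := by exact_mod_cast hM1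
    linarith)
  have hc2 : Real.log (4 * (2 ^ (n + 1) * κ)) = Real.log (4 * κ) + (n + 1) * Real.log 2 := by
    rw [show 4 * (2 ^ (n + 1) * κ) = 4 * κ * 2 ^ (n + 1) by ring,
      Real.log_mul (by positivity) (by positivity), Real.log_pow]
    push_cast; ring
  have hc3 : 0 ≤ Real.log (4 * (2 ^ (n + 1) * κ)) := Real.log_nonneg (by nlinarith)
  have hθ0 : 0 ≤ θ + (3 / 4) ^ n := by linarith
  have tot : Loss (J.Ad.P (n + 1)) k'' (fun ω => J.Z.nm (2 * τ) (2 ^ l) (J.Φ ω))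
      (J.Ad.w (n + 1)) + ENNReal.ofReal (D n * Real.log 2) ≤
      ENNReal.ofReal (2 * s + (θ + (3 / 4) ^ n) * (D n * Real.log 2) +
        (Real.log (4 * (2 ^ (n + 1) * κ)) + 1) + (Real.log (2 * M) + 1)) := by
    rw [ENNReal.ofReal_add (by positivity) (by positivity),
      ENNReal.ofReal_add (by positivity) (by positivity),
      ENNReal.ofReal_add (by positivity) (by positivity), ENNReal.ofReal_mul hθ0,
      ENNReal.ofReal_add hc1 (by norm_num)]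
    calc _ ≤ Loss (J.Ad.P (n + 1)) k' _ (J.Ad.w (n + 1)) + ENNReal.ofReal (Real.log (2 * M)) +
          ENNReal.ofReal 1 + ENNReal.ofReal (D n * Real.log 2) := by
          gcongr
          exact hL''.trans (by gcongr)
      _ = Loss (J.Ad.P (n + 1)) k' _ (J.Ad.w (n + 1)) + ENNReal.ofReal (D n * Real.log 2) +
          (ENNReal.ofReal (Real.log (2 * M)) + ENNReal.ofReal 1) := by ring
      _ ≤ _ := by
          refine add_le_add_left (hL'.trans (add_le_add_left (add_le_add hsplit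
            (mul_le_mul_left ?_ _)) _)) _
          have e : θ + (3 / 4) ^ n = θ + (3 / 4) ^ n / 2 + (3 / 4) ^ n / 2 := by ring
          rw [e, ENNReal.ofReal_add B2 (by positivity)]
          exact add_le_add B3 hheavy
  have hfin : Loss (J.Ad.P (n + 1)) k'' (fun ω => J.Z.nm (2 * τ) (2 ^ l) (J.Φ ω))
      (J.Ad.w (n + 1)) ≠ ∞ := ne_top_of_le_ne_top ENNReal.ofReal_ne_top (le_self_add.trans tot)
  refine ⟨k'', hk'', _, ENNReal.toReal_nonneg, ?_, by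
    rw [hτ2, ENNReal.ofReal_toReal hfin]⟩
  rw [← ENNReal.ofReal_toReal hfin, ← ENNReal.ofReal_add ENNReal.toReal_nonneg hδ,
    ENNReal.ofReal_le_ofReal_iff (by positivity)] at tot
  have h1 : (θ + (3 / 4) ^ n) * (D n * Real.log 2) ≤ (θ + (3 / 4) ^ n) * D n := by
    gcongr
    exact mul_le_of_le_one_right (Nat.cast_nonneg _) hlog2'
  have h2 : ((n : ℝ) + 1) * Real.log 2 ≤ n + 1 :=
    mul_le_of_le_one_right (by positivity) hlog2'
  rw [hc2] at tot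
  linarith

end Vale.Agent.P109
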