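import Vale.Agent.P109.Shell

/-! P109: from atlases to piecewise smooth models. -/

namespace Vale.Agent.P109

open MeasureTheory Set Metric Filter Topology
open scoped ENNReal Pointwise

namespace Reduce

theorem meas_inter {α β : Type} [TopologicalSpace α] [MeasurableSpace α] [OpensMeasurableSpace α]
    [TopologicalSpace β] [MeasurableSpace β] [BorelSpace β] {g : α → β} {s : Set α}
    (hg : ContinuousOn g s) (hs : MeasurableSet s) {B : Set β} (hB : MeasurableSet B) :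
    MeasurableSet (s ∩ g ⁻¹' B) := by
  have h1 : Measurable (s.domRestrict g) := hg.domRestrict.measurable
  have h2 : s ∩ g ⁻¹' B = Subtype.val '' (s.domRestrict g ⁻¹' B) := by
    ext x
    constructor
    · rintro ⟨hx, hb⟩
      exact ⟨⟨x, hx⟩, hb, rfl⟩
    · rintro ⟨⟨y, hy⟩, hb, rfl⟩
      exact ⟨hy, hb⟩
  rw [h2]
  exact hs.subtype_image (h1 hB)

theorem good_mono {d : ℕ} {g : E d → E d} {U : Set (E d)} {L L' r : ℝ} {y : E d}
    (h : Good g U L r y) (hL : L ≤ L') : Good g U L' r y := by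
  refine ⟨h.1, fun z hz => ⟨(h.2 z hz).1, (h.2 z hz).2.1.trans hL, fun w hw => ?_⟩⟩
  exact ((h.2 z hz).2.2 w hw).trans (mul_le_mul_of_nonneg_right hL (norm_nonneg _))

theorem good_translate {d : ℕ} {f g : E d → E d} {U : Set (E d)} {L r : ℝ} {y v w : E d}
    (h : Good g univ L r y) (hU : ball (y + v) r ⊆ U)
    (hf : ∀ z ∈ ball (y + v) r, f z = g (z - v) + w) : Good f U L r (y + v) := by
  have hmem : ∀ z ∈ ball (y + v) r, z - v ∈ ball y r := by
    intro z hz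
    rw [mem_ball, dist_eq_norm] at hz ⊢
    have : z - v - y = z - (y + v) := by abel
    rwa [this]
  have hder : ∀ z ∈ ball (y + v) r, HasFDerivAt f (fderiv ℝ g (z - v)) z := by
    intro z hz
    have h1 : HasFDerivAt g (fderiv ℝ g (z - v)) (z - v) :=
      (h.2 _ (hmem z hz)).1.hasFDerivAt
    have h2 : HasFDerivAt (fun z => z - v) (ContinuousLinearMap.id ℝ (E d)) z :=
      (hasFDerivAt_id z).sub_const v
    have h3 := (h1.comp z h2).add_const w
    rw [ContinuousLinearMap.comp_id] at h3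
    refine h3.congr_of_eventuallyEq ?_
    filter_upwards [isOpen_ball.mem_nhds hz] with u hu
    exact hf u hu
  refine ⟨hU, fun z hz => ⟨(hder z hz).differentiableAt, ?_, fun u hu => ?_⟩⟩
  · rw [(hder z hz).fderiv]
    exact (h.2 _ (hmem z hz)).2.1
  · rw [(hder z hz).fderiv, (hder u hu).fderiv]
    have h1 := (h.2 _ (hmem z hz)).2.2 _ (hmem u hu)
    have : z - v - (u - v) = z - u := by abel
    rwa [this] at h1

variable {d : ℕ} {M : Type} [TopologicalSpace M] [MeasurableSpace M] {ν : Measure M} {S : M → M}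

/-- Chart balls. -/
def W (a : Atl d ν S) (p : M) (r : ℝ) : Set M :=
  (a.e p).source ∩ a.e p ⁻¹' ball (a.e p p) r

theorem isOpen_W (a : Atl d ν S) (p : M) (r : ℝ) : IsOpen (W a p r) :=
  (a.cont p).isOpen_inter_preimage (a.opn p) isOpen_ball

theorem tgt_sub (a : Atl d ν S) (p : M) : (a.e p).target ⊆ a.Rg := by
  obtain ⟨O, -, h⟩ := a.tgt p
  rw [h]
  exact inter_subset_right

theorem meas_tgt (a : Atl d ν S) (p : M) : MeasurableSet (a.e p).target := by
  obtain ⟨O, hO, h⟩ := a.tgt p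
  rw [h]
  exact hO.measurableSet.inter a.closed.measurableSet

/-- A finite cover by chart balls with a measurable choice of the chart. -/
structure Cov (a : Atl d ν S) where
  n : ℕ
  p : Fin n → M
  r : Fin n → ℝ
  pos : ∀ i, 0 < r i
  le1 : ∀ i, r i ≤ 1
  sub : ∀ i, closedBall (a.e (p i) (p i)) (2 * r i) ∩ a.Rg ⊆ (a.e (p i)).target
  idx : M → Fin n
  mem : ∀ x, x ∈ W a (p (idx x)) (r (idx x))
  same : ∀ x x', (∀ k, x ∈ W a (p k) (r k) ↔ x' ∈ W a (p k) (r k)) → idx x = idx x'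
  meas : Measurable idx

theorem exists_cov [CompactSpace M] [BorelSpace M] (a : Atl d ν S) : Nonempty (Cov a) := by
  classical
  have h1 : ∀ p : M, ∃ r : ℝ, 0 < r ∧ r ≤ 1 ∧
      closedBall (a.e p p) (2 * r) ∩ a.Rg ⊆ (a.e p).target := by
    intro p
    obtain ⟨O, hO, h⟩ := a.tgt p
    have hp : a.e p p ∈ O := by
      have := (a.e p).map_source (a.mem p)
      rw [h] at this
      exact this.1
    obtain ⟨ε, hε, hb⟩ := Metric.isOpen_iff.1 hO _ hp
    refine ⟨min (ε / 4) 1, lt_min (by linarith) one_pos, min_le_right _ _, ?_⟩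
    rw [h]
    refine inter_subset_inter_left _ (Subset.trans (closedBall_subset_ball ?_) hb)
    have := min_le_left (ε / 4) 1
    linarith
  choose r hr0 hr1 hrs using h1
  obtain ⟨t, ht⟩ := isCompact_univ.elim_nhds_subcover' (fun p _ => W a p (r p))
    (fun p _ => (isOpen_W a p (r p)).mem_nhds ⟨a.mem p, mem_ball_self (hr0 p)⟩)
  let q : Fin t.card → M := fun i => ((t.equivFin.symm i : t) : (univ : Set M))
  have hq : ∀ x : M, ∃ i, x ∈ W a (q i) (r (q i)) := by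
    intro x
    have := ht (mem_univ x)
    simp only [mem_iUnion] at this
    obtain ⟨y, hy, hx⟩ := this
    refine ⟨t.equivFin ⟨y, hy⟩, ?_⟩
    simpa [q] using hx
  let m : M → (Fin t.card → Prop) := fun x k => x ∈ W a (q k) (r (q k))
  have hm : Measurable m := by
    refine measurable_pi_lambda _ fun k => ?_
    exact measurable_mem.2 (isOpen_W a _ _).measurableSet
  by_cases hM : Nonempty M
  · obtain ⟨x0⟩ := hM
    obtain ⟨i0, -⟩ := hq x0
    let g : (Fin t.card → Prop) → Fin t.card := fun s => if h : ∃ k, s k then h.choose else i0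
    refine ⟨⟨t.card, q, fun i => r (q i), fun i => hr0 _, fun i => hr1 _, fun i => hrs _,
      fun x => g (m x), fun x => ?_, fun x x' h => ?_, (measurable_of_countable g).comp hm⟩⟩
    · have h : ∃ k, m x k := hq x
      have : g (m x) = h.choose := dif_pos h
      rw [this]
      exact h.choose_spec
    · have : m x = m x' := funext fun k => propext (h k)
      simp only [this]
  · have hE : IsEmpty M := not_nonempty_iff.1 hM
    exact ⟨⟨t.card, q, fun i => r (q i), fun i => hr0 _, fun i => hr1 _, fun i => hrs _,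
      fun x => hE.elim x, fun x => hE.elim x, fun x => hE.elim x, measurable_of_empty _⟩⟩

theorem dens_up (a : Atl d ν S) (p : M) {R : ℝ}
    (hR : closedBall (a.e p p) R ∩ a.Rg ⊆ (a.e p).target) : ∃ c : ℝ, 0 ≤ c ∧ ∀ B : Set (E d),
    ν ((a.e p).source ∩ a.e p ⁻¹' (B ∩ closedBall (a.e p p) R)) ≤
      ENNReal.ofReal c * volume B := by
  obtain ⟨ρ, hc, -, hρ⟩ := a.dens p
  have hK : IsCompact (closedBall (a.e p p) R ∩ a.Rg) :=
    (isCompact_closedBall _ _).inter_right a.closed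
  obtain ⟨c, hc'⟩ := hK.bddAbove_image (hc.mono hR)
  refine ⟨max c 0, le_max_right _ _, fun B => ?_⟩
  set A := toMeasurable volume B ∩ (closedBall (a.e p p) R ∩ a.Rg) with hA
  have hAm : MeasurableSet A := (measurableSet_toMeasurable _ _).inter hK.measurableSet
  calc ν ((a.e p).source ∩ a.e p ⁻¹' (B ∩ closedBall (a.e p p) R))
      ≤ ν ((a.e p).source ∩ a.e p ⁻¹' A) := by
        refine measure_mono fun x hx => ⟨hx.1, subset_toMeasurable _ _ hx.2.1, hx.2.2, ?_⟩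
        exact tgt_sub a p ((a.e p).map_source hx.1)
    _ = ∫⁻ y in A, ENNReal.ofReal (ρ y) := hρ A (inter_subset_right.trans hR) hAm
    _ ≤ ∫⁻ _ in A, ENNReal.ofReal (max c 0) := by
        refine setLIntegral_mono' hAm fun y hy => ENNReal.ofReal_le_ofReal ?_
        exact (hc' (mem_image_of_mem ρ hy.2)).trans (le_max_left _ _)
    _ = ENNReal.ofReal (max c 0) * volume A := setLIntegral_const _ _
    _ ≤ ENNReal.ofReal (max c 0) * volume B := by
        refine mul_le_mul_right ?_ _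
        rw [← measure_toMeasurable B]
        exact measure_mono inter_subset_left

theorem dens_low (a : Atl d ν S) (p : M) {R : ℝ}
    (hR : closedBall (a.e p p) R ∩ a.Rg ⊆ (a.e p).target) : ∃ c : ℝ, 0 ≤ c ∧ ∀ B : Set (E d),
    B ⊆ closedBall (a.e p p) R ∩ a.Rg → MeasurableSet B →
      volume B ≤ ENNReal.ofReal c * ν ((a.e p).source ∩ a.e p ⁻¹' B) := by
  obtain ⟨ρ, hc, h0, hρ⟩ := a.dens p
  have hK : IsCompact (closedBall (a.e p p) R ∩ a.Rg) :=
    (isCompact_closedBall _ _).inter_right a.closed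
  have hc2 : ContinuousOn (fun y => (ρ y)⁻¹) (closedBall (a.e p p) R ∩ a.Rg) :=
    (hc.mono hR).inv₀ fun y hy => (h0 y (hR hy)).ne'
  obtain ⟨c, hc'⟩ := hK.bddAbove_image hc2
  refine ⟨max c 0, le_max_right _ _, fun B hB hBm => ?_⟩
  rw [hρ B (hB.trans hR) hBm, ← lintegral_const_mul' _ _ ENNReal.ofReal_ne_top,
    ← setLIntegral_one]
  refine setLIntegral_mono' hBm fun y hy => ?_
  rw [← ENNReal.ofReal_mul (le_max_right _ _), ← ENNReal.ofReal_one]
  refine ENNReal.ofReal_le_ofReal ?_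
  have h1 : (ρ y)⁻¹ ≤ max c 0 :=
    (hc' (mem_image_of_mem (fun y => (ρ y)⁻¹) (hB hy))).trans (le_max_left _ _)
  have h2 := h0 y (hR (hB hy))
  calc (1 : ℝ) = (ρ y)⁻¹ * ρ y := (inv_mul_cancel₀ h2.ne').symm
    _ ≤ max c 0 * ρ y := mul_le_mul_of_nonneg_right h1 h2.le

theorem unif_pair [T2Space M] (a : Atl d ν S) {Θ : M → M} (hΘ : Continuous Θ) (p q : M)
    (hs : ContDiffOn ℝ 2 (a.e q ∘ Θ ∘ (a.e p).symm)
      ((a.e p).target ∩ (a.e p).symm ⁻¹' (Θ ⁻¹' (a.e q).source))) {R r : ℝ}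
    (hR : closedBall (a.e p p) R ∩ a.Rg ⊆ (a.e p).target)
    (hr : closedBall (a.e q q) r ∩ a.Rg ⊆ (a.e q).target) :
    ∀ᶠ L : ℝ in atTop, ∀ y ∈ closedBall (a.e p p) R ∩ a.Rg, Θ ((a.e p).symm y) ∈ W a q r →
      (∀ y' ∈ ball y L⁻¹ ∩ a.Rg, Θ ((a.e p).symm y') ∈ (a.e q).source ∧
        ‖a.e q (Θ ((a.e p).symm y')) - a.e q (Θ ((a.e p).symm y))‖ ≤ L * ‖y' - y‖) ∧
      ∀ s ≤ L⁻¹, ball y s ⊆ a.Rg → Good (a.e q ∘ Θ ∘ (a.e p).symm) univ L s y := by
  obtain ⟨O, hO, hOt⟩ := a.tgt p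
  obtain ⟨u, hu, hut⟩ := continuousOn_iff'.1 (a.cont' p) _ ((a.opn q).preimage hΘ)
  have hdom : (a.e p).target ∩ (a.e p).symm ⁻¹' (Θ ⁻¹' (a.e q).source) = (u ∩ O) ∩ a.Rg := by
    rw [inter_comm, hut, hOt, inter_assoc]
  have hKq : IsCompact ((a.e q).symm '' (closedBall (a.e q q) r ∩ a.Rg)) :=
    ((isCompact_closedBall _ _).inter_right a.closed).image_of_continuousOn ((a.cont' q).mono hr)
  have hKp : IsCompact (closedBall (a.e p p) R ∩ a.Rg) :=
    (isCompact_closedBall _ _).inter_right a.closed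
  set K := (closedBall (a.e p p) R ∩ a.Rg) ∩
    (a.e p).symm ⁻¹' (Θ ⁻¹' ((a.e q).symm '' (closedBall (a.e q q) r ∩ a.Rg))) with hKdef
  have hK : IsCompact K := by
    refine hKp.of_isClosed_subset ?_ inter_subset_left
    exact ((a.cont' p).mono hR).preimage_isClosed_of_isClosed hKp.isClosed
      (hKq.isClosed.preimage hΘ)
  have hKO : K ⊆ (u ∩ O) ∩ a.Rg := by
    rw [← hdom]
    rintro y ⟨hy, z, hz, hzy⟩
    refine ⟨hR hy, ?_⟩
    change Θ ((a.e p).symm y) ∈ (a.e q).source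
    rw [← hzy]
    exact (a.e q).map_target (hr hz)
  rw [hdom] at hs
  obtain ⟨δ, L0, hδ, hL0, h⟩ := unif_C2 a.cvx a.int a.closed (hu.inter hO) hK hKO hs
  filter_upwards [eventually_ge_atTop L0, eventually_ge_atTop δ⁻¹] with L hL hLδ y hy hW
  have hLd : L⁻¹ ≤ δ := inv_le_of_inv_le₀ hδ hLδ
  have hyK : y ∈ K := by
    refine ⟨hy, a.e q (Θ ((a.e p).symm y)), ⟨ball_subset_closedBall hW.2, ?_⟩, ?_⟩
    · exact tgt_sub a q ((a.e q).map_source hW.1)
    · exact (a.e q).left_inv hW.1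
  obtain ⟨h1, h2, h3⟩ := h y hyK
  refine ⟨fun y' hy' => ⟨?_, ?_⟩, fun s hs hb => good_mono (h3 s (hs.trans hLd) hb) hL⟩
  · have : y' ∈ (u ∩ O) ∩ a.Rg := ⟨h1 (ball_subset_ball hLd hy'.1), hy'.2⟩
    rw [← hdom] at this
    exact this.2
  · exact (h2 y' ⟨ball_subset_ball hLd hy'.1, hy'.2⟩).trans
      (mul_le_mul_of_nonneg_right hL (norm_nonneg _))

namespace Cov

variable {a : Atl d ν S} (c : Cov a)

/-- The translation vectors. -/
def vec (i : Fin c.n) : E d := (fun _ => 2 * (i : ℝ)) - a.e (c.p i) (c.p i)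

/-- The embedding. -/
def Φ (x : M) : E d := a.e (c.p (c.idx x)) x + c.vec (c.idx x)

theorem sub1 (i : Fin c.n) :
    closedBall (a.e (c.p i) (c.p i)) (c.r i) ∩ a.Rg ⊆ (a.e (c.p i)).target :=
  (inter_subset_inter_left _ (closedBall_subset_closedBall (by linarith [c.pos i]))).trans (c.sub i)

theorem mem_ball2 (x : M) : a.e (c.p (c.idx x)) x ∈
    closedBall (a.e (c.p (c.idx x)) (c.p (c.idx x))) (2 * c.r (c.idx x)) ∩ a.Rg :=
  ⟨closedBall_subset_closedBall (by linarith [c.pos (c.idx x)])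
    (ball_subset_closedBall (c.mem x).2), tgt_sub a _ ((a.e _).map_source (c.mem x).1)⟩

theorem norm_sub_lt (x : M) : ‖c.Φ x - (fun _ => 2 * (c.idx x : ℝ))‖ < 1 := by
  have h := (c.mem x).2
  rw [mem_preimage, mem_ball, dist_eq_norm] at h
  have : c.Φ x - (fun _ => 2 * (c.idx x : ℝ)) =
      a.e (c.p (c.idx x)) x - a.e (c.p (c.idx x)) (c.p (c.idx x)) := by
    unfold Φ vec
    abel
  rw [this]
  exact h.trans_le (c.le1 _)

theorem inj (hd : 0 < d) : Function.Injective c.Φ := by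
  intro x x' h
  have h1 := (norm_le_pi_norm _ (⟨0, hd⟩ : Fin d)).trans_lt (c.norm_sub_lt x)
  have h2 := (norm_le_pi_norm _ (⟨0, hd⟩ : Fin d)).trans_lt (c.norm_sub_lt x')
  rw [h] at h1
  simp only [Pi.sub_apply, Real.norm_eq_abs, abs_lt] at h1 h2
  have h3 : ((c.idx x : ℕ) : ℝ) < (c.idx x' : ℕ) + 1 := by linarith [h1.1, h1.2, h2.1, h2.2]
  have h4 : ((c.idx x' : ℕ) : ℝ) < (c.idx x : ℕ) + 1 := by linarith [h1.1, h1.2, h2.1, h2.2]
  have h5 : (c.idx x : ℕ) < (c.idx x' : ℕ) + 1 := by exact_mod_cast h3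
  have h6 : (c.idx x' : ℕ) < (c.idx x : ℕ) + 1 := by exact_mod_cast h4
  have h7 : c.idx x = c.idx x' := Fin.ext (by omega)
  have h8 := (c.mem x').1
  unfold Φ at h
  rw [← h7] at h h8
  exact (a.e _).injOn (c.mem x).1 h8 (add_right_cancel h)

theorem norm_le (x : M) : ‖c.Φ x‖ ≤ 2 * c.n + 1 := by
  have h1 := c.norm_sub_lt x
  have h2 : ‖(fun _ => 2 * (c.idx x : ℝ) : E d)‖ ≤ 2 * c.n := by
    refine (pi_norm_le_iff_of_nonneg (by positivity)).2 fun i => ?_
    rw [Real.norm_of_nonneg (by positivity)]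
    have : ((c.idx x : ℕ) : ℝ) ≤ c.n := by exact_mod_cast (c.idx x).2.le
    linarith
  have h3 := norm_add_le (c.Φ x - (fun _ => 2 * (c.idx x : ℝ))) (fun _ => 2 * (c.idx x : ℝ))
  rw [sub_add_cancel] at h3
  linarith

theorem image_eq (s : Set M) (i : Fin c.n) : c.Φ '' (s ∩ c.idx ⁻¹' {i}) =
    (fun z => z - c.vec i) ⁻¹'
      ((a.e (c.p i)).target ∩ (a.e (c.p i)).symm ⁻¹' (s ∩ c.idx ⁻¹' {i})) := by
  ext z
  constructor
  · rintro ⟨x, ⟨hx, hi⟩, rfl⟩
    have hi' : c.idx x = i := hi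
    subst hi'
    have : c.Φ x - c.vec (c.idx x) = a.e (c.p (c.idx x)) x := add_sub_cancel_right _ _
    simp only [mem_preimage, mem_inter_iff, this, (a.e _).left_inv (c.mem x).1]
    exact ⟨(a.e _).map_source (c.mem x).1, hx, rfl⟩
  · rintro ⟨h1, h2, h3⟩
    refine ⟨_, ⟨h2, h3⟩, ?_⟩
    have h3' : c.idx ((a.e (c.p i)).symm (z - c.vec i)) = i := h3
    unfold Φ
    rw [h3', (a.e _).right_inv h1, sub_add_cancel]

theorem emb [BorelSpace M] (hd : 0 < d) : MeasurableEmbedding c.Φ := by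
  refine ⟨c.inj hd, fun A hA => ?_, fun s hs => ?_⟩
  · have : c.Φ ⁻¹' A = ⋃ i, c.idx ⁻¹' {i} ∩ ((a.e (c.p i)).source ∩
        a.e (c.p i) ⁻¹' ((fun z => z + c.vec i) ⁻¹' A)) := by
      ext x
      simp only [mem_iUnion, mem_inter_iff, mem_preimage, mem_singleton_iff]
      constructor
      · intro h
        exact ⟨_, rfl, (c.mem x).1, h⟩
      · rintro ⟨i, rfl, -, h⟩
        exact h
    rw [this]
    refine MeasurableSet.iUnion fun i => (c.meas (measurableSet_singleton i)).inter ?_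
    exact meas_inter (a.cont _) (a.opn _).measurableSet (measurable_add_const _ hA)
  · have : s = ⋃ i, s ∩ c.idx ⁻¹' {i} := by
      ext x
      simp
    rw [this, image_iUnion]
    refine MeasurableSet.iUnion fun i => ?_
    rw [c.image_eq]
    exact measurable_sub_const _ (meas_inter (a.cont' _) (meas_tgt a _)
      (hs.inter (c.meas (measurableSet_singleton i))))

theorem up : ∃ k : ℝ, 0 ≤ k ∧ ∀ i, ∀ B : Set (E d),
    ν ((a.e (c.p i)).source ∩
      a.e (c.p i) ⁻¹' (B ∩ closedBall (a.e (c.p i) (c.p i)) (2 * c.r i))) ≤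
      ENNReal.ofReal k * volume B := by
  choose k hk0 hk using fun i => dens_up a (c.p i) (c.sub i)
  refine ⟨∑ i, k i, Finset.sum_nonneg fun i _ => hk0 i, fun i B => (hk i B).trans ?_⟩
  refine mul_le_mul_left (ENNReal.ofReal_le_ofReal ?_) _
  exact Finset.single_le_sum (fun i _ => hk0 i) (Finset.mem_univ i)

theorem le_vol : ∃ k : ℝ, ∀ A : Set (E d), ν (c.Φ ⁻¹' A) ≤ ENNReal.ofReal k * volume A := by
  obtain ⟨k, hk0, hk⟩ := c.up
  refine ⟨c.n * k, fun A => ?_⟩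
  calc ν (c.Φ ⁻¹' A) ≤ ν (⋃ i, (a.e (c.p i)).source ∩ a.e (c.p i) ⁻¹'
        ((fun z => z + c.vec i) ⁻¹' A ∩ closedBall (a.e (c.p i) (c.p i)) (2 * c.r i))) := by
        refine measure_mono fun x hx => mem_iUnion.2 ⟨c.idx x, (c.mem x).1, hx, ?_⟩
        exact (c.mem_ball2 x).1
    _ ≤ ∑ i, _ := measure_iUnion_fintype_le _ _
    _ ≤ ∑ _i : Fin c.n, ENNReal.ofReal k * volume A := by
        refine Finset.sum_le_sum fun i _ => (hk i _).trans ?_
        rw [measure_preimage_add_right]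
    _ = ENNReal.ofReal (c.n * k) * volume A := by
        rw [Finset.sum_const, Finset.card_univ, Fintype.card_fin, nsmul_eq_mul,
          ENNReal.ofReal_mul (Nat.cast_nonneg _), ENNReal.ofReal_natCast, mul_assoc]

theorem vol_le [BorelSpace M] (hd : 0 < d) : ∃ k : ℝ, ∀ A ⊆ range c.Φ, MeasurableSet A →
    volume A ≤ ENNReal.ofReal k * ν (c.Φ ⁻¹' A) := by
  choose k hk0 hk using fun i => dens_low a (c.p i) (c.sub i)
  refine ⟨∑ i, k i, fun A hA hAm => ?_⟩
  have hm : ∀ i, MeasurableSet (c.Φ ⁻¹' A ∩ c.idx ⁻¹' {i}) := fun i =>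
    ((c.emb hd).measurable hAm).inter (c.meas (measurableSet_singleton i))
  calc volume A ≤ volume (⋃ i, c.Φ '' (c.Φ ⁻¹' A ∩ c.idx ⁻¹' {i})) := by
        refine measure_mono fun z hz => ?_
        obtain ⟨x, rfl⟩ := hA hz
        exact mem_iUnion.2 ⟨c.idx x, x, ⟨hz, rfl⟩, rfl⟩
    _ ≤ ∑ i, _ := measure_iUnion_fintype_le _ _
    _ ≤ ∑ i : Fin c.n, ENNReal.ofReal (k i) * ν (c.Φ ⁻¹' A) := by
        refine Finset.sum_le_sum fun i _ => ?_
        rw [c.image_eq]
        simp only [sub_eq_add_neg]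
        rw [measure_preimage_add_right]
        refine (hk i _ ?_ (meas_inter (a.cont' _) (meas_tgt a _) (hm i))).trans ?_
        · rintro y ⟨h1, -, h3⟩
          have h3' : c.idx ((a.e (c.p i)).symm y) = i := h3
          have h4 := c.mem_ball2 ((a.e (c.p i)).symm y)
          rwa [h3', (a.e _).right_inv h1] at h4
        · refine mul_le_mul_right (measure_mono ?_) _
          rintro x ⟨h1, -, h2, -⟩
          rwa [(a.e _).left_inv h1] at h2
    _ = ENNReal.ofReal (∑ i, k i) * ν (c.Φ ⁻¹' A) := by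
        rw [ENNReal.ofReal_sum_of_nonneg fun i _ => hk0 i, Finset.sum_mul]

/-- The neighbourhood of the boundary of a chart ball. -/
def Shell (k : Fin c.n) (s : ℝ) : Set M :=
  (a.e (c.p k)).source ∩ a.e (c.p k) ⁻¹' {z | |‖z - a.e (c.p k) (c.p k)‖ - c.r k| ≤ s}

/-- The neighbourhood of the boundary of the manifold. -/
def Edge (i : Fin c.n) (s : ℝ) : Set M :=
  (a.e (c.p i)).source ∩ a.e (c.p i) ⁻¹'
    ({y | ¬ ball y s ⊆ a.Rg} ∩ closedBall (a.e (c.p i) (c.p i)) (2 * c.r i))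

theorem same_idx {Θ : M → M} {L r : ℝ} (hL : 0 ≤ L) (hrL : r ≤ L⁻¹) (hri : ∀ i, r ≤ c.r i)
    (h : ∀ i k, ∀ y ∈ closedBall (a.e (c.p i) (c.p i)) (2 * c.r i) ∩ a.Rg,
      Θ ((a.e (c.p i)).symm y) ∈ W a (c.p k) (c.r k) →
      ∀ y' ∈ ball y L⁻¹ ∩ a.Rg, Θ ((a.e (c.p i)).symm y') ∈ (a.e (c.p k)).source ∧
        ‖a.e (c.p k) (Θ ((a.e (c.p i)).symm y')) - a.e (c.p k) (Θ ((a.e (c.p i)).symm y))‖ ≤
          L * ‖y' - y‖)
    {x : M} (hx : ∀ k, Θ x ∉ c.Shell k (L * r)) {y' : E d}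
    (hy' : y' ∈ ball (a.e (c.p (c.idx x)) x) r) (hR : y' ∈ a.Rg) :
    c.idx (Θ ((a.e (c.p (c.idx x))).symm y')) = c.idx (Θ x) := by
  set i := c.idx x with hi
  set y := a.e (c.p i) x with hy
  have hxy : (a.e (c.p i)).symm y = x := (a.e _).left_inv (c.mem x).1
  have hyK := c.mem_ball2 x
  rw [← hi, ← hy] at hyK
  have hyb : dist y (a.e (c.p i) (c.p i)) < c.r i := (c.mem x).2
  have hd : ‖y' - y‖ < r := by rwa [mem_ball, dist_eq_norm] at hy'
  have hy'K : y' ∈ closedBall (a.e (c.p i) (c.p i)) (2 * c.r i) ∩ a.Rg := by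
    refine ⟨?_, hR⟩
    have h1 := dist_triangle y' y (a.e (c.p i) (c.p i))
    have h2 : dist y' y < r := hy'
    have h3 := hri i
    rw [mem_closedBall]
    linarith
  have hLr : L * ‖y' - y‖ ≤ L * r := mul_le_mul_of_nonneg_left hd.le hL
  refine c.same _ _ fun k => ⟨fun hW => ?_, fun hW => ?_⟩
  · obtain ⟨h1, h2⟩ := h i k y' hy'K hW y ⟨mem_ball_comm.1 (ball_subset_ball hrL hy'), hyK.2⟩
    rw [hxy] at h1 h2
    refine ⟨h1, ?_⟩
    have h3 : ¬ |‖a.e (c.p k) (Θ x) - a.e (c.p k) (c.p k)‖ - c.r k| ≤ L * r :=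
      fun h3 => hx k ⟨h1, h3⟩
    have h4 : ‖a.e (c.p k) (Θ ((a.e (c.p i)).symm y')) - a.e (c.p k) (c.p k)‖ < c.r k := by
      have := hW.2
      rwa [mem_preimage, mem_ball, dist_eq_norm] at this
    have h5 := norm_sub_le_norm_sub_add_norm_sub (a.e (c.p k) (Θ x))
      (a.e (c.p k) (Θ ((a.e (c.p i)).symm y'))) (a.e (c.p k) (c.p k))
    rw [norm_sub_rev y y'] at h2
    rw [mem_preimage, mem_ball, dist_eq_norm]
    by_contra h6
    rw [not_lt] at h6
    exact h3 (abs_le.2 ⟨by nlinarith [norm_nonneg (y' - y)], by linarith⟩)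
  · obtain ⟨h1, h2⟩ := h i k y hyK (by rwa [hxy]) y' ⟨ball_subset_ball hrL hy', hR⟩
    rw [hxy] at h2
    refine ⟨h1, ?_⟩
    have h3 : ¬ |‖a.e (c.p k) (Θ x) - a.e (c.p k) (c.p k)‖ - c.r k| ≤ L * r :=
      fun h3 => hx k ⟨hW.1, h3⟩
    have h4 : ‖a.e (c.p k) (Θ x) - a.e (c.p k) (c.p k)‖ < c.r k := by
      have := hW.2
      rwa [mem_preimage, mem_ball, dist_eq_norm] at this
    have h5 := norm_sub_le_norm_sub_add_norm_sub (a.e (c.p k) (Θ ((a.e (c.p i)).symm y')))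
      (a.e (c.p k) (Θ x)) (a.e (c.p k) (c.p k))
    rw [mem_preimage, mem_ball, dist_eq_norm]
    by_contra h6
    rw [not_lt] at h6
    exact h3 (abs_le.2 ⟨by linarith, by nlinarith [norm_nonneg (y' - y)]⟩)

theorem good [T2Space M] {f : E d → E d} (hf : ∀ x, f (c.Φ x) = c.Φ (S x)) :
    ∀ᶠ L : ℝ in atTop, ∀ r ≤ L⁻¹, ∀ x, (∀ i, x ∉ c.Edge i r) → (∀ k, x ∉ c.Shell k (L * r)) →
      (∀ k, S x ∉ c.Shell k (L * r)) → Good f (range c.Φ) L r (c.Φ x) := by
  have hI := eventually_all.2 fun i => eventually_all.2 fun k =>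
    unif_pair a continuous_id (c.p i) (c.p k) (a.smI _ _) (c.sub i) (c.sub1 k)
  have hS := eventually_all.2 fun i => eventually_all.2 fun k =>
    unif_pair a a.contS (c.p i) (c.p k) (a.smS _ _) (c.sub i) (c.sub1 k)
  have hr : ∀ᶠ L : ℝ in atTop, ∀ i, (c.r i)⁻¹ ≤ L :=
    eventually_all.2 fun i => eventually_ge_atTop _
  filter_upwards [hI, hS, hr, eventually_ge_atTop 0] with L hI hS hr hL r hrL x hE h1 h2
  have hri : ∀ i, r ≤ c.r i := fun i => hrL.trans (inv_le_of_inv_le₀ (c.pos i) (hr i))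
  have hb : ball (a.e (c.p (c.idx x)) x) r ⊆ a.Rg := by
    by_contra hb
    exact hE (c.idx x) ⟨(c.mem x).1, hb, (c.mem_ball2 x).1⟩
  have hxy : (a.e (c.p (c.idx x))).symm (a.e (c.p (c.idx x)) x) = x :=
    (a.e _).left_inv (c.mem x).1
  have hg := (hS (c.idx x) (c.idx (S x)) _ (c.mem_ball2 x) (by rw [hxy]; exact c.mem _)).2
    r hrL hb
  have key : ∀ z ∈ ball (a.e (c.p (c.idx x)) x + c.vec (c.idx x)) r,
      c.Φ ((a.e (c.p (c.idx x))).symm (z - c.vec (c.idx x))) = z ∧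
      c.idx (S ((a.e (c.p (c.idx x))).symm (z - c.vec (c.idx x)))) = c.idx (S x) := by
    intro z hz
    have hz' : z - c.vec (c.idx x) ∈ ball (a.e (c.p (c.idx x)) x) r := by
      rw [mem_ball, dist_eq_norm] at hz ⊢
      have : z - c.vec (c.idx x) - a.e (c.p (c.idx x)) x =
          z - (a.e (c.p (c.idx x)) x + c.vec (c.idx x)) := by abel
      rwa [this]
    have h3 : c.idx ((a.e (c.p (c.idx x))).symm (z - c.vec (c.idx x))) = c.idx x :=
      c.same_idx (Θ := id) hL hrL hri (fun i k y hy hW => (hI i k y hy hW).1) h1 hz' (hb hz')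
    refine ⟨?_, c.same_idx hL hrL hri (fun i k y hy hW => (hS i k y hy hW).1) h2 hz' (hb hz')⟩
    have ht : z - c.vec (c.idx x) ∈ (a.e (c.p (c.idx x))).target := by
      refine c.sub _ ⟨?_, hb hz'⟩
      have h4 := dist_triangle (z - c.vec (c.idx x)) (a.e (c.p (c.idx x)) x)
        (a.e (c.p (c.idx x)) (c.p (c.idx x)))
      have h5 : dist (a.e (c.p (c.idx x)) x) (a.e (c.p (c.idx x)) (c.p (c.idx x))) <
        c.r (c.idx x) := (c.mem x).2
      have h6 : dist (z - c.vec (c.idx x)) (a.e (c.p (c.idx x)) x) < r := hz'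
      have h7 := hri (c.idx x)
      rw [mem_closedBall]
      linarith
    unfold Φ
    rw [h3, (a.e _).right_inv ht, sub_add_cancel]
  refine good_translate (w := c.vec (c.idx (S x))) hg (fun z hz => ⟨_, (key z hz).1⟩)
    fun z hz => ?_
  have h4 := hf ((a.e (c.p (c.idx x))).symm (z - c.vec (c.idx x)))
  rw [(key z hz).1] at h4
  rw [h4]
  unfold Φ
  rw [(key z hz).2]
  rfl

theorem meas_edge : ∃ k : ℝ, 0 ≤ k ∧ ∀ r, 0 < r →
    ν (⋃ i, c.Edge i r) ≤ ENNReal.ofReal (k * r) := by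
  obtain ⟨k, hk0, hk⟩ := c.up
  choose l hl0 hl using fun i =>
    vol_convex_shell a.cvx a.int (‖a.e (c.p i) (c.p i)‖ + 2 * c.r i)
  refine ⟨∑ i, k * l i, Finset.sum_nonneg fun i _ => mul_nonneg hk0 (hl0 i), fun r hr => ?_⟩
  refine (measure_iUnion_fintype_le _ _).trans ?_
  rw [Finset.sum_mul, ENNReal.ofReal_sum_of_nonneg
    fun i _ => mul_nonneg (mul_nonneg hk0 (hl0 i)) hr.le]
  refine Finset.sum_le_sum fun i _ => ?_
  rw [mul_assoc, ENNReal.ofReal_mul hk0]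
  refine le_trans (measure_mono ?_) ((hk i _).trans (mul_le_mul_right (hl i r hr) _))
  rintro x ⟨h1, h2, h3⟩
  refine ⟨h1, ⟨tgt_sub a _ ((a.e _).map_source h1), ?_, h2⟩, h3⟩
  rw [mem_closedBall, dist_eq_norm] at h3
  have := norm_add_le (a.e (c.p i) x - a.e (c.p i) (c.p i)) (a.e (c.p i) (c.p i))
  rw [sub_add_cancel] at this
  linarith

theorem meas_shell (hd : 0 < d) : ∃ k : ℝ, 0 ≤ k ∧ ∀ s, 0 < s → (∀ i, s ≤ c.r i) →
    ν (⋃ i, c.Shell i s) ≤ ENNReal.ofReal (k * s) := by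
  obtain ⟨k, hk0, hk⟩ := c.up
  choose l hl0 hl using fun i => vol_sphere_shell hd (a.e (c.p i) (c.p i)) (c.pos i)
  refine ⟨∑ i, k * l i, Finset.sum_nonneg fun i _ => mul_nonneg hk0 (hl0 i), fun s hs hs' => ?_⟩
  refine (measure_iUnion_fintype_le _ _).trans ?_
  rw [Finset.sum_mul, ENNReal.ofReal_sum_of_nonneg
    fun i _ => mul_nonneg (mul_nonneg hk0 (hl0 i)) hs.le]
  refine Finset.sum_le_sum fun i _ => ?_
  rw [mul_assoc, ENNReal.ofReal_mul hk0]
  refine le_trans (measure_mono ?_) ((hk i _).trans (mul_le_mul_right (hl i s hs (hs' i)) _))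
  rintro x ⟨h1, h2⟩
  refine ⟨h1, h2, ?_⟩
  have h2' : |‖a.e (c.p i) x - a.e (c.p i) (c.p i)‖ - c.r i| ≤ s := h2
  have h3 := (abs_le.1 h2').2
  have h4 := hs' i
  rw [mem_closedBall, dist_eq_norm]
  linarith

theorem meas_bad [T2Space M] [IsProbabilityMeasure ν] (hd : 0 < d)
    (hS : MeasurePreserving S ν ν) {f : E d → E d} (hf : ∀ x, f (c.Φ x) = c.Φ (S x)) :
    ∀ᶠ C : ℝ in atTop, ∀ r, 0 < r →
      ν {x | ¬ Good f (range c.Φ) C r (c.Φ x)} ≤ ENNReal.ofReal (C * r) := by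
  obtain ⟨k1, hk1, h1⟩ := c.meas_edge
  obtain ⟨k2, hk2, h2⟩ := c.meas_shell hd
  obtain ⟨L, hL, hL0⟩ := ((c.good hf).and (eventually_gt_atTop 0)).exists
  have hr : ∀ᶠ C : ℝ in atTop, ∀ i, L * (c.r i)⁻¹ ≤ C :=
    eventually_all.2 fun i => eventually_ge_atTop _
  filter_upwards [hr, eventually_ge_atTop L, eventually_ge_atTop (k1 + 2 * (k2 * L))]
    with C hC1 hC2 hC3 r hr
  by_cases h : 1 ≤ C * r
  · exact prob_le_one.trans (ENNReal.one_le_ofReal.2 h)
  rw [not_le] at h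
  have hrL : r ≤ L⁻¹ := by
    rw [← one_div, le_div_iff₀ hL0]
    nlinarith
  have hs : ∀ i, L * r ≤ c.r i := by
    intro i
    have h3 := hC1 i
    have h4 := c.pos i
    rw [← div_eq_mul_inv, div_le_iff₀ h4] at h3
    nlinarith
  have hsh := h2 (L * r) (mul_pos hL0 hr) hs
  have hsub : {x | ¬ Good f (range c.Φ) C r (c.Φ x)} ⊆
      (⋃ i, c.Edge i r) ∪ ((⋃ i, c.Shell i (L * r)) ∪ S ⁻¹' ⋃ i, c.Shell i (L * r)) := by
    intro x hx
    by_contra hn
    simp only [mem_union, mem_preimage, mem_iUnion, not_or, not_exists] at hn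
    exact hx (good_mono (hL r hrL x hn.1 hn.2.1 hn.2.2) hC2)
  have hnn : 0 ≤ k2 * (L * r) := by positivity
  calc ν {x | ¬ Good f (range c.Φ) C r (c.Φ x)} ≤ _ := measure_mono hsub
    _ ≤ ν (⋃ i, c.Edge i r) + (ν (⋃ i, c.Shell i (L * r)) + ν (S ⁻¹' ⋃ i, c.Shell i (L * r))) :=
        (measure_union_le _ _).trans (add_le_add le_rfl (measure_union_le _ _))
    _ ≤ ENNReal.ofReal (k1 * r) +
        (ENNReal.ofReal (k2 * (L * r)) + ENNReal.ofReal (k2 * (L * r))) :=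
        add_le_add (h1 r hr) (add_le_add hsh ((hS.measure_preimage_le _).trans hsh))
    _ ≤ ENNReal.ofReal (C * r) := by
        rw [← ENNReal.ofReal_add hnn hnn, ← ENNReal.ofReal_add (by positivity) (by positivity)]
        refine ENNReal.ofReal_le_ofReal ?_
        nlinarith

end Cov

end Reduce

theorem exists_PM {d : ℕ} (hd : 0 < d) {M : Type} [TopologicalSpace M] [T2Space M]
    [CompactSpace M] [MeasurableSpace M] [BorelSpace M] {ν : Measure M} [IsProbabilityMeasure ν]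
    {S : M → M} (hS : MeasurePreserving S ν ν) (a : Atl d ν S) :
    ∃ (C : ℝ) (Z : PM d C) (Φ : M → E d), MeasurableEmbedding Φ ∧
      (∀ p, Φ (S p) = Z.f (Φ p)) ∧ ν.map Φ = Z.ν := by
  obtain ⟨c⟩ := Reduce.exists_cov a
  have he := c.emb hd
  set f : E d → E d := Function.extend c.Φ (c.Φ ∘ S) 0 with hfdef
  have hf : ∀ x, f (c.Φ x) = c.Φ (S x) := fun x => he.injective.extend_apply _ _ x
  have hfm : Measurable f :=
    he.measurable_extend (he.measurable.comp hS.measurable) measurable_const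
  obtain ⟨k1, h1⟩ := c.le_vol
  obtain ⟨k2, h2⟩ := c.vol_le hd
  obtain ⟨C, h3, hC1, hC2, hC3⟩ := ((c.meas_bad hd hS hf).and ((eventually_ge_atTop k1).and
    ((eventually_ge_atTop k2).and (eventually_ge_atTop (2 * (c.n : ℝ) + 1))))).exists
  refine ⟨C, ⟨ν.map c.Φ, f, range c.Φ, Measure.isProbabilityMeasure_map he.measurable.aemeasurable,
    ⟨hfm, ?_⟩, ?_, fun A _ => ?_, fun A hA hAm => ?_, fun r hr => ?_⟩, c.Φ, he,
    fun p => (hf p).symm, rfl⟩
  · rw [Measure.map_map hfm he.measurable]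
    have : f ∘ c.Φ = c.Φ ∘ S := funext hf
    rw [this, ← Measure.map_map he.measurable hS.measurable, hS.map_eq]
  · rintro _ ⟨x, rfl⟩
    exact (c.norm_le x).trans hC3
  · rw [he.map_apply]
    exact (h1 A).trans (mul_le_mul_left (ENNReal.ofReal_le_ofReal hC1) _)
  · rw [he.map_apply]
    exact (h2 A hA hAm).trans (mul_le_mul_left (ENNReal.ofReal_le_ofReal hC2) _)
  · rw [he.map_apply]
    exact h3 r hr

end Vale.Agent.P109
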