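import Vale.Agent.P109.Atlas
import Vale.Agent.P109.Reduce

/-! P109: a smooth model gives a joint system. -/

namespace Vale.Agent.P109

open MeasureTheory Set Metric Filter Topology
open scoped ENNReal Pointwise

namespace Lift

/-- Enlarging the constant of a piecewise smooth model. -/
def mono {d : ℕ} {C C' : ℝ} (Z : PM d C) (h : C ≤ C') : PM d C' where
  ν := Z.ν
  f := Z.f
  U := Z.U
  prob := Z.prob
  pres := Z.pres
  bdd := fun x hx => (Z.bdd x hx).trans h
  le := fun A hA => (Z.le A hA).trans (mul_le_mul_left (ENNReal.ofReal_le_ofReal h) _)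
  ge := fun A hU hA => (Z.ge A hU hA).trans (mul_le_mul_left (ENNReal.ofReal_le_ofReal h) _)
  bad := fun r hr => by
    refine le_trans (measure_mono fun x hx hg => hx (Reduce.good_mono hg h)) ((Z.bad r hr).trans ?_)
    exact ENNReal.ofReal_le_ofReal (mul_le_mul_of_nonneg_right h hr.le)

/-- The tower structure lifted to a graph. -/
def adic {b D : ℕ → ℕ} {F : Fam b D} {X Y : Type} [MeasurableSpace X] [MeasurableSpace Y]
    {μ : Measure X} {T : X → X} (Ad : Adic F μ T) {g : X → Y} (hg : Measurable g) (f : Y → Y) :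
    Adic F (μ.map fun x => (x, g x)) (Prod.map T f) where
  pos := fun n ω => Ad.pos n ω.1
  w := fun n ω => Ad.w n ω.1
  meas_pos := fun n => (Ad.meas_pos n).comp measurable_fst
  meas_w := fun n => (Ad.meas_w n).comp measurable_fst
  pos_lt := fun n ω => Ad.pos_lt n ω.1
  pos_T := fun n ω => Ad.pos_T n ω.1
  w_T := fun n ω => Ad.w_T n ω.1
  pos_succ := fun n ω => Ad.pos_succ n ω.1
  w_succ := fun n ω => Ad.w_succ n ω.1
  unif := fun n p y hp => by
    rw [Measure.map_apply (measurable_id'.prodMk hg)]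
    · exact Ad.unif n p y hp
    · exact (((Ad.meas_pos n).comp measurable_fst) (measurableSet_singleton p)).inter
        (((Ad.meas_w n).comp measurable_fst) (measurableSet_singleton y))

theorem sep {d : ℕ} {K K' : Set (E d)} (hK : IsCompact K) (hK' : IsCompact K')
    (h : Disjoint K K') : ∀ᶠ C : ℕ in atTop, ∀ x ∈ K, ∀ x' ∈ K', (C : ℝ)⁻¹ ≤ ‖x - x'‖ := by
  obtain ⟨δ, hδ, hd⟩ := h.exists_thickenings hK hK'.isClosed
  filter_upwards [tendsto_natCast_atTop_atTop.eventually (eventually_ge_atTop δ⁻¹)]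
    with C hC x hx x' hx'
  refine (inv_le_of_inv_le₀ hδ hC).trans ?_
  by_contra hlt
  rw [not_le, ← dist_eq_norm] at hlt
  exact Set.disjoint_left.1 hd (self_subset_thickening hδ _ hx)
    (mem_thickening_iff.2 ⟨x', hx', hlt⟩)

end Lift

theorem exists_joint {b D : ℕ → ℕ} {F : Fam b D} {X : Type} [MeasurableSpace X]
    {μ : Measure X} [IsProbabilityMeasure μ] (hna : ∀ x, μ {x} = 0) {T : X → X}
    (hT : MeasurePreserving T μ μ) (Ad : Adic F μ T) (h : HasSmoothModel μ T) :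
    ∃ d C : ℕ, 2 ≤ C ∧ ∃ (Ω : Type) (_ : MeasurableSpace Ω), Nonempty (Joint d (C : ℝ) F Ω) := by
  obtain ⟨d, H, _, I, M, _, _, _, _, _, _, _, ν, S, Fm, G, hν, hρ, hS, hF, hG, hmap, hGF, -,
    hTS⟩ := h
  obtain ⟨a⟩ := exists_atl I ν S hρ
  rcases Nat.eq_zero_or_pos d with rfl | hd
  · exfalso
    obtain ⟨p⟩ : Nonempty M := nonempty_of_isProbabilityMeasure ν
    refine a.atom p ?_
    rw [← hmap, Measure.map_apply_of_aemeasurable hF (measurableSet_singleton p)]
    refine le_antisymm (le_trans (measure_mono_ae ?_) (hna (G p)).le) zero_le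
    filter_upwards [hGF] with x hx hp
    have hp' : Fm x = p := hp
    rw [hp'] at hx
    exact hx.symm
  obtain ⟨C0, Z, Φ, hΦ, hΦS, hΦν⟩ := exists_PM hd hS a
  have := Z.prob
  set F' := hF.mk Fm with hF'
  set G' := hG.mk G with hG'
  have hF'm : Measurable F' := hF.measurable_mk
  have hG'm : Measurable G' := hG.measurable_mk
  have hFF : Fm =ᵐ[μ] F' := hF.ae_eq_mk
  have hGG : G =ᵐ[ν] G' := hG.ae_eq_mk
  have hmap' : μ.map F' = ν := by rw [← hmap, Measure.map_congr hFF]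
  have hg : Measurable fun x => Φ (F' x) := hΦ.measurable.comp hF'm
  have hgp : MeasurePreserving (fun x => Φ (F' x)) μ Z.ν :=
    MeasurePreserving.comp ⟨hΦ.measurable, hΦν⟩ ⟨hF'm, hmap'⟩
  have hι : Measurable fun x => (x, Φ (F' x)) := measurable_id.prodMk hg
  have hGF' : ∀ᵐ x ∂μ, G' (F' x) = x := by
    have h1 : ∀ᵐ x ∂μ, G (F' x) = G' (F' x) :=
      (MeasurePreserving.quasiMeasurePreserving ⟨hF'm, hmap'⟩).ae hGG
    filter_upwards [h1, hGF, hFF] with x h1 h2 h3
    rw [← h1, ← h3, h2]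
  have hTS' : ∀ᵐ x ∂μ, F' (T x) = S (F' x) := by
    filter_upwards [hT.quasiMeasurePreserving.ae hFF, hTS, hFF] with x h1 h2 h3
    rw [← h1, h2, h3]
  let L : Fin (2 ^ b 0) → Set (E d) := fun c => Φ '' (G' ⁻¹' (Ad.w 0 ⁻¹' {c}))
  have hLm : ∀ c, MeasurableSet (L c) := fun c =>
    hΦ.measurableSet_image.2 (hG'm (Ad.meas_w 0 (measurableSet_singleton c)))
  obtain ⟨ε, hε, hεs⟩ := ENNReal.exists_pos_sum_of_countable
    (show (10⁻¹ : ℝ≥0∞) ≠ 0 by simp) (Fin (2 ^ b 0))
  choose K hKL hKc hKm using fun c => (hLm c).exists_isCompact_sdiff_lt (μ := Z.ν)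
    (measure_ne_top _ _) (ε := ε c) (by exact_mod_cast (hε c).ne')
  have hsep : ∀ᶠ C : ℕ in atTop, ∀ c c', c ≠ c' → ∀ x ∈ K c, ∀ x' ∈ K c',
      (C : ℝ)⁻¹ ≤ ‖x - x'‖ := by
    refine eventually_all.2 fun c => eventually_all.2 fun c' => ?_
    by_cases hc : c = c'
    · exact Eventually.of_forall fun _ h => (h hc).elim
    have hdis : Disjoint (K c) (K c') := by
      refine Set.disjoint_left.2 fun x hx hx' => hc ?_
      obtain ⟨p, hp, rfl⟩ := hKL c hx
      obtain ⟨q, hq, hqp⟩ := hKL c' hx'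
      rw [hΦ.injective hqp] at hq
      exact (show Ad.w 0 (G' p) = c from hp).symm.trans hq
    filter_upwards [Lift.sep (hKc c) (hKc c') hdis] with C hC _
    exact hC
  obtain ⟨C, hC1, hC2, hC3⟩ := (hsep.and ((eventually_ge_atTop 2).and
    (tendsto_natCast_atTop_atTop.eventually (eventually_ge_atTop C0)))).exists
  have hTm : Measurable (Prod.map T Z.f) := hT.measurable.prodMap Z.pres.measurable
  refine ⟨d, C, hC2, X × E d, inferInstance, ⟨⟨μ.map fun x => (x, Φ (F' x)), Prod.map T Z.f,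
    Measure.isProbabilityMeasure_map hι.aemeasurable, ⟨hTm, ?_⟩, Lift.adic Ad hg Z.f,
    Lift.mono Z hC3, Prod.snd, ⟨measurable_snd, ?_⟩, fun ω => rfl, K,
    fun c => (hKc c).measurableSet, hC1, ?_⟩⟩⟩
  · rw [Measure.map_map hTm hι]
    have h1 : (Prod.map T Z.f ∘ fun x => (x, Φ (F' x))) =ᵐ[μ]
        (fun x => (x, Φ (F' x))) ∘ T := by
      filter_upwards [hTS'] with x hx
      simp only [Function.comp_apply, Prod.map_apply, hx, hΦS]
    rw [Measure.map_congr h1, ← Measure.map_map hι hT.measurable, hT.map_eq]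
  · rw [Measure.map_map measurable_snd hι]
    exact hgp.map_eq
  · have hm : MeasurableSet {ω : X × E d | ω.2 ∉ K (Ad.w 0 ω.1)} := by
      have : {ω : X × E d | ω.2 ∉ K (Ad.w 0 ω.1)} =
          ⋃ c, Prod.fst ⁻¹' (Ad.w 0 ⁻¹' {c}) ∩ Prod.snd ⁻¹' (K c)ᶜ := by
        ext ω
        simp
      rw [this]
      exact MeasurableSet.iUnion fun c =>
        (measurable_fst (Ad.meas_w 0 (measurableSet_singleton c))).inter
          (measurable_snd (hKc c).measurableSet.compl)
    change (μ.map fun x => (x, Φ (F' x))) {ω : X × E d | ω.2 ∉ K (Ad.w 0 ω.1)} ≤ 10⁻¹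
    rw [Measure.map_apply hι hm]
    calc μ ((fun x => (x, Φ (F' x))) ⁻¹' {ω : X × E d | ω.2 ∉ K (Ad.w 0 ω.1)})
        ≤ μ (⋃ c, (fun x => Φ (F' x)) ⁻¹' (L c \ K c)) := by
          refine measure_mono_ae ?_
          filter_upwards [hGF'] with x hx hn
          refine mem_iUnion.2 ⟨Ad.w 0 x, ⟨F' x, ?_, rfl⟩, hn⟩
          change Ad.w 0 (G' (F' x)) = Ad.w 0 x
          rw [hx]
      _ ≤ ∑' c, μ ((fun x => Φ (F' x)) ⁻¹' (L c \ K c)) := measure_iUnion_le _
      _ ≤ ∑' c, (ε c : ℝ≥0∞) :=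
          ENNReal.tsum_le_tsum fun c => (hgp.measure_preimage_le _).trans (hKm c).le
      _ ≤ 10⁻¹ := hεs.le

end Vale.Agent.P109
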