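import Vale.Agent.P109.Defs

/-! P109: the choice of the parameters. -/

namespace Vale.Agent.P109

namespace Params

variable (lam n₁ : ℕ → ℕ → ℕ)

/-- The end of the free stretch. -/
def fr (s : ℕ × ℕ × ℕ) : ℕ := max (n₁ s.1 s.2.1) (lam s.1 s.2.1) + 1

/-- The defect. -/
def df (n : ℕ) (s : ℕ × ℕ × ℕ) : ℕ := if n < fr lam n₁ s then 0 else 2 ^ (n - lam s.1 s.2.1)

/-- The change of epoch. -/
def adj (n : ℕ) (s : ℕ × ℕ × ℕ) : ℕ × ℕ × ℕ :=
  if fr lam n₁ s ≤ n ∧ s.2.2 ≤ 2 ^ (n - s.2.1 - 4) then (s.1 + 1, n, s.2.2) else s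

/-- The state. -/
def st : ℕ → ℕ × ℕ × ℕ
  | 0 => (0, 0, 1)
  | n + 1 => adj lam n₁ (n + 1) ((st n).1, (st n).2.1, 2 * (st n).2.2 - df lam n₁ n (st n))

theorem adj_b (n : ℕ) (s : ℕ × ℕ × ℕ) : (adj lam n₁ n s).2.2 = s.2.2 := by
  unfold adj
  split_ifs <;> rfl

variable {lam} (h : ∀ k n₀, n₀ + 7 ≤ lam k n₀)

include h

theorem small (n : ℕ) : 8 * df lam n₁ n (st lam n₁ n) ≤ (st lam n₁ n).2.2 := by
  have key : ∀ s : ℕ × ℕ × ℕ, (fr lam n₁ s ≤ n → 2 ^ (n - s.2.1 - 4) < s.2.2) →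
      8 * df lam n₁ n s ≤ s.2.2 := fun s hs => by
    unfold df
    split_ifs with h1
    · simp
    · have h2 := h s.1 s.2.1
      refine le_trans ?_ (hs (not_lt.1 h1)).le
      rw [show 8 = 2 ^ 3 from rfl, ← pow_add]
      unfold fr at h1
      exact Nat.pow_le_pow_right two_pos (by omega)
  refine key _ ?_
  cases n with
  | zero => simp [fr]
  | succ n =>
    rw [st, adj]
    split_ifs with h1
    · have := h ((st lam n₁ n).1 + 1) (n + 1)
      simp only [fr]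
      omega
    · exact fun h2 => not_le.1 fun h3 => h1 ⟨h2, h3⟩

theorem step (n : ℕ) : (st lam n₁ (n + 1)).2.2 + df lam n₁ n (st lam n₁ n) =
    2 * (st lam n₁ n).2.2 := by
  have := small n₁ h n
  rw [st, adj_b]
  simp only
  omega

theorem epoch {k n₀ : ℕ} (h1 : (st lam n₁ n₀).1 = k) (h2 : (st lam n₁ n₀).2.1 = n₀) :
    ∃ n'', max (n₁ k n₀) (lam k n₀) + 1 ≤ n'' ∧ (st lam n₁ n'').2.2 ≤ 2 ^ (n'' - n₀ - 4) ∧
      (st lam n₁ n'').1 = k + 1 ∧ (st lam n₁ n'').2.1 = n'' ∧ ∀ n, n₀ ≤ n → n < n'' →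
        (st lam n₁ n).1 = k ∧ (st lam n₁ n).2.1 = n₀ ∧
          (max (n₁ k n₀) (lam k n₀) + 1 ≤ n → 2 ^ (n - n₀ - 4) < (st lam n₁ n).2.2) := by
  have h0 := h k n₀
  have stay : ∀ n, n₀ ≤ n → (∀ m, max (n₁ k n₀) (lam k n₀) + 1 ≤ m → m ≤ n →
      2 ^ (m - n₀ - 4) < (st lam n₁ m).2.2) → (st lam n₁ n).1 = k ∧ (st lam n₁ n).2.1 = n₀ := by
    intro n hn
    induction n, hn using Nat.le_induction with
    | base => exact fun _ => ⟨h1, h2⟩
    | succ n _ ih =>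
      intro hm
      obtain ⟨e1, e2⟩ := ih fun m a b => hm m a (by omega)
      have h3 := hm (n + 1)
      rw [st, adj_b] at h3
      rw [st, adj, if_neg]
      · exact ⟨e1, e2⟩
      · simp only [fr, e1, e2]
        exact fun h4 => (h3 h4.1 le_rfl).not_ge h4.2
  have ex : ∃ n, max (n₁ k n₀) (lam k n₀) + 1 ≤ n ∧ (st lam n₁ n).2.2 ≤ 2 ^ (n - n₀ - 4) := by
    by_contra hc
    push Not at hc
    obtain ⟨n', hn'⟩ : ∃ n', n' = max (n₁ k n₀) (lam k n₀) + 1 := ⟨_, rfl⟩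
    have inv : ∀ j, 2 * (st lam n₁ (n' + j)).2.2 + j * 2 ^ j ≤ 2 ^ j * (2 * (st lam n₁ n').2.2) := by
      intro j
      induction j with
      | zero => simp
      | succ j ih =>
        obtain ⟨e1, e2⟩ := stay (n' + j) (by omega) fun m a _ => hc m a
        have h3 := step n₁ h (n' + j)
        rw [df, if_neg (by simp only [fr, e1, e2]; omega), e1, e2] at h3
        have h4 : 2 ^ j ≤ 2 ^ (n' + j - lam k n₀) := Nat.pow_le_pow_right two_pos (by omega)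
        rw [← add_assoc, pow_succ]
        nlinarith
    have := inv (2 * (st lam n₁ n').2.2 + 1)
    nlinarith [Nat.two_pow_pos (2 * (st lam n₁ n').2.2 + 1)]
  classical
  have hs := Nat.find_spec ex
  have hm : ∀ m, m < Nat.find ex → max (n₁ k n₀) (lam k n₀) + 1 ≤ m →
      2 ^ (m - n₀ - 4) < (st lam n₁ m).2.2 := fun m a b =>
    not_le.1 fun c => Nat.find_min ex a ⟨b, c⟩
  generalize Nat.find ex = n'' at hs hm
  obtain ⟨n, rfl⟩ : ∃ n, n'' = n + 1 := ⟨n'' - 1, by omega⟩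
  obtain ⟨e1, e2⟩ := stay n (by omega) fun m a b => hm m (by omega) a
  refine ⟨n + 1, hs.1, hs.2, ?_⟩
  have h3 := hs.2
  rw [st, adj_b] at h3
  rw [← and_assoc]
  refine ⟨?_, fun m a b => ?_⟩
  · rw [st, adj, if_pos]
    · exact ⟨congrArg (· + 1) e1, rfl⟩
    · simp only [fr, e1, e2]
      exact ⟨hs.1, by simpa only [e1, e2] using h3⟩
  · obtain ⟨e3, e4⟩ := stay m a fun j c d => hm j (by omega) c
    exact ⟨e3, e4, hm m b⟩

theorem start (k : ℕ) : ∃ n₀, k ≤ n₀ ∧ (st lam n₁ n₀).1 = k ∧ (st lam n₁ n₀).2.1 = n₀ := by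
  induction k with
  | zero => exact ⟨0, le_rfl, rfl, rfl⟩
  | succ k ih =>
    obtain ⟨n₀, a, b, c⟩ := ih
    obtain ⟨n, d, -, e, f, -⟩ := epoch n₁ h b c
    have := h k n₀
    exact ⟨n, by omega, e, f⟩

end Params

theorem exists_params (lam n₁ : ℕ → ℕ → ℕ) (h : ∀ k n₀, n₀ + 7 ≤ lam k n₀) :
    ∃ b D : ℕ → ℕ, b 0 = 1 ∧ (∀ n, 1 ≤ b n) ∧ (∀ n, b (n + 1) + D n = 2 * b n) ∧
      (∀ n, 6 * D n ≤ b n) ∧ (∀ N, ∃ n, N ≤ n ∧ D n = 0) ∧
      ∀ k, ∃ n₀ n' n'', n₁ k n₀ ≤ n' ∧ n₀ ≤ n' ∧ n' ≤ n'' ∧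
        (∀ j, n₀ ≤ j → j < n' → D j = 0) ∧
        (∀ n, n' ≤ n → n < n'' → D n = 2 ^ (n - lam k n₀) ∧ 2 ^ (n - n₀ - 4) ≤ b n) ∧
        b n'' ≤ 2 ^ (n'' - n₀ - 4) := by
  refine ⟨fun n => (Params.st lam n₁ n).2.2, fun n => Params.df lam n₁ n (Params.st lam n₁ n), rfl,
    fun n => ?_, Params.step n₁ h, fun n => ?_, fun N => ?_, fun k => ?_⟩
  · induction n with
    | zero => exact le_rfl
    | succ n ih =>
      have := Params.small n₁ h n
      have := Params.step n₁ h n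
      beta_reduce at ih ⊢
      omega
  · have := Params.small n₁ h n
    beta_reduce
    omega
  · obtain ⟨n, a, b, c⟩ := Params.start n₁ h N
    have := h N n
    exact ⟨n, a, if_pos (by simp only [Params.fr, b, c]; omega)⟩
  · obtain ⟨n₀, -, b, c⟩ := Params.start n₁ h k
    obtain ⟨n, d, e, -, -, f⟩ := Params.epoch n₁ h b c
    have := h k n₀
    refine ⟨n₀, _, n, by omega, by omega, d, fun j a g => ?_, fun j a g => ?_, e⟩
    · obtain ⟨e1, e2, -⟩ := f j a (by omega)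
      exact if_pos (by simpa only [Params.fr, e1, e2] using g)
    · obtain ⟨e1, e2, e3⟩ := f j (by omega) g
      refine ⟨?_, (e3 a).le⟩
      beta_reduce
      rw [Params.df, if_neg (by simp only [Params.fr, e1, e2]; omega), e1, e2]

end Vale.Agent.P109
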