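import Vale.Agent.P109.Convex
import Vale.Agent.P109.ChainVol
import Vale.Agent.P109.Local

/-! P109: common lemmas for the two bounds on double names. -/

namespace Vale.Agent.P109.RectAux

open MeasureTheory Set Metric Filter Topology
open scoped ENNReal Pointwise

variable {d : ℕ} {C : ℝ} (Z : PM d C)

/-- The base points of the spliced chain. -/
noncomputable def base (τ m : ℕ) (x x' : E d) : ℕ → E d :=
  fun j => if j < m then Z.f^[j * τ] x else Z.f^[(j - m) * τ] x'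

theorem spl_eq (τ m : ℕ) (x x' : E d) (j : ℕ) :
    spl m (Z.ch τ x) (Z.ch τ x') j = Z.co τ (base Z τ m x x' j) := by
  unfold spl base PM.ch
  split_ifs <;> rfl

theorem good_block {τ m : ℕ} {x : E d} (hx : Z.GoodO τ (m * τ) x) {j : ℕ} (hj : j < m) :
    ∀ i ≤ τ, Good Z.f Z.U C ((C ^ τ)⁻¹ ^ 18) (Z.f^[i] (Z.f^[j * τ] x)) := by
  intro i hi
  rw [← Function.iterate_add_apply]
  apply hx
  have : (j + 1) * τ ≤ m * τ := Nat.mul_le_mul_right τ hj
  nlinarith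

theorem base_good {τ m : ℕ} {x x' : E d} (hx : Z.Rep τ m x) (hx' : Z.Rep τ m x') {j : ℕ}
    (hj : j < m + m) : ∀ i ≤ τ, Good Z.f Z.U C ((C ^ τ)⁻¹ ^ 18) (Z.f^[i] (base Z τ m x x' j)) := by
  unfold base
  split_ifs with h
  · exact good_block Z hx.1 h
  · exact good_block Z hx'.1 (by omega)

theorem iter_succ (τ j : ℕ) (x : E d) : Z.f^[(j + 1) * τ] x = Z.f^[τ] (Z.f^[j * τ] x) := by
  rw [← Function.iterate_add_apply]
  congr 1
  ring

theorem iter_add (τ m j : ℕ) (x : E d) :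
    Z.f^[(m + j) * τ] x = Z.f^[j * τ] (Z.f^[m * τ] x) := by
  rw [← Function.iterate_add_apply]
  congr 1
  ring

theorem near_of_nm (hC : 2 ≤ C) {τ m : ℕ} {x z : E d} (h : Z.nm τ m x = Z.nm τ m z) {j : ℕ}
    (hj : j ≤ m) : ‖Z.f^[j * τ] z - Z.f^[j * τ] x‖ ≤ (C ^ τ)⁻¹ ^ 20 := by
  have hpos : (0 : ℝ) < (C ^ τ)⁻¹ ^ 20 := by positivity
  apply norm_sub_le_of_cell_eq hpos
  have := congrFun h ⟨j, Nat.lt_succ_of_le hj⟩
  exact this.symm

theorem exists_pert (hC : 2 ≤ C) {τ m : ℕ} {x x' : E d} (hx : Z.Rep τ m x) (hx' : Z.Rep τ m x')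
    (p : ℕ → E d) {s0 s1 : ℝ} (hp : ∀ j < m + m, ‖p j - base Z τ m x x' j‖ ≤ s0) (hs0 : 0 ≤ s0)
    (hs1 : 0 ≤ s1) (hs : C ^ τ * (s0 + s1) < (C ^ τ)⁻¹ ^ 18) :
    ∃ h : ℕ → E d → E d, (∀ j u v, ‖h j u - h j v‖ ≤ (C ^ τ) ^ 2 * (s0 + s1) * ‖u - v‖) ∧
      ∀ j < m + m, ∀ u, ‖u‖ ≤ s1 →
        spl m (Z.ch τ x) (Z.ch τ x') j u + h j u = Z.f^[τ] (p j + u) - p (j + 1) := by
  obtain ⟨c, hc1, hc2, hc3⟩ := exists_clamp (d := d) hs1
  refine ⟨fun j u => if j < m + m then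
    Z.f^[τ] (p j + c u) - p (j + 1) - spl m (Z.ch τ x) (Z.ch τ x') j (c u) else 0, ?_, ?_⟩
  · intro j u v
    have hnn : 0 ≤ (C ^ τ) ^ 2 * (s0 + s1) := by positivity
    by_cases hj : j < m + m
    · simp only [if_pos hj]
      have hb : ∀ w : E d, ‖p j + c w - base Z τ m x x' j‖ ≤ s0 + s1 := by
        intro w
        have e : p j + c w - base Z τ m x x' j = (p j - base Z τ m x x' j) + c w := by abel
        rw [e]
        exact (norm_add_le _ _).trans (add_le_add (hp j hj) (hc1 w))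
      have h1 := Z.lin_iter hC (base_good Z hx hx' hj) hs (hb u) (hb v)
      have e1 : p j + c u - (p j + c v) = c u - c v := by abel
      rw [e1] at h1
      have e2 : Z.f^[τ] (p j + c u) - p (j + 1) - spl m (Z.ch τ x) (Z.ch τ x') j (c u) -
          (Z.f^[τ] (p j + c v) - p (j + 1) - spl m (Z.ch τ x) (Z.ch τ x') j (c v)) =
          Z.f^[τ] (p j + c u) - Z.f^[τ] (p j + c v) -
            Z.co τ (base Z τ m x x' j) (c u - c v) := by
        rw [spl_eq, map_sub]; abel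
      rw [e2]
      exact h1.trans (mul_le_mul_of_nonneg_left (hc3 u v) hnn)
    · simp only [if_neg hj, sub_zero, norm_zero]
      positivity
  · intro j hj u hu
    simp only [if_pos hj, hc2 u hu]
    abel

theorem orb_eq {τ N : ℕ} {g : ℕ → E d → E d} {p : ℕ → E d} {s : ℝ}
    (hg : ∀ j < N, ∀ u, ‖u‖ ≤ s → g j u = Z.f^[τ] (p j + u) - p (j + 1)) {y : E d}
    (hy : ∀ j < N, orb g (y - p 0) j = Z.f^[j * τ] y - p j → ‖orb g (y - p 0) j‖ ≤ s) :
    ∀ j ≤ N, orb g (y - p 0) j = Z.f^[j * τ] y - p j := by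
  intro j
  induction j with
  | zero => intro _; simp [orb]
  | succ j ih =>
    intro hj
    have h1 := ih (by omega)
    have h2 := hy j (by omega) h1
    change g j (orb g (y - p 0) j) = _
    rw [hg j (by omega) _ h2, h1, iter_succ]
    congr 2
    abel

theorem vol_Bl_spl (A B : ℕ → E d →L[ℝ] E d) (m : ℕ) {r : ℝ} (hr : 0 < r) :
    volume (Bl (spl m A B) (m + m) r) =
      ENNReal.ofReal (r ^ d) * volume (Bl A m 1 ∩ pp A m ⁻¹' Bl B m 1) := by
  rw [Bl_smul _ _ hr, Bl_spl, Measure.addHaar_smul]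
  congr 2
  rw [abs_of_nonneg (by positivity)]
  simp

theorem meas_nm (τ m : ℕ) (P : Nm d m → Prop) (Q : Nm d m → Prop) :
    MeasurableSet {y | P (Z.nm τ m y) ∧ Q (Z.nm τ m (Z.f^[m * τ] y))} := by
  have h1 : MeasurableSet {a : Nm d m | P a} := (Set.to_countable _).measurableSet
  have h2 : MeasurableSet {a : Nm d m | Q a} := (Set.to_countable _).measurableSet
  exact (Z.measurable_nm τ m h1).inter
    (((Z.measurable_nm τ m).comp (Z.pres.measurable.iterate (m * τ))) h2)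

theorem smul_mem_Bl {A : ℕ → E d →L[ℝ] E d} {N : ℕ} {r c : ℝ} {u : E d}
    (hu : ∀ j ≤ N, ‖pp A j u‖ ≤ r) (hc : |c| * r ≤ 1) : c • u ∈ Bl A N 1 := by
  intro j hj
  rw [map_smul, norm_smul, Real.norm_eq_abs]
  exact (mul_le_mul_of_nonneg_left (hu j hj) (abs_nonneg c)).trans hc

end Vale.Agent.P109.RectAux
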