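import Vale.Agent.P109.Convex
import Vale.Agent.P109.ChainVol
import Vale.Agent.P109.Local
import Vale.Agent.P109.RectAux

/-! P109: the lower bound for the measure of an enlarged double name. -/

namespace Vale.Agent.P109

open MeasureTheory Set Metric Filter Topology
open scoped ENNReal Pointwise

variable {d : ℕ}

namespace RectLow

theorem arith {Y : ℝ} {m d c : ℕ} (hm : 0 < m)
    (hY : 12 * ((m : ℝ) + 1) * (d + 1) * (2 * c + 5) ≤ Y) :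
    Y * (0 + (2 * ((c : ℝ) * Y⁻¹ ^ 20) + 5 * Y⁻¹ ^ 20)) < Y⁻¹ ^ 18 ∧
    2 * ((c : ℝ) * Y⁻¹ ^ 20) + 5 * Y⁻¹ ^ 20 < Y⁻¹ ^ 18 ∧
    (Y ^ 3 + 2 * Y ^ 3 / Y⁻¹ ^ 4) * ((m + m : ℕ) : ℝ) * d *
      (Y ^ 2 * (0 + (2 * ((c : ℝ) * Y⁻¹ ^ 20) + 5 * Y⁻¹ ^ 20))) ≤ 1 / 2 := by
  have hm0 : (1 : ℝ) ≤ m := by exact_mod_cast hm
  have hd : (0 : ℝ) ≤ d := Nat.cast_nonneg d
  have hc : (0 : ℝ) ≤ c := Nat.cast_nonneg c
  have hmd : 0 ≤ (m : ℝ) * d := by positivity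
  have h1 : 12 * ((m : ℝ) * d) * (2 * c + 5) ≤ Y := by
    refine le_trans ?_ hY
    apply mul_le_mul_of_nonneg_right _ (by positivity)
    nlinarith
  have h2 : 12 * (2 * (c : ℝ) + 5) ≤ Y := by
    refine le_trans ?_ hY
    apply mul_le_mul_of_nonneg_right _ (by positivity)
    nlinarith
  have h0 : 0 < Y := by nlinarith
  have hY1 : 1 ≤ Y := by nlinarith
  have hi0 : 0 < Y⁻¹ := inv_pos.2 h0
  have hi1 : Y⁻¹ ≤ 1 := inv_le_one_of_one_le₀ hY1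
  have h3 : (2 * (c : ℝ) + 5) * Y⁻¹ ≤ 1 / 12 := by
    rw [mul_inv_le_iff₀ h0]; linarith
  have h4 : ((m : ℝ) * d) * (2 * c + 5) * Y⁻¹ ≤ 1 / 12 := by
    rw [mul_inv_le_iff₀ h0]; linarith
  have h18 : 0 < Y⁻¹ ^ 18 := pow_pos hi0 18
  have hA : Y * (0 + (2 * ((c : ℝ) * Y⁻¹ ^ 20) + 5 * Y⁻¹ ^ 20)) < Y⁻¹ ^ 18 := by
    have e : Y * (0 + (2 * ((c : ℝ) * Y⁻¹ ^ 20) + 5 * Y⁻¹ ^ 20)) =
        ((2 * (c : ℝ) + 5) * Y⁻¹) * Y⁻¹ ^ 18 := by
      field_simp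
      ring
    rw [e]
    nlinarith
  refine ⟨hA, ?_, ?_⟩
  · have h5 : 0 ≤ 2 * ((c : ℝ) * Y⁻¹ ^ 20) + 5 * Y⁻¹ ^ 20 := by positivity
    nlinarith
  · have e : (Y ^ 3 + 2 * Y ^ 3 / Y⁻¹ ^ 4) * ((m + m : ℕ) : ℝ) * d *
        (Y ^ 2 * (0 + (2 * ((c : ℝ) * Y⁻¹ ^ 20) + 5 * Y⁻¹ ^ 20))) =
        (2 * Y⁻¹ ^ 14 + 4 * Y⁻¹ ^ 10) * (((m : ℝ) * d) * (2 * c + 5) * Y⁻¹) := by
      push_cast
      field_simp
      ring
    rw [e]
    have h6 : Y⁻¹ ^ 14 ≤ 1 := pow_le_one₀ hi0.le hi1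
    have h7 : Y⁻¹ ^ 10 ≤ 1 := pow_le_one₀ hi0.le hi1
    have h8 : 0 ≤ ((m : ℝ) * d) * (2 * c + 5) * Y⁻¹ := by positivity
    nlinarith

end RectLow

open RectAux in
theorem PM.rect_low {C : ℝ} (Z : PM d C) (hC : 2 ≤ C) {τ m c : ℕ} (hm : 0 < m)
    (hY : 12 * ((m : ℝ) + 1) * (d + 1) * (2 * c + 5) ≤ C ^ τ)
    {x x' : E d} (hx : Z.Rep τ m x) (hx' : Z.Rep τ m x')
    (hb : closedBall (0 : E d) ((C ^ τ)⁻¹ ^ 4) ⊆
      pp (Z.ch τ x) m '' Bl (Z.ch τ x) m 1 + Bl (Z.ch τ x') m 1)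
    (hj : x' - Z.f^[m * τ] x ∈ ((c : ℝ) * (C ^ τ)⁻¹ ^ 20) •
      (pp (Z.ch τ x) m '' Bl (Z.ch τ x) m 1 + Bl (Z.ch τ x') m 1)) :
    ENNReal.ofReal (((C ^ τ)⁻¹ ^ 20) ^ d) *
        volume (Bl (Z.ch τ x) m 1 ∩ pp (Z.ch τ x) m ⁻¹' Bl (Z.ch τ x') m 1) ≤
      ENNReal.ofReal (C * 2 ^ (d * (2 * m + 1))) *
        Z.ν {y | (∀ j i, |Z.nm τ m y j i - Z.nm τ m x j i| ≤ ((4 * c + 5 : ℕ) : ℤ)) ∧
          ∀ j i, |Z.nm τ m (Z.f^[m * τ] y) j i - Z.nm τ m x' j i| ≤ ((4 * c + 5 : ℕ) : ℤ)} := by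
  obtain ⟨a1, a2, a3⟩ := RectLow.arith hm hY
  have h0 : 0 < C ^ τ := by positivity
  have hσ : (0 : ℝ) < (C ^ τ)⁻¹ ^ 20 := by positivity
  have hρ : (0 : ℝ) < (C ^ τ)⁻¹ ^ 4 := by positivity
  have hR : (0 : ℝ) ≤ (c : ℝ) * (C ^ τ)⁻¹ ^ 20 := by positivity
  have hW := hx.2.splice hx'.2 hρ hb
  obtain ⟨g, hg1, hg2⟩ := exists_pert Z hC hx hx' (base Z τ m x x') (s0 := 0)
    (s1 := 2 * ((c : ℝ) * (C ^ τ)⁻¹ ^ 20) + 5 * (C ^ τ)⁻¹ ^ 20) (by simp) le_rfl (by positivity) a1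
  have hg0 : ∀ j < m + m, g j 0 = Z.f^[τ] (base Z τ m x x' j) - base Z τ m x x' (j + 1) := by
    intro j hj
    have := hg2 j hj 0 (by rw [norm_zero]; positivity)
    simpa using this
  obtain ⟨_, ⟨_, ⟨u, hu, rfl⟩, v, hv, rfl⟩, huv⟩ := hj
  simp only at huv
  set R : ℝ := (c : ℝ) * (C ^ τ)⁻¹ ^ 20 with hRdef
  have hsm : ∀ a : E d, ‖a‖ ≤ 1 → ‖R • a‖ ≤ R := by
    intro a ha
    rw [norm_smul, Real.norm_of_nonneg hR]
    exact mul_le_of_le_one_right hR ha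
  have hV := vol_Bl_le hW g (by positivity) hg1 a3 hσ
    (fun j => if j < m then R • pp (Z.ch τ x) j u else -(R • pp (Z.ch τ x') (j - m) v)) (R := R)
    (by
      intro j hj
      split_ifs with hjm
      · exact hsm _ (hu j hjm.le)
      · rw [norm_neg]; exact hsm _ (hv _ (by omega)))
    (by
      intro j hj
      rw [hg0 j hj]
      unfold base spl
      by_cases h1 : j + 1 < m
      · have h2 : j < m := by omega
        simp only [if_pos h1, if_pos h2, iter_succ, sub_self, add_zero, map_smul]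
        rfl
      · by_cases h2 : j < m
        · have e : j + 1 = m := by omega
          have e2 : pp (Z.ch τ x) m u = Z.ch τ x j (pp (Z.ch τ x) j u) := by rw [← e]; rfl
          have e3 : Z.f^[τ] (Z.f^[j * τ] x) = Z.f^[m * τ] x := by rw [← iter_succ, e]
          have e4 : j + 1 - m = 0 := by omega
          simp only [if_neg h1, if_pos h2, e4, e3, map_smul, ← e2, zero_mul, Function.iterate_zero,
            id_eq]
          have e5 : pp (Z.ch τ x') 0 v = v := rfl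
          rw [e5, ← neg_sub x', ← huv, smul_add]
          abel
        · have e4 : j + 1 - m = j - m + 1 := by omega
          simp only [if_neg h1, if_neg h2, e4, iter_succ, sub_self, add_zero, map_neg, map_smul]
          rfl)
  rw [vol_Bl_spl _ _ _ hσ] at hV
  have hjump : ‖x' - Z.f^[m * τ] x‖ ≤ 2 * R := by
    rw [← huv, smul_add]
    have h1 := hsm _ (hu m le_rfl)
    have h2 : ‖R • v‖ ≤ R := hsm _ (hv 0 (Nat.zero_le m))
    exact (norm_add_le _ _).trans (by linarith)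
  have hb0 : base Z τ m x x' 0 = x := by simp [base, hm]
  have hRc : 2 * R + 5 * (C ^ τ)⁻¹ ^ 20 + 2 * R = ((4 * c + 5 : ℕ) : ℝ) * (C ^ τ)⁻¹ ^ 20 := by
    rw [hRdef]; push_cast; ring
  set T := {y | (∀ j i, |Z.nm τ m y j i - Z.nm τ m x j i| ≤ ((4 * c + 5 : ℕ) : ℤ)) ∧
    ∀ j i, |Z.nm τ m (Z.f^[m * τ] y) j i - Z.nm τ m x' j i| ≤ ((4 * c + 5 : ℕ) : ℤ)} with hT
  have hTm : MeasurableSet T := meas_nm Z τ m
    (fun a => ∀ j i, |a j i - Z.nm τ m x j i| ≤ ((4 * c + 5 : ℕ) : ℤ))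
    (fun a => ∀ j i, |a j i - Z.nm τ m x' j i| ≤ ((4 * c + 5 : ℕ) : ℤ))
  have hsub : (fun y => y + -x) ⁻¹' Bd (fun j u => spl m (Z.ch τ x) (Z.ch τ x') j u + g j u) (m + m)
      (2 * R + 5 * (C ^ τ)⁻¹ ^ 20) ⊆ T ∩ ball x ((C ^ τ)⁻¹ ^ 18) := by
    intro y hy
    have hy' : ∀ j ≤ m + m, ‖orb (fun j u => spl m (Z.ch τ x) (Z.ch τ x') j u + g j u)
        (y - base Z τ m x x' 0) j‖ ≤ 2 * R + 5 * (C ^ τ)⁻¹ ^ 20 := by
      rw [hb0, sub_eq_add_neg]; exact hy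
    have ho := orb_eq Z (p := base Z τ m x x') (y := y) hg2 (fun j hj _ => hy' j hj.le)
    have hn : ∀ j ≤ m + m, ‖Z.f^[j * τ] y - base Z τ m x x' j‖ ≤
        2 * R + 5 * (C ^ τ)⁻¹ ^ 20 := fun j hj => by rw [← ho j hj]; exact hy' j hj
    have hn2 : ∀ j ≤ m, ‖Z.f^[j * τ] (Z.f^[m * τ] y) - Z.f^[j * τ] x'‖ ≤
        2 * R + 5 * (C ^ τ)⁻¹ ^ 20 := by
      intro j hj
      have := hn (m + j) (by omega)
      rw [iter_add] at this
      simpa [base] using this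
    refine ⟨⟨fun j i => abs_cell_sub_le hσ _ ?_ i, fun j i => abs_cell_sub_le hσ _ ?_ i⟩, ?_⟩
    · rw [← hRc]
      by_cases hjm : (j : ℕ) < m
      · have := hn j (by omega)
        simp only [base, if_pos hjm] at this
        linarith
      · have e : (j : ℕ) = m := by have := j.2; omega
        rw [e]
        have h1 := hn2 0 (Nat.zero_le m)
        simp only [zero_mul, Function.iterate_zero, id_eq] at h1
        have e2 : Z.f^[m * τ] y - Z.f^[m * τ] x = (Z.f^[m * τ] y - x') + (x' - Z.f^[m * τ] x) := by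
          abel
        rw [e2]
        exact (norm_add_le _ _).trans (add_le_add h1 hjump)
    · rw [← hRc]
      have := hn2 j (by have := j.2; omega)
      linarith
    · have := hn 0 (Nat.zero_le _)
      rw [hb0] at this
      simp only [zero_mul, Function.iterate_zero, id_eq] at this
      rw [mem_ball_iff_norm]
      exact this.trans_lt a2
  have hU : T ∩ ball x ((C ^ τ)⁻¹ ^ 18) ⊆ Z.U := inter_subset_right.trans (hx.1 0 (Nat.zero_le _)).1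
  have h1 := (measure_preimage_add_right volume (-x) _).ge.trans
    ((measure_mono (μ := volume) hsub).trans (Z.ge _ hU (hTm.inter measurableSet_ball)))
  have h2 : Z.ν (T ∩ ball x ((C ^ τ)⁻¹ ^ 18)) ≤ Z.ν T := measure_mono inter_subset_left
  refine hV.trans ((mul_le_mul_right (h1.trans (mul_le_mul_right h2 _)) _).trans (le_of_eq ?_))
  have hC0 : (0 : ℝ) ≤ C := by linarith
  rw [ENNReal.ofReal_mul hC0, ENNReal.ofReal_pow zero_le_two, ENNReal.ofReal_ofNat, two_mul]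
  ring

end Vale.Agent.P109
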