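import Vale.Agent.P109.Convex

/-! P109: a small family of bodies approximating all symmetric convex bodies. -/

namespace Vale.Agent.P109

open MeasureTheory Set Metric Filter Topology
open scoped ENNReal Pointwise Matrix

namespace Span

variable {d : ℕ}

/-- The linear map whose values on the basis vectors are the rows of a matrix. -/
noncomputable def rows (V : Matrix (Fin d) (Fin d) ℝ) : E d →L[ℝ] E d :=
  LinearMap.toContinuousLinearMap V.vecMulLinear

/-- The grid matrix with given integer coordinates. -/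
def grid (η : ℝ) (k : Fin d → Fin d → ℤ) : Matrix (Fin d) (Fin d) ℝ :=
  Matrix.of fun i j => η * k i j

theorem sum_mem {B : Set (E d)} (hB : SymCvx B) {ι : Type} (s : Finset ι) (x : ι → E d)
    (hx : ∀ i ∈ s, x i ∈ B) : ∑ i ∈ s, x i ∈ (s.card : ℝ) • B := by
  classical
  induction s using Finset.induction_on with
  | empty => exact ⟨0, hB.zero, by simp⟩
  | insert a s ha ih =>
    rw [Finset.sum_insert ha, Finset.card_insert_of_notMem ha, Nat.cast_succ,
      ← hB.smul_add_smul (Nat.cast_nonneg _) zero_le_one, one_smul, add_comm (x a)]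
    exact Set.add_mem_add (ih fun i hi => hx i (Finset.mem_insert_of_mem hi))
      (hx a (Finset.mem_insert_self _ _))

theorem cramer_mem {V : Matrix (Fin d) (Fin d) ℝ} (hV : V.det ≠ 0) {g : E d}
    (hg : ∀ i, |(V.updateRow i g).det| ≤ |V.det|) : g ∈ rows V '' closedBall 0 1 := by
  refine ⟨(V.det)⁻¹ • Vᵀ.cramer g, ?_, ?_⟩
  · rw [mem_closedBall_zero_iff]
    refine (pi_norm_le_iff_of_nonneg zero_le_one).2 fun i => ?_
    rw [Pi.smul_apply, Matrix.cramer_transpose_apply, smul_eq_mul, Real.norm_eq_abs, abs_mul,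
      abs_inv, inv_mul_le_iff₀ (abs_pos.2 hV), mul_one]
    exact hg i
  · show ((V.det)⁻¹ • Vᵀ.cramer g) ᵥ* V = g
    rw [← Matrix.mulVec_transpose, Matrix.mulVec_smul, Matrix.mulVec_cramer, Matrix.det_transpose,
      inv_smul_smul₀ hV]

theorem rows_subset {B : Set (E d)} (hB : SymCvx B) {η : ℝ}
    {V : Matrix (Fin d) (Fin d) ℝ} (hV : ∀ i, V i ∈ B + closedBall (0 : E d) η) :
    rows V '' closedBall 0 1 + closedBall 0 η ⊆
      ((d : ℝ) + 1) • B + closedBall 0 (((d : ℝ) + 1) * η) := by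
  rintro _ ⟨_, ⟨c, hc, rfl⟩, e, he, rfl⟩
  choose b hb u hu hbu using hV
  have hc1 : ∀ i, |c i| ≤ 1 := fun i =>
    (norm_le_pi_norm c i).trans (mem_closedBall_zero_iff.1 hc)
  have h1 : rows V c = ∑ i, c i • b i + ∑ i, c i • u i := by
    show c ᵥ* V = _
    rw [Matrix.vecMul_eq_sum, ← Finset.sum_add_distrib]
    refine Finset.sum_congr rfl fun i _ => ?_
    rw [← smul_add]
    exact congrArg _ (hbu i).symm
  refine ⟨∑ i, c i • b i, ?_, ∑ i, c i • u i + e, ?_, ?_⟩
  · have h2 := sum_mem hB Finset.univ (fun i => c i • b i) fun i _ => hB.smul_mem (hc1 i) (hb i)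
    rw [Finset.card_univ, Fintype.card_fin] at h2
    exact hB.smul_subset (Nat.cast_nonneg _) (by linarith) h2
  · rw [mem_closedBall_zero_iff]
    refine (norm_add_le _ _).trans ?_
    have h2 : ‖∑ i, c i • u i‖ ≤ ∑ _i : Fin d, η := by
      refine norm_sum_le_of_le _ fun i _ => ?_
      rw [norm_smul, Real.norm_eq_abs]
      exact (mul_le_of_le_one_left (norm_nonneg _) (hc1 i)).trans
        (mem_closedBall_zero_iff.1 (hu i))
    rw [Finset.sum_const, Finset.card_univ, Fintype.card_fin, nsmul_eq_mul] at h2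
    have h3 := mem_closedBall_zero_iff.1 he
    linarith
  · show _ = rows V c + e
    rw [h1, add_assoc]

end Span

open Vale.Agent.P109.Span in
theorem exists_spanners (d : ℕ) {η : ℝ} (h0 : 0 < η) (h1 : η ≤ 1) :
    ∃ 𝒜 : Finset (Set (E d)), (𝒜.card : ℝ) ≤ (5 / η) ^ (d * d) ∧ (∀ Q ∈ 𝒜, SymCvx Q) ∧
      ∀ B : Set (E d), SymCvx B → B ⊆ closedBall 0 1 →
        ∃ Q ∈ 𝒜, B ⊆ Q ∧ Q ⊆ ((d : ℝ) + 1) • B + closedBall 0 (((d : ℝ) + 1) * η) := by
  classical
  have hη : 1 ≤ 1 / η := by rw [le_div_iff₀ h0]; linarith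
  have h2η : 2 / η = 2 * (1 / η) := by ring
  have hK : (1 : ℤ) ≤ ⌊2 / η⌋ := Int.le_floor.2 (by push_cast; linarith)
  let I : Finset ℤ := Finset.Icc (-⌊2 / η⌋) ⌊2 / η⌋
  let M : Finset (Fin d → Fin d → ℤ) := Fintype.piFinset fun _ => Fintype.piFinset fun _ => I
  have hI : (I.card : ℝ) ≤ 5 / η := by
    have h2 : (I.card : ℤ) = ⌊2 / η⌋ + 1 - -⌊2 / η⌋ := Int.card_Icc_of_le _ _ (by omega)
    have h3 : (I.card : ℝ) = ⌊2 / η⌋ + 1 - -⌊2 / η⌋ := by exact_mod_cast h2
    have h4 := Int.floor_le (2 / η)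
    have h5 : 5 / η = 5 * (1 / η) := by ring
    linarith
  refine ⟨M.image fun k => rows (grid η k) '' closedBall 0 1 + closedBall 0 η, ?_, ?_, ?_⟩
  · refine le_trans (Nat.cast_le.2 Finset.card_image_le) ?_
    have h2 : M.card = I.card ^ (d * d) := by simp [M, Fintype.card_piFinset, pow_mul]
    rw [h2, Nat.cast_pow]
    exact pow_le_pow_left₀ (Nat.cast_nonneg _) hI _
  · intro Q hQ
    obtain ⟨k, -, rfl⟩ := Finset.mem_image.1 hQ
    exact ((symCvx_closedBall zero_le_one).image _).add (symCvx_closedBall h0.le)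
  intro B hB hB1
  let S := M.filter fun k => ∀ i, grid η k i ∈ B + closedBall (0 : E d) η
  have hid : (fun i j : Fin d => if i = j then (1 : ℤ) else 0) ∈ S := by
    refine Finset.mem_filter.2 ⟨Fintype.mem_piFinset.2 fun i => Fintype.mem_piFinset.2 fun j =>
      Finset.mem_Icc.2 ?_, fun i => ⟨0, hB.zero, _, ?_, zero_add _⟩⟩
    · split_ifs <;> omega
    · rw [mem_closedBall_zero_iff]
      refine (pi_norm_le_iff_of_nonneg h0.le).2 fun j => ?_
      show ‖η * ((if i = j then (1 : ℤ) else 0 : ℤ) : ℝ)‖ ≤ η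
      split_ifs <;> simp [abs_of_pos h0, h0.le]
  obtain ⟨k, hk, hmax⟩ := Finset.exists_max_image S (fun k => |(grid η k).det|) ⟨_, hid⟩
  have hdet : (grid η k).det ≠ 0 := by
    have h2 : grid η (fun i j : Fin d => if i = j then (1 : ℤ) else 0) =
        Matrix.diagonal fun _ => η := by
      ext i j
      show η * ((if i = j then (1 : ℤ) else 0 : ℤ) : ℝ) = _
      rw [Matrix.diagonal_apply]
      split_ifs <;> simp
    have h3 := hmax _ hid
    rw [h2, Matrix.det_diagonal] at h3
    exact abs_pos.1 ((abs_pos.2 (Finset.prod_pos fun _ _ => h0).ne').trans_le h3)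
  obtain ⟨hkM, hkB⟩ := Finset.mem_filter.1 hk
  refine ⟨_, Finset.mem_image_of_mem _ hkM, fun b hb => ?_, rows_subset hB hkB⟩
  have hb1 : ∀ j, |b j| ≤ 1 := fun j =>
    (norm_le_pi_norm b j).trans (mem_closedBall_zero_iff.1 (hB1 hb))
  let m : Fin d → ℤ := fun j => ⌊b j / η⌋
  let g : E d := fun j => η * m j
  have hm1 : ∀ j, (m j : ℝ) ≤ b j / η := fun j => Int.floor_le _
  have hm2 : ∀ j, b j / η < m j + 1 := fun j => Int.lt_floor_add_one _
  have hbg : ‖b - g‖ ≤ η := by
    refine (pi_norm_le_iff_of_nonneg h0.le).2 fun j => ?_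
    have h2 := hm1 j
    have h3 := hm2 j
    rw [le_div_iff₀ h0] at h2
    rw [div_lt_iff₀ h0] at h3
    show ‖b j - η * m j‖ ≤ η
    rw [Real.norm_eq_abs, abs_le]
    constructor <;> nlinarith
  have hmI : ∀ j, m j ∈ I := by
    intro j
    have h2 := hm1 j
    have h3 := hm2 j
    have h4 := abs_le.1 (hb1 j)
    have h5 : b j / η ≤ 1 / η := div_le_div_of_nonneg_right h4.2 h0.le
    have h6 : -1 / η ≤ b j / η := div_le_div_of_nonneg_right h4.1 h0.le
    rw [neg_div] at h6
    refine Finset.mem_Icc.2 ⟨neg_le.1 (Int.le_floor.2 ?_), Int.le_floor.2 (by linarith)⟩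
    push_cast
    linarith
  have hgB : g ∈ B + closedBall (0 : E d) η :=
    ⟨b, hb, g - b, by rw [mem_closedBall_zero_iff, norm_sub_rev]; exact hbg, add_sub_cancel _ _⟩
  refine ⟨g, cramer_mem hdet fun i => ?_, b - g, mem_closedBall_zero_iff.2 hbg,
    add_sub_cancel _ _⟩
  have h2 : ∀ i', grid η (Function.update k i m) i' = (grid η k).updateRow i g i' := by
    intro i'
    funext j
    show η * (Function.update k i m i' j : ℝ) = _
    by_cases hi : i' = i
    · rw [hi, Function.update_self, Matrix.updateRow_self]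
    · rw [Function.update_of_ne hi, Matrix.updateRow_ne hi]
      rfl
  have h3 : grid η (Function.update k i m) = (grid η k).updateRow i g := funext h2
  rw [← h3]
  refine hmax _ (Finset.mem_filter.2 ⟨Fintype.mem_piFinset.2 fun i' => ?_, fun i' => ?_⟩)
  · by_cases hi : i' = i
    · rw [hi, Function.update_self]
      exact Fintype.mem_piFinset.2 hmI
    · rw [Function.update_of_ne hi]
      exact Fintype.mem_piFinset.1 hkM i'
  · rw [h2]
    by_cases hi : i' = i
    · rw [hi, Matrix.updateRow_self]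
      exact hgB
    · rw [Matrix.updateRow_ne hi]
      exact hkB i'

end Vale.Agent.P109
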