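import Vale.Agent.P109.RectUp
import Vale.Agent.P109.RectLow
import Vale.Agent.P109.Span

/-! P109: double names are dominated by a conditional product. -/

namespace Vale.Agent.P109

open MeasureTheory Set Metric Filter Topology
open scoped ENNReal Pointwise

namespace Rect

variable {d : ℕ}

theorem geo {D B Q : Set (E d)} (hD : SymCvx D) (hB : SymCvx B) {c η ρ : ℝ} (hc : 1 ≤ c)
    (hρ : 0 ≤ ρ) (hη : c * η ≤ ρ / 2) (hQ : Q ⊆ c • D + closedBall 0 (c * η))
    (hb : closedBall (0 : E d) ρ ⊆ Q + B) :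
    closedBall (0 : E d) ρ ⊆ (2 * c) • (D + B) ∧ Q + B ⊆ (3 * c) • (D + B) := by
  have hDB := hD.add hB
  have h1 : Q + B ⊆ c • (D + B) + closedBall 0 (ρ / 2) := by
    rintro _ ⟨x, hx, y, hy, rfl⟩
    obtain ⟨_, ⟨u, hu, rfl⟩, e, he, rfl⟩ := hQ hx
    have hy' : c⁻¹ • y ∈ B := hB.smul_mem (by
      rw [abs_of_nonneg (by positivity)]; exact inv_le_one_of_one_le₀ hc) hy
    refine ⟨c • (u + c⁻¹ • y), ⟨_, ⟨u, hu, _, hy', rfl⟩, rfl⟩, e,
      closedBall_subset_closedBall hη he, ?_⟩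
    have : c ≠ 0 := by positivity
    simp only [smul_add, smul_smul, mul_inv_cancel₀ this, one_smul]
    abel
  have h2 : closedBall (0 : E d) ρ ⊆ (2 * c) • (D + B) := by
    have := absorb (hDB.smul c) (hb.trans h1)
    rwa [smul_smul] at this
  refine ⟨h2, h1.trans ?_⟩
  have h3 : (3 * c) • (D + B) = c • (D + B) + (2 * c) • (D + B) := by
    rw [hDB.smul_add_smul (by linarith) (by linarith)]; congr 1; ring
  rw [h3]
  exact add_subset_add_left ((closedBall_subset_closedBall (by linarith)).trans h2)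

theorem ball_scale {B : Set (E d)} {ρ c t : ℝ} (ht : 0 < t)
    (h : closedBall (0 : E d) ρ ⊆ c • B) : closedBall (0 : E d) (t * ρ) ⊆ (t * c) • B := by
  intro x hx
  have : t⁻¹ • x ∈ closedBall (0 : E d) ρ := by
    rw [mem_closedBall_zero_iff] at hx ⊢
    rw [norm_smul, norm_inv, Real.norm_of_nonneg ht.le, inv_mul_le_iff₀ ht]
    exact hx
  obtain ⟨y, hy, hxy⟩ := h this
  refine ⟨y, hy, ?_⟩
  simp only at hxy ⊢
  rw [mul_smul, hxy, smul_smul, mul_inv_cancel₀ ht.ne', one_smul]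

theorem vol_smul (B : Set (E d)) {c : ℝ} (hc : 0 ≤ c) :
    volume (c • B) = ENNReal.ofReal (c ^ d) * volume B := by
  rw [Measure.addHaar_smul_of_nonneg _ hc]; simp

end Rect

open Rect

set_option maxHeartbeats 800000 in
theorem rect (d : ℕ) : ∃ p : ℕ, ∀ (m : ℕ) (C : ℝ), 0 < m → 2 ≤ C →
    ∃ (κ : ℝ) (τ₀ : ℕ), 1 ≤ κ ∧ ∀ τ, τ₀ ≤ τ → ∀ Z : PM d C,
      ∃ (S : Finset (Set (E d) × (Fin d → ℤ))) (q : Nm d m → Set (E d) × (Fin d → ℤ))
        (α : Nm d m → ℝ≥0∞) (β : Set (E d) × (Fin d → ℤ) → Nm d m → ℝ≥0∞),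
        (S.card : ℝ) ≤ (C ^ τ) ^ p ∧ ∑' a, ∑' b, α a * β (q a) b ≤ ENNReal.ofReal κ ∧
        ∀ z, Z.Good2 τ m z → q (Z.nm τ m z) ∈ S ∧
          Z.ν {x | Z.nm τ m x = Z.nm τ m z ∧
              Z.nm τ m (Z.f^[m * τ] x) = Z.nm τ m (Z.f^[m * τ] z)} ≤
            α (Z.nm τ m z) * β (q (Z.nm τ m z)) (Z.nm τ m (Z.f^[m * τ] z)) := by
  classical
  refine ⟨6 * (d * d) + 25 * d, fun m C hm hC => ?_⟩
  obtain ⟨c, hc⟩ : ∃ c : ℕ, c = 14 * (d + 1) := ⟨_, rfl⟩
  obtain ⟨c0, hc0⟩ : ∃ c0 : ℝ, c0 = d + 1 := ⟨_, rfl⟩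
  have hd0 : (0 : ℝ) ≤ d := Nat.cast_nonneg d
  have hm0 : (0 : ℝ) ≤ m := Nat.cast_nonneg m
  have hc01 : 1 ≤ c0 := by linarith
  have hcc : (c : ℝ) = 14 * c0 := by rw [hc, hc0]; push_cast; ring
  obtain ⟨κu, hκu⟩ : ∃ κu : ℝ, κu = C * 2 ^ (d * (2 * m + 1)) := ⟨_, rfl⟩
  have hκu0 : 0 ≤ κu := by rw [hκu]; positivity
  obtain ⟨κ₁, hκ₁⟩ : ∃ κ₁ : ℝ, κ₁ = κu * 8 ^ d * (12 * c0) ^ d := ⟨_, rfl⟩
  have hκ₁0 : 0 ≤ κ₁ := by rw [hκ₁]; positivity
  obtain ⟨Mu, hMu⟩ : ∃ Mu : ℕ, Mu = (2 * (4 * c + 5) + 1) ^ (2 * (d * (m + 1))) := ⟨_, rfl⟩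
  obtain ⟨τ₀, hτ₀⟩ := eventually_atTop.1 ((tendsto_pow_atTop_atTop_of_one_lt
    (show 1 < C by linarith)).eventually_ge_atTop (12 * ((m : ℝ) + 1) * (d + 1) * (2 * c + 5)))
  refine ⟨max 1 (κ₁ * 2 ^ d * κu * Mu), max τ₀ 1, le_max_left _ _, fun τ hτ Z => ?_⟩
  have hY := hτ₀ τ ((le_max_left _ _).trans hτ)
  have hτ1 : 1 ≤ τ := (le_max_right _ _).trans hτ
  have hCY : C ≤ C ^ τ := le_self_pow₀ (by linarith) (by omega)
  have hY1 : 100 * ((m : ℝ) + 1) * (d + 1) ≤ C ^ τ := by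
    refine le_trans ?_ hY
    have : (0 : ℝ) ≤ ((m : ℝ) + 1) * (d + 1) := by positivity
    nlinarith
  have hYm : (m : ℝ) ≤ C ^ τ := by nlinarith
  have hYc : 100 * c0 ≤ C ^ τ := by rw [hc0]; nlinarith
  obtain ⟨y, hy⟩ : ∃ y : ℝ, y = (C ^ τ)⁻¹ := ⟨_, rfl⟩
  have hY0 : 0 < C ^ τ := by positivity
  have hy0 : 0 < y := by rw [hy]; positivity
  have hyY : y * C ^ τ = 1 := by rw [hy]; field_simp
  have hyc : 100 * c0 * y ≤ 1 := by nlinarith
  have hy1 : y ≤ 1 / 100 := by nlinarith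
  obtain ⟨𝒜, h𝒜c, h𝒜s, h𝒜⟩ := exists_spanners d (η := y ^ 5) (by positivity)
    (pow_le_one₀ hy0.le (by linarith))
  -- representatives
  have hrep : ∀ a : Nm d m, ∃ x : E d, (∃ x', Z.nm τ m x' = a ∧ Z.Rep τ m x') →
      Z.nm τ m x = a ∧ Z.Rep τ m x := by
    intro a
    by_cases h : ∃ x', Z.nm τ m x' = a ∧ Z.Rep τ m x'
    · obtain ⟨x, hx⟩ := h; exact ⟨x, fun _ => hx⟩
    · exact ⟨0, fun h' => absurd h' h⟩
  choose rep hrep using hrep
  obtain ⟨B, hB⟩ : ∃ B : Nm d m → Set (E d), ∀ a, B a = Bl (Z.ch τ (rep a)) m 1 := ⟨_, fun _ => rfl⟩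
  obtain ⟨P, hP⟩ : ∃ P : Nm d m → (E d →L[ℝ] E d), ∀ a, P a = pp (Z.ch τ (rep a)) m :=
    ⟨_, fun _ => rfl⟩
  have hBs : ∀ a, SymCvx (B a) := fun a => by rw [hB]; exact symCvx_Bl _ _ zero_le_one
  have hPB : ∀ a, SymCvx (P a '' B a) := fun a => (hBs a).image _
  choose Q hQ𝒜 hQ1 hQ2 using fun a => h𝒜 (P a '' B a) (hPB a)
    (by rw [hB, hP]; exact image_Bl_subset_ball _ _ _)
  rw [← hc0] at hQ2
  have hQs : ∀ a, SymCvx (Q a) := fun a => h𝒜s _ (hQ𝒜 a)
  obtain ⟨R, hR⟩ : ∃ R : ℕ, R = ⌈C * (C ^ τ) ^ 23⌉₊ := ⟨_, rfl⟩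
  have hη : c0 * y ^ 5 ≤ y ^ 3 / 2 := by
    have : c0 * y ^ 2 ≤ 1 / 2 := by nlinarith
    have h3 : 0 < y ^ 3 := by positivity
    calc c0 * y ^ 5 = c0 * y ^ 2 * y ^ 3 := by ring
      _ ≤ 1 / 2 * y ^ 3 := by gcongr
      _ = _ := by ring
  refine ⟨𝒜 ×ˢ Fintype.piFinset fun _ => Finset.Icc (-(R : ℤ)) R,
    fun a => (Q a, cell (y ^ 23) (Z.f^[m * τ] (rep a))),
    fun a => if ∃ x', Z.nm τ m x' = a ∧ Z.Rep τ m x' then volume (B a) else 0,
    fun s b => if (∃ x', Z.nm τ m x' = b ∧ Z.Rep τ m x') ∧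
      closedBall (0 : E d) (y ^ 3) ⊆ s.1 + B b ∧
      (rep b - fun i => y ^ 23 * (s.2 i : ℝ)) ∈ (4 * y ^ 20) • (s.1 + B b) then
      ENNReal.ofReal (κ₁ * (y ^ 20) ^ d) * volume (B b) / volume (s.1 + B b) else 0, ?_, ?_, ?_⟩
  · -- the number of classes
    rw [Finset.card_product, Fintype.card_piFinset]
    simp only [Int.card_Icc, Finset.prod_const, Finset.card_univ, Fintype.card_fin]
    have h1 : ((R : ℤ) + 1 - -(R : ℤ)).toNat = 2 * R + 1 := by omega
    rw [h1]; push_cast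
    have hR1 : (R : ℝ) ≤ C * (C ^ τ) ^ 23 + 1 := by
      rw [hR]; exact (Nat.ceil_lt_add_one (by positivity)).le
    have h100 : (100 : ℝ) ≤ C ^ τ := by linarith
    have h23 : (1 : ℝ) ≤ (C ^ τ) ^ 23 := one_le_pow₀ (by linarith)
    have h2 : 2 * (R : ℝ) + 1 ≤ (C ^ τ) ^ 25 := by
      have : C * (C ^ τ) ^ 23 ≤ (C ^ τ) ^ 24 := by
        rw [pow_succ' _ 23]; gcongr
      have h24 : (1 : ℝ) ≤ (C ^ τ) ^ 24 := one_le_pow₀ (by linarith)
      rw [pow_succ' _ 24]; nlinarith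
    have h3 : 5 / y ^ 5 ≤ (C ^ τ) ^ 6 := by
      rw [hy, inv_pow, div_inv_eq_mul, pow_succ' _ 5]
      gcongr; linarith
    calc (𝒜.card : ℝ) * (2 * (R : ℝ) + 1) ^ d
        ≤ ((C ^ τ) ^ 6) ^ (d * d) * ((C ^ τ) ^ 25) ^ d := by
          gcongr
          exact h𝒜c.trans (by gcongr)
      _ = _ := by rw [← pow_mul (C ^ τ), ← pow_mul (C ^ τ), ← pow_add]
  · -- the total mass
    have key : ∀ a b : Nm d m,
        (if ∃ x', Z.nm τ m x' = a ∧ Z.Rep τ m x' then volume (B a) else 0) *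
        (if (∃ x', Z.nm τ m x' = b ∧ Z.Rep τ m x') ∧
          closedBall (0 : E d) (y ^ 3) ⊆ Q a + B b ∧
          (rep b - fun i => y ^ 23 * (cell (y ^ 23) (Z.f^[m * τ] (rep a)) i : ℝ)) ∈
            (4 * y ^ 20) • (Q a + B b) then
          ENNReal.ofReal (κ₁ * (y ^ 20) ^ d) * volume (B b) / volume (Q a + B b) else 0) ≤
        ENNReal.ofReal (κ₁ * 2 ^ d * κu) *
          Z.ν {x | (∀ j i, |Z.nm τ m x j i - a j i| ≤ ((4 * c + 5 : ℕ) : ℤ)) ∧
            ∀ j i, |Z.nm τ m (Z.f^[m * τ] x) j i - b j i| ≤ ((4 * c + 5 : ℕ) : ℤ)} := by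
      intro a b
      split_ifs with ha hb
      swap; · simp
      swap; · simp
      swap; · simp
      obtain ⟨hb, hball, hj⟩ := hb
      obtain ⟨ha1, ha2⟩ := hrep a ha
      obtain ⟨hb1, hb2⟩ := hrep b hb
      obtain ⟨g1, g2⟩ := geo (hPB a) (hBs b) hc01 (by positivity) hη (hQ2 a) hball
      have hs := (hPB a).add (hBs b)
      have g3 : closedBall (0 : E d) (y ^ 4) ⊆ P a '' B a + B b := by
        have h := ball_scale hy0 g1
        rw [← pow_succ'] at h
        refine h.trans ?_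
        have := hs.smul_subset (s := y * (2 * c0)) (t := 1) (by positivity) (by nlinarith)
        rwa [one_smul] at this
      have g4 : rep b - Z.f^[m * τ] (rep a) ∈ ((c : ℝ) * y ^ 20) • (P a '' B a + B b) := by
        have e1 : (rep b - fun i => y ^ 23 * (cell (y ^ 23) (Z.f^[m * τ] (rep a)) i : ℝ)) ∈
            (4 * y ^ 20 * (3 * c0)) • (P a '' B a + B b) := by
          rw [← smul_smul]
          exact smul_set_mono g2 hj
        have e2 : ((fun i => y ^ 23 * (cell (y ^ 23) (Z.f^[m * τ] (rep a)) i : ℝ)) -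
            Z.f^[m * τ] (rep a)) ∈ (y ^ 20 * (2 * c0)) • (P a '' B a + B b) := by
          refine ball_scale (by positivity) g1 ?_
          rw [mem_closedBall_zero_iff, norm_sub_rev, ← pow_add]
          exact norm_sub_corner_le (by positivity) _
        have e3 := add_mem_add e1 e2
        rw [hs.smul_add_smul (by positivity) (by positivity), sub_add_sub_cancel] at e3
        have e4 : (c : ℝ) * y ^ 20 = 4 * y ^ 20 * (3 * c0) + y ^ 20 * (2 * c0) := by
          rw [hcc]; ring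
        rw [e4]; exact e3
      have low := Z.rect_low hC hm hY ha2 hb2 (by rw [← hy, ← hB, ← hB, ← hP]; exact g3)
        (by rw [← hy, ← hB, ← hB, ← hP]; exact g4)
      rw [← hy, ← hB, ← hB, ← hP, ← hκu, ha1, hb1] at low
      have v1 := vol_mul_le (hBs a) (hBs b) (P a)
      have hsub : P a '' B a + B b ⊆ Q a + B b := add_subset_add_right (hQ1 a)
      have hpos : volume (Q a + B b) ≠ 0 :=
        ((measure_closedBall_pos volume (0 : E d) (by positivity : 0 < y ^ 3)).trans_le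
          (measure_mono hball)).ne'
      have hfin : volume (Q a + B b) ≠ ∞ := ((hQs a).add (hBs b)).cpt.measure_lt_top.ne
      rw [← mul_div_assoc, ENNReal.div_le_iff hpos hfin]
      calc volume (B a) * (ENNReal.ofReal (κ₁ * (y ^ 20) ^ d) * volume (B b))
          = ENNReal.ofReal κ₁ * ENNReal.ofReal ((y ^ 20) ^ d) * (volume (B a) * volume (B b)) := by
            rw [ENNReal.ofReal_mul hκ₁0]; ring
        _ ≤ ENNReal.ofReal κ₁ * ENNReal.ofReal ((y ^ 20) ^ d) *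
            (2 ^ d * (volume (B a ∩ P a ⁻¹' B b) * volume (Q a + B b))) := by
            exact mul_le_mul_right (v1.trans (by gcongr)) _
        _ = ENNReal.ofReal κ₁ * 2 ^ d * (ENNReal.ofReal ((y ^ 20) ^ d) *
            volume (B a ∩ P a ⁻¹' B b)) * volume (Q a + B b) := by ring
        _ ≤ ENNReal.ofReal κ₁ * 2 ^ d * (ENNReal.ofReal κu * _) * volume (Q a + B b) := by
            gcongr
        _ = _ := by
            rw [ENNReal.ofReal_mul (by positivity), ENNReal.ofReal_mul hκ₁0,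
              ENNReal.ofReal_pow (by norm_num), ENNReal.ofReal_ofNat]
            ring
    refine (ENNReal.tsum_le_tsum fun a => ENNReal.tsum_le_tsum fun b => key a b).trans ?_
    simp only [ENNReal.tsum_mul_left]
    refine le_trans ?_ (ENNReal.ofReal_le_ofReal (le_max_right _ _))
    rw [ENNReal.ofReal_mul (p := κ₁ * 2 ^ d * κu) (by positivity), ENNReal.ofReal_natCast, hMu]
    gcongr
    exact Z.tsum_near_le τ m (4 * c + 5)
  · -- good points
    intro z hz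
    obtain ⟨r1, r2⟩ := Z.rep_of_good2 hC hYm hz
    have ha : ∃ x', Z.nm τ m x' = Z.nm τ m z ∧ Z.Rep τ m x' := ⟨z, rfl, r1⟩
    have hb : ∃ x', Z.nm τ m x' = Z.nm τ m (Z.f^[m * τ] z) ∧ Z.Rep τ m x' := ⟨_, rfl, r2⟩
    obtain ⟨ha1, ha2⟩ := hrep _ ha
    obtain ⟨hb1, hb2⟩ := hrep _ hb
    have u1 := Z.rect_ball hC hY1 hz ha2 hb2 ha1 hb1
    have u2 := Z.rect_jump hC hY1 ha2 hb2 ha1 hb1
    have u3 := Z.rect_up hC hY1 hz ha2 hb2 ha1 hb1
    rw [← hy, ← hB, ← hB, ← hP] at u1 u2 u3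
    rw [← hκu] at u3
    generalize Z.nm τ m (Z.f^[m * τ] z) = b at *
    generalize Z.nm τ m z = a at *
    constructor
    · rw [Finset.mem_product, Fintype.mem_piFinset]
      refine ⟨hQ𝒜 a, fun i => ?_⟩
      have hg := (ha2.1 (m * τ) le_rfl).1 (mem_ball_self (by positivity))
      have hn := Z.bdd _ hg
      have := abs_cell_sub_le (σ := y ^ 23) (by positivity) R (x := Z.f^[m * τ] (rep a)) (y := 0)
        (by
          rw [sub_zero]
          have h1 : C * (C ^ τ) ^ 23 ≤ R := by rw [hR]; exact Nat.le_ceil _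
          have h2 : C * (C ^ τ) ^ 23 * y ^ 23 = C := by
            rw [mul_assoc, ← mul_pow, mul_comm (C ^ τ), hyY]; simp
          calc _ ≤ C := hn
            _ = C * (C ^ τ) ^ 23 * y ^ 23 := h2.symm
            _ ≤ _ := by gcongr) i
      simp only [cell, Pi.zero_apply, zero_div, Int.floor_zero, sub_zero] at this
      simp only [Finset.mem_Icc, cell]
      exact abs_le.1 this
    · have hsub : P a '' B a + B b ⊆ Q a + B b := add_subset_add_right (hQ1 a)
      have hs := (hQs a).add (hBs b)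
      have hball : closedBall (0 : E d) (y ^ 3) ⊆ Q a + B b := by
        refine (closedBall_subset_closedBall ?_).trans (u1.trans hsub)
        calc y ^ 3 = y ^ 2 * y := by ring
          _ ≤ y ^ 2 * (1 / 4) := by gcongr; linarith only [hy1]
          _ = _ := by ring
      have hj : (rep b - fun i => y ^ 23 * (cell (y ^ 23) (Z.f^[m * τ] (rep a)) i : ℝ)) ∈
          (4 * y ^ 20) • (Q a + B b) := by
        obtain ⟨u, hu, e, he, hue⟩ := u2
        have e1 : u ∈ (2 * y ^ 20) • (Q a + B b) := smul_set_mono hsub hu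
        have hb1 : closedBall (0 : E d) (y ^ 3) ⊆ (1 : ℝ) • (Q a + B b) := by rwa [one_smul]
        have e2 : e + (Z.f^[m * τ] (rep a) -
            fun i => y ^ 23 * (cell (y ^ 23) (Z.f^[m * τ] (rep a)) i : ℝ)) ∈
            (2 * y ^ 20 * 1) • (Q a + B b) := by
          refine ball_scale (by positivity) hb1 ?_
          rw [mem_closedBall_zero_iff] at he ⊢
          refine (norm_add_le _ _).trans ?_
          have := norm_sub_corner_le (σ := y ^ 23) (by positivity) (Z.f^[m * τ] (rep a))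
          have e : 2 * y ^ 20 * y ^ 3 = y ^ 23 + y ^ 23 := by ring
          rw [e]; exact add_le_add he this
        have e3 := add_mem_add e1 e2
        rw [hs.smul_add_smul (by positivity) (by positivity), ← add_assoc] at e3
        simp only at hue
        rw [hue, sub_add_sub_cancel] at e3
        have e4 : 4 * y ^ 20 = 2 * y ^ 20 + 2 * y ^ 20 * 1 := by ring
        rw [e4]; exact e3
      simp only
      rw [if_pos ha, if_pos ⟨hb, hball, hj⟩]
      obtain ⟨-, g2⟩ := geo (hPB a) (hBs b) hc01 (by positivity) hη (hQ2 a) hball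
      have hpos : volume (Q a + B b) ≠ 0 :=
        ((measure_closedBall_pos volume (0 : E d) (by positivity : 0 < y ^ 3)).trans_le
          (measure_mono hball)).ne'
      have hfin : volume (Q a + B b) ≠ ∞ := hs.cpt.measure_lt_top.ne
      rw [← mul_div_assoc, ENNReal.le_div_iff_mul_le (Or.inl hpos) (Or.inl hfin)]
      have v2 := vol_inter_mul_le (hBs a) (hBs b) (P a)
      have v3 : volume (Q a + B b) ≤ ENNReal.ofReal ((3 * c0) ^ d) * volume (P a '' B a + B b) := by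
        rw [← vol_smul _ (by positivity)]; exact measure_mono g2
      calc _ ≤ ENNReal.ofReal (κu * (8 * y ^ 20) ^ d) * volume (B a ∩ P a ⁻¹' B b) *
            (ENNReal.ofReal ((3 * c0) ^ d) * volume (P a '' B a + B b)) := by gcongr
        _ = ENNReal.ofReal (κu * (8 * y ^ 20) ^ d) * ENNReal.ofReal ((3 * c0) ^ d) *
            (volume (B a ∩ P a ⁻¹' B b) * volume (P a '' B a + B b)) := by ring
        _ ≤ ENNReal.ofReal (κu * (8 * y ^ 20) ^ d) * ENNReal.ofReal ((3 * c0) ^ d) *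
            (4 ^ d * (volume (B a) * volume (B b))) := by gcongr
        _ = _ := by
            have e : ENNReal.ofReal (κ₁ * (y ^ 20) ^ d) =
                ENNReal.ofReal (κu * (8 * y ^ 20) ^ d) * ENNReal.ofReal ((3 * c0) ^ d) * 4 ^ d := by
              rw [← ENNReal.ofReal_ofNat 4, ← ENNReal.ofReal_pow (by norm_num),
                ← ENNReal.ofReal_mul (by positivity), ← ENNReal.ofReal_mul (by positivity), hκ₁]
              congr 1
              rw [show (12 : ℝ) * c0 = 3 * c0 * 4 by ring, mul_pow (3 * c0), mul_pow 8]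
              ring
            rw [e]; ring

end Vale.Agent.P109
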