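import Vale.Agent.P109.Convex
import Vale.Agent.P109.ChainVol
import Vale.Agent.P109.Local
import Vale.Agent.P109.RectAux

/-! P109: the upper bound for the volume of a double name. -/

namespace Vale.Agent.P109

open MeasureTheory Set Metric Filter Topology
open scoped ENNReal Pointwise

variable {d : ℕ}

namespace RectUp

open RectAux

variable {C : ℝ} (Z : PM d C)

theorem inv_le {Y : ℝ} {m d : ℕ} (hY : 100 * ((m : ℝ) + 1) * (d + 1) ≤ Y) :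
    0 < Y ∧ 0 < Y⁻¹ ∧ Y⁻¹ ≤ 1 / 100 := by
  have hm : (0 : ℝ) ≤ m := Nat.cast_nonneg m
  have hd : (0 : ℝ) ≤ d := Nat.cast_nonneg d
  have h : 100 ≤ Y := by nlinarith [mul_nonneg hm hd]
  have h0 : 0 < Y := by linarith
  refine ⟨h0, inv_pos.2 h0, ?_⟩
  rw [inv_eq_one_div]
  exact one_div_le_one_div_of_le (by norm_num) h

theorem pow_le_mul {t : ℝ} (h0 : 0 < t) (h1 : t ≤ 1 / 100) (a b : ℕ) (hab : a < b) :
    t ^ b ≤ t ^ a / 100 := by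
  have h2 : t ^ b ≤ t ^ (a + 1) := pow_le_pow_of_le_one h0.le (by linarith) hab
  have h3 : 0 < t ^ a := pow_pos h0 a
  rw [pow_succ] at h2
  nlinarith

theorem mul_inv_pow {Y : ℝ} (h : 0 < Y) (a b : ℕ) : Y ^ a * Y⁻¹ ^ (a + b) = Y⁻¹ ^ b := by
  rw [pow_add, ← mul_assoc, ← mul_pow, mul_inv_cancel₀ h.ne', one_pow, one_mul]

theorem hs_one {Y : ℝ} (h : 0 < Y) (h1 : Y⁻¹ ≤ 1 / 100) : Y * (Y⁻¹ ^ 20 + Y⁻¹ ^ 20) < Y⁻¹ ^ 18 := by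
  have e := mul_inv_pow h 1 19
  have h2 := pow_le_mul (inv_pos.2 h) h1 18 19 (by norm_num)
  have h3 : 0 < Y⁻¹ ^ 18 := pow_pos (inv_pos.2 h) 18
  rw [pow_one] at e
  have e' : Y * (Y⁻¹ ^ 20 + Y⁻¹ ^ 20) = 2 * Y⁻¹ ^ 19 := by rw [← e]; ring
  rw [e']
  linarith

theorem hs_half {Y : ℝ} (h : 0 < Y) (h1 : Y⁻¹ ≤ 1 / 100) : Y * Y⁻¹ ^ 20 < Y⁻¹ ^ 18 := by
  have := hs_one h h1
  have h3 : 0 < Y * Y⁻¹ ^ 20 := mul_pos h (pow_pos (inv_pos.2 h) 20)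
  nlinarith

theorem shadow_lin (hC : 2 ≤ C) {τ m : ℕ} (h1 : (C ^ τ)⁻¹ ≤ 1 / 100) {z x : E d}
    (hx : Z.Rep τ m x) (h : Z.nm τ m x = Z.nm τ m z) {u : E d} (hu : u ∈ Bl (Z.ch τ z) m 1) :
    ∃ u' : E d, ∀ j ≤ m, ‖pp (Z.ch τ z) j u - pp (Z.ch τ x) j u'‖ ≤ (C ^ τ)⁻¹ ^ 15 := by
  have h0 : 0 < C ^ τ := by positivity
  have hη : (0 : ℝ) ≤ (C ^ τ) ^ 2 * (C ^ τ)⁻¹ ^ 20 := by positivity
  obtain ⟨u', hu'⟩ := hx.2.shadow hη (fun j => pp (Z.ch τ z) j u) (by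
    intro j hj
    have h2 := Z.co_close hC (good_block Z hx.1 hj) (hs_half h0 h1) (near_of_nm Z hC h hj.le)
    have e : pp (Z.ch τ z) (j + 1) u - Z.ch τ x j (pp (Z.ch τ z) j u) =
        (Z.co τ (Z.f^[j * τ] z) - Z.co τ (Z.f^[j * τ] x)) (pp (Z.ch τ z) j u) := rfl
    rw [e]
    refine (ContinuousLinearMap.le_opNorm _ _).trans ?_
    calc _ ≤ ((C ^ τ) ^ 2 * (C ^ τ)⁻¹ ^ 20) * 1 := mul_le_mul h2 (hu j hj.le) (norm_nonneg _) hη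
      _ = _ := mul_one _)
  refine ⟨u', fun j hj => (hu' j hj).trans (le_of_eq ?_)⟩
  rw [← mul_inv_pow h0 5 15]
  ring

theorem shadow_nl (hC : 2 ≤ C) {τ m : ℕ} (h1 : (C ^ τ)⁻¹ ≤ 1 / 100) {z x : E d}
    (hx : Z.Rep τ m x) (h : Z.nm τ m x = Z.nm τ m z) :
    ∃ u : E d, ∀ j ≤ m,
      ‖(Z.f^[j * τ] z - Z.f^[j * τ] x) - pp (Z.ch τ x) j u‖ ≤ (C ^ τ)⁻¹ ^ 35 := by
  have h0 : 0 < C ^ τ := by positivity
  have hσ : (0 : ℝ) ≤ (C ^ τ)⁻¹ ^ 20 := by positivity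
  have hη : (0 : ℝ) ≤ (C ^ τ) ^ 2 * (C ^ τ)⁻¹ ^ 20 * (C ^ τ)⁻¹ ^ 20 := by positivity
  obtain ⟨u', hu'⟩ := hx.2.shadow hη (fun j => Z.f^[j * τ] z - Z.f^[j * τ] x) (by
    intro j hj
    have hn := near_of_nm Z hC h hj.le
    have h2 := Z.lin_iter hC (good_block Z hx.1 hj) (hs_half h0 h1) hn
      (y' := Z.f^[j * τ] x) (by simpa using hσ)
    simp only [iter_succ]
    exact h2.trans (mul_le_mul_of_nonneg_left hn (by positivity)))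
  refine ⟨u', fun j hj => (hu' j hj).trans (le_of_eq ?_)⟩
  rw [← mul_inv_pow h0 5 35]
  ring

end RectUp

namespace PM

open RectAux RectUp

variable {C : ℝ} (Z : PM d C)

theorem rep_of_good2 (hC : 2 ≤ C) {τ m : ℕ} (hY : (m : ℝ) ≤ C ^ τ) {z : E d}
    (hz : Z.Good2 τ m z) : Z.Rep τ m z ∧ Z.Rep τ m (Z.f^[m * τ] z) := by
  have h0 : 0 < C ^ τ := by positivity
  have hρ : (0 : ℝ) < (C ^ τ)⁻¹ ^ 2 := by positivity
  have hK : (m : ℝ) / (C ^ τ)⁻¹ ^ 2 ≤ (C ^ τ) ^ 3 := by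
    rw [inv_pow, div_inv_eq_mul]
    calc (m : ℝ) * (C ^ τ) ^ 2 ≤ C ^ τ * (C ^ τ) ^ 2 :=
          mul_le_mul_of_nonneg_right hY (by positivity)
      _ = _ := by ring
  refine ⟨⟨fun i hi => hz.1 i (by nlinarith), ?_⟩, ⟨fun i hi => ?_, ?_⟩⟩
  · exact (WRI_of_Dec hρ fun j _ hj => (hz.2 j (by omega)).left (by omega)).mono hK
  · rw [← Function.iterate_add_apply]
    exact hz.1 _ (by nlinarith)
  · rw [← Z.sh_ch]
    refine (WRI_of_Dec hρ fun j _ hj => ?_).mono hK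
    apply Dec.right
    have := hz.2 (m + j) (by omega)
    rwa [two_mul] at this

theorem rect_ball (hC : 2 ≤ C) {τ m : ℕ} (hY : 100 * ((m : ℝ) + 1) * (d + 1) ≤ C ^ τ)
    {z x x' : E d} (hz : Z.Good2 τ m z) (hx : Z.Rep τ m x) (hx' : Z.Rep τ m x')
    (h : Z.nm τ m x = Z.nm τ m z) (h' : Z.nm τ m x' = Z.nm τ m (Z.f^[m * τ] z)) :
    closedBall (0 : E d) ((C ^ τ)⁻¹ ^ 2 / 4) ⊆
      pp (Z.ch τ x) m '' Bl (Z.ch τ x) m 1 + Bl (Z.ch τ x') m 1 := by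
  obtain ⟨h0, hi0, hi1⟩ := inv_le hY
  have hB : SymCvx (pp (Z.ch τ x) m '' Bl (Z.ch τ x) m 1 + Bl (Z.ch τ x') m 1) :=
    ((symCvx_Bl _ _ zero_le_one).image _).add (symCvx_Bl _ _ zero_le_one)
  have h15 := pow_le_mul hi0 hi1 2 15 (by norm_num)
  have h15' := pow_le_mul hi0 hi1 0 15 (by norm_num)
  have hρ : (0 : ℝ) < (C ^ τ)⁻¹ ^ 2 := by positivity
  rw [pow_zero] at h15'
  have key : closedBall (0 : E d) ((C ^ τ)⁻¹ ^ 2 / 2) ⊆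
      (pp (Z.ch τ x) m '' Bl (Z.ch τ x) m 1 + Bl (Z.ch τ x') m 1) +
        closedBall 0 ((C ^ τ)⁻¹ ^ 2 / 2 / 2) := by
    intro e he
    rw [mem_closedBall_zero_iff] at he
    have he2 : ‖(2 : ℝ) • e‖ ≤ (C ^ τ)⁻¹ ^ 2 := by
      rw [norm_smul, Real.norm_two]; linarith
    obtain ⟨u, hu, v, hv, huv⟩ := hz.2 m (by omega) _ he2
    have e1 : 2 * m - m = m := by omega
    rw [e1, Z.sh_ch] at hv
    obtain ⟨u', hu'⟩ := shadow_lin Z hC hi1 hx h hu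
    obtain ⟨v', hv'⟩ := shadow_lin Z hC hi1 hx' h' hv
    have bnd : ∀ a b : E d, ‖a‖ ≤ 1 → ‖a - b‖ ≤ (C ^ τ)⁻¹ ^ 15 → ‖b‖ ≤ 2 := by
      intro a b ha hab
      have : ‖b‖ ≤ ‖a‖ + ‖a - b‖ := by
        have := norm_sub_le a (a - b)
        rwa [sub_sub_cancel] at this
      linarith
    have hu2 : (1 / 2 : ℝ) • u' ∈ Bl (Z.ch τ x) m 1 :=
      smul_mem_Bl (fun j hj => bnd _ _ (hu j hj) (hu' j hj)) (by norm_num)
    have hv2 : (1 / 2 : ℝ) • v' ∈ Bl (Z.ch τ x') m 1 :=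
      smul_mem_Bl (fun j hj => bnd _ _ (hv j hj) (hv' j hj)) (by norm_num)
    have hv0 : ‖v - v'‖ ≤ (C ^ τ)⁻¹ ^ 15 := hv' 0 (Nat.zero_le m)
    have hum := hu' m le_rfl
    refine ⟨pp (Z.ch τ x) m ((1 / 2 : ℝ) • u') + (1 / 2 : ℝ) • v',
      ⟨_, ⟨_, hu2, rfl⟩, _, hv2, rfl⟩,
      (1 / 2 : ℝ) • ((pp (Z.ch τ z) m u - pp (Z.ch τ x) m u') + (v - v')), ?_, ?_⟩
    · rw [mem_closedBall_zero_iff, norm_smul]
      have := norm_add_le (pp (Z.ch τ z) m u - pp (Z.ch τ x) m u') (v - v')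
      rw [Real.norm_of_nonneg (by norm_num)]
      linarith
    · have e2 : e = (1 / 2 : ℝ) • ((2 : ℝ) • e) := by rw [smul_smul]; norm_num
      rw [e2, huv, map_smul]
      module
  have h2 := absorb hB key
  intro e he
  rw [mem_closedBall_zero_iff] at he
  have he2 : (2 : ℝ) • e ∈ closedBall (0 : E d) ((C ^ τ)⁻¹ ^ 2 / 2) := by
    rw [mem_closedBall_zero_iff, norm_smul, Real.norm_two]; linarith
  exact (smul_mem_smul_set_iff₀ (two_ne_zero) _ _).1 (h2 he2)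

theorem rect_jump (hC : 2 ≤ C) {τ m : ℕ} (hY : 100 * ((m : ℝ) + 1) * (d + 1) ≤ C ^ τ)
    {z x x' : E d} (hx : Z.Rep τ m x) (hx' : Z.Rep τ m x')
    (h : Z.nm τ m x = Z.nm τ m z) (h' : Z.nm τ m x' = Z.nm τ m (Z.f^[m * τ] z)) :
    x' - Z.f^[m * τ] x ∈ (2 * (C ^ τ)⁻¹ ^ 20) •
      (pp (Z.ch τ x) m '' Bl (Z.ch τ x) m 1 + Bl (Z.ch τ x') m 1) +
        closedBall (0 : E d) ((C ^ τ)⁻¹ ^ 23) := by
  obtain ⟨h0, hi0, hi1⟩ := inv_le hY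
  obtain ⟨u, hu⟩ := shadow_nl Z hC hi1 hx h
  obtain ⟨v, hv⟩ := shadow_nl Z hC hi1 hx' h'
  have h35 := pow_le_mul hi0 hi1 20 35 (by norm_num)
  have h35' := pow_le_mul hi0 hi1 23 35 (by norm_num)
  have hσ : (0 : ℝ) < (C ^ τ)⁻¹ ^ 20 := by positivity
  have h23 : (0 : ℝ) < (C ^ τ)⁻¹ ^ 23 := by positivity
  have hσ2 : (0 : ℝ) < 2 * (C ^ τ)⁻¹ ^ 20 := by positivity
  have bnd : ∀ a b : E d, ‖a‖ ≤ (C ^ τ)⁻¹ ^ 20 → ‖a - b‖ ≤ (C ^ τ)⁻¹ ^ 35 →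
      ‖b‖ ≤ 2 * (C ^ τ)⁻¹ ^ 20 := by
    intro a b ha hab
    have : ‖b‖ ≤ ‖a‖ + ‖a - b‖ := by
      have := norm_sub_le a (a - b)
      rwa [sub_sub_cancel] at this
    linarith
  have hu2 : (2 * (C ^ τ)⁻¹ ^ 20)⁻¹ • u ∈ Bl (Z.ch τ x) m 1 :=
    smul_mem_Bl (fun j hj => bnd _ _ (near_of_nm Z hC h hj) (hu j hj))
      (by rw [abs_of_pos (inv_pos.2 hσ2), inv_mul_cancel₀ hσ2.ne'])
  have hv2 : (-(2 * (C ^ τ)⁻¹ ^ 20)⁻¹) • v ∈ Bl (Z.ch τ x') m 1 :=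
    smul_mem_Bl (fun j hj => bnd _ _ (near_of_nm Z hC h' hj) (hv j hj))
      (by rw [abs_neg, abs_of_pos (inv_pos.2 hσ2), inv_mul_cancel₀ hσ2.ne'])
  have hv0 : ‖(Z.f^[m * τ] z - x') - v‖ ≤ (C ^ τ)⁻¹ ^ 35 := by
    have := hv 0 (Nat.zero_le m)
    simpa [pp] using this
  have hum := hu m le_rfl
  refine ⟨(2 * (C ^ τ)⁻¹ ^ 20) • (pp (Z.ch τ x) m ((2 * (C ^ τ)⁻¹ ^ 20)⁻¹ • u) +
      (-(2 * (C ^ τ)⁻¹ ^ 20)⁻¹) • v), smul_mem_smul_set ⟨_, ⟨_, hu2, rfl⟩, _, hv2, rfl⟩,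
    ((Z.f^[m * τ] z - Z.f^[m * τ] x) - pp (Z.ch τ x) m u) - ((Z.f^[m * τ] z - x') - v), ?_, ?_⟩
  · rw [mem_closedBall_zero_iff]
    have := norm_sub_le ((Z.f^[m * τ] z - Z.f^[m * τ] x) - pp (Z.ch τ x) m u)
      ((Z.f^[m * τ] z - x') - v)
    linarith
  · simp only [map_smul, smul_add, smul_smul, smul_neg, mul_inv_cancel₀ hσ2.ne', one_smul, neg_smul]
    abel

theorem rect_up (hC : 2 ≤ C) {τ m : ℕ} (hY : 100 * ((m : ℝ) + 1) * (d + 1) ≤ C ^ τ)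
    {z x x' : E d} (hz : Z.Good2 τ m z) (hx : Z.Rep τ m x) (hx' : Z.Rep τ m x')
    (h : Z.nm τ m x = Z.nm τ m z) (h' : Z.nm τ m x' = Z.nm τ m (Z.f^[m * τ] z)) :
    Z.ν {y | Z.nm τ m y = Z.nm τ m z ∧ Z.nm τ m (Z.f^[m * τ] y) = Z.nm τ m (Z.f^[m * τ] z)} ≤
      ENNReal.ofReal (C * 2 ^ (d * (2 * m + 1)) * (8 * (C ^ τ)⁻¹ ^ 20) ^ d) *
        volume (Bl (Z.ch τ x) m 1 ∩ pp (Z.ch τ x) m ⁻¹' Bl (Z.ch τ x') m 1) := by
  obtain ⟨h0, hi0, hi1⟩ := inv_le hY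
  have hσ : (0 : ℝ) < (C ^ τ)⁻¹ ^ 20 := by positivity
  have hρ : (0 : ℝ) < (C ^ τ)⁻¹ ^ 2 / 4 := by positivity
  have hW := hx.2.splice hx'.2 hρ (Z.rect_ball hC hY hz hx hx' h h')
  have hp : ∀ j < m + m, ‖Z.f^[j * τ] z - base Z τ m x x' j‖ ≤ (C ^ τ)⁻¹ ^ 20 := by
    intro j hj
    unfold base
    split_ifs with hjm
    · exact near_of_nm Z hC h hjm.le
    · have := near_of_nm Z hC h' (j := j - m) (by omega)
      rw [← iter_add] at this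
      have e : m + (j - m) = j := by omega
      rwa [e] at this
  obtain ⟨g, hg1, hg2⟩ := exists_pert Z hC hx hx' (fun j => Z.f^[j * τ] z) hp hσ.le hσ.le
    (hs_one h0 hi1)
  have hK : ((C ^ τ) ^ 3 + 2 * (C ^ τ) ^ 3 / ((C ^ τ)⁻¹ ^ 2 / 4)) * ((m + m : ℕ) : ℝ) * d *
      ((C ^ τ) ^ 2 * ((C ^ τ)⁻¹ ^ 20 + (C ^ τ)⁻¹ ^ 20)) ≤ 1 / 2 := by
    generalize C ^ τ = Y at *
    have hm : (0 : ℝ) ≤ m := Nat.cast_nonneg m
    have hd : (0 : ℝ) ≤ d := Nat.cast_nonneg d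
    have e1 : (Y ^ 3 + 2 * Y ^ 3 / (Y⁻¹ ^ 2 / 4)) * ((m + m : ℕ) : ℝ) * d *
        (Y ^ 2 * (Y⁻¹ ^ 20 + Y⁻¹ ^ 20)) =
        (4 * Y⁻¹ ^ 14 + 32 * Y⁻¹ ^ 12) * (((m : ℝ) * d) * Y⁻¹) := by
      push_cast
      field_simp
      ring
    rw [e1]
    have h2 : ((m : ℝ) * d) * Y⁻¹ ≤ 1 / 100 := by
      rw [mul_inv_le_iff₀ h0]
      nlinarith [mul_nonneg hm hd]
    have h3 := pow_le_mul hi0 hi1 0 14 (by norm_num)
    have h4 := pow_le_mul hi0 hi1 0 12 (by norm_num)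
    rw [pow_zero] at h3 h4
    have h5 : 0 ≤ ((m : ℝ) * d) * Y⁻¹ := by positivity
    nlinarith
  have hV := vol_Bd_le hW g (by positivity) hg1 hK hσ
  have hsub : {y | Z.nm τ m y = Z.nm τ m z ∧
      Z.nm τ m (Z.f^[m * τ] y) = Z.nm τ m (Z.f^[m * τ] z)} ⊆ (fun y => y - z) ⁻¹'
        Bd (fun j u => spl m (Z.ch τ x) (Z.ch τ x') j u + g j u) (m + m) ((C ^ τ)⁻¹ ^ 20) := by
    rintro y ⟨hy1, hy2⟩
    have hn : ∀ j ≤ m + m, ‖Z.f^[j * τ] y - Z.f^[j * τ] z‖ ≤ (C ^ τ)⁻¹ ^ 20 := by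
      intro j hj
      by_cases hjm : j ≤ m
      · exact near_of_nm Z hC hy1.symm hjm
      · have := near_of_nm Z hC hy2.symm (j := j - m) (by omega)
        rw [← iter_add, ← iter_add] at this
        have e : m + (j - m) = j := by omega
        rwa [e] at this
    have ho := orb_eq Z (p := fun j => Z.f^[j * τ] z) (y := y) hg2
      (fun j hj e => by rw [e]; exact hn j hj.le)
    intro j hj
    have := ho j hj
    simp only [zero_mul, Function.iterate_zero, id_eq] at this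
    rw [this]
    exact hn j hj
  have hmeas := meas_nm Z τ m (fun a => a = Z.nm τ m z) (fun a => a = Z.nm τ m (Z.f^[m * τ] z))
  refine (Z.le _ hmeas).trans ?_
  simp only [sub_eq_add_neg] at hsub
  have h1 := (measure_mono (μ := volume) hsub).trans
    ((measure_preimage_add_right volume (-z) _).le.trans hV)
  rw [vol_Bl_spl _ _ _ (by positivity)] at h1
  refine (mul_le_mul_right h1 _).trans (le_of_eq ?_)
  have hC0 : (0 : ℝ) ≤ C := by linarith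
  rw [ENNReal.ofReal_mul (by positivity), ENNReal.ofReal_mul hC0, ENNReal.ofReal_pow zero_le_two,
    ENNReal.ofReal_ofNat, two_mul]
  ring

end PM

end Vale.Agent.P109
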