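import Vale.Agent.P109.Defs

/-! P109: uniform estimates near compact sets, volumes of shells. -/

namespace Vale.Agent.P109

open MeasureTheory Set Metric Filter Topology
open scoped ENNReal Pointwise

variable {d : ℕ}

theorem unif_C2 {Rg O K : Set (E d)} (hc : Convex ℝ Rg) (hi : (interior Rg).Nonempty)
    (hcl : IsClosed Rg) (hO : IsOpen O) (hK : IsCompact K) (hKO : K ⊆ O ∩ Rg) {g : E d → E d}
    (hg : ContDiffOn ℝ 2 g (O ∩ Rg)) : ∃ δ L : ℝ, 0 < δ ∧ 0 ≤ L ∧ ∀ y ∈ K, ball y δ ⊆ O ∧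
      (∀ y' ∈ ball y δ ∩ Rg, ‖g y' - g y‖ ≤ L * ‖y' - y‖) ∧
      ∀ r ≤ δ, ball y r ⊆ Rg → Good g univ L r y := by
  have hu : UniqueDiffOn ℝ (O ∩ Rg) := by
    rw [inter_comm]
    exact (uniqueDiffOn_convex hc hi).inter hO
  have h1 : ContDiffOn ℝ 1 (fderivWithin ℝ g (O ∩ Rg)) (O ∩ Rg) :=
    hg.fderivWithin hu (by norm_num)
  have h2 := h1.continuousOn_fderivWithin hu le_rfl
  obtain ⟨δ, hδ, hδO⟩ := hK.exists_cthickening_subset_open hO (hKO.trans inter_subset_left)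
  have hK' : IsCompact (cthickening δ K ∩ Rg) := hK.cthickening.inter_right hcl
  have hsub : cthickening δ K ∩ Rg ⊆ O ∩ Rg := inter_subset_inter_left _ hδO
  obtain ⟨C1, hC1⟩ := hK'.exists_bound_of_continuousOn (h1.continuousOn.mono hsub)
  obtain ⟨C2, hC2⟩ := hK'.exists_bound_of_continuousOn (h2.mono hsub)
  refine ⟨δ, max (max C1 C2) 0, hδ, le_max_right _ _, fun y hy => ?_⟩
  have hL1 : C1 ≤ max (max C1 C2) 0 := (le_max_left _ _).trans (le_max_left _ _)
  have hL2 : C2 ≤ max (max C1 C2) 0 := (le_max_right _ _).trans (le_max_left _ _)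
  have hb : ball y δ ⊆ cthickening δ K :=
    ball_subset_closedBall.trans (closedBall_subset_cthickening hy δ)
  have ht : ball y δ ∩ Rg ⊆ cthickening δ K ∩ Rg := inter_subset_inter_left _ hb
  have hcv : Convex ℝ (ball y δ ∩ Rg) := (convex_ball _ _).inter hc
  have hyt : y ∈ ball y δ ∩ Rg := ⟨mem_ball_self hδ, (hKO hy).2⟩
  have hd1 := hg.differentiableOn (by norm_num)
  have hd2 := h1.differentiableOn (by norm_num)
  refine ⟨hb.trans hδO, fun y' hy' => ?_, fun r hr hR => ⟨subset_univ _, fun z hz => ?_⟩⟩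
  · exact hcv.norm_image_sub_le_of_norm_hasFDerivWithin_le
      (fun z hz => (hd1 z (hsub (ht hz))).hasFDerivWithinAt.mono (ht.trans hsub))
      (fun z hz => (hC1 z (ht hz)).trans hL1) hyt hy'
  · have hm : ∀ w ∈ ball y r, w ∈ ball y δ ∩ Rg := fun w hw => ⟨ball_subset_ball hr hw, hR hw⟩
    have hn : ∀ w ∈ ball y r, O ∩ Rg ∈ 𝓝 w := fun w hw =>
      mem_of_superset (isOpen_ball.mem_nhds hw) fun u hu => hsub (ht (hm u hu))
    refine ⟨(hd1 z (hsub (ht (hm z hz)))).differentiableAt (hn z hz), ?_, fun w hw => ?_⟩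
    · rw [← fderivWithin_of_mem_nhds (hn z hz)]
      exact (hC1 z (ht (hm z hz))).trans hL1
    · rw [← fderivWithin_of_mem_nhds (hn z hz), ← fderivWithin_of_mem_nhds (hn w hw)]
      exact hcv.norm_image_sub_le_of_norm_hasFDerivWithin_le
        (fun u hu => (hd2 u (hsub (ht hu))).hasFDerivWithinAt.mono (ht.trans hsub))
        (fun u hu => (hC2 u (ht hu)).trans hL2) (hm w hw) (hm z hz)

theorem vol_convex_shell {Rg : Set (E d)} (hc : Convex ℝ Rg) (hi : (interior Rg).Nonempty)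
    (R : ℝ) : ∃ L : ℝ, 0 ≤ L ∧ ∀ r, 0 < r →
      volume {y | y ∈ Rg ∧ ‖y‖ ≤ R ∧ ¬ ball y r ⊆ Rg} ≤ ENNReal.ofReal (L * r) := by
  obtain ⟨z, hz⟩ := hi
  obtain ⟨ρ, hρ, hb⟩ := Metric.mem_nhds_iff.1 (mem_interior_iff_mem_nhds.1 hz)
  set K := Rg ∩ closedBall z (|R| + ‖z‖) with hK
  have hKc : Convex ℝ K := hc.inter (convex_closedBall _ _)
  have hzK : z ∈ K := ⟨interior_subset hz, mem_closedBall_self (by positivity)⟩
  have hfin : volume K ≠ ∞ :=
    ((measure_mono inter_subset_right).trans_lt measure_closedBall_lt_top).ne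
  set V := (volume K).toReal with hV
  have hV0 : 0 ≤ V := ENNReal.toReal_nonneg
  have hVK : volume K = ENNReal.ofReal V := (ENNReal.ofReal_toReal hfin).symm
  have hmem : ∀ y ∈ Rg, ‖y‖ ≤ R → y ∈ K := by
    intro y hy hyR
    refine ⟨hy, ?_⟩
    rw [mem_closedBall, dist_eq_norm]
    linarith [norm_sub_le y z, le_abs_self R]
  refine ⟨(d + 1) * V / ρ, by positivity, fun r hr => ?_⟩
  set θ := r / ρ with hθ
  have hθ0 : 0 < θ := div_pos hr hρ
  have hL : (d + 1) * V / ρ * r = (d + 1) * V * θ := by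
    rw [hθ]
    ring
  rw [hL]
  have hd0 : (0 : ℝ) ≤ d := Nat.cast_nonneg d
  by_cases h1 : 1 ≤ θ
  · refine (measure_mono fun y hy => hmem y hy.1 hy.2.1).trans ?_
    rw [hVK]
    refine ENNReal.ofReal_le_ofReal ?_
    nlinarith [mul_nonneg hd0 hV0, mul_nonneg (mul_nonneg hd0 hV0) hθ0.le]
  rw [not_le] at h1
  set H := AffineMap.homothety z (1 - θ) '' K with hH
  have hHc : Convex ℝ H := hKc.affine_image _
  have happ : ∀ k : E d, AffineMap.homothety z (1 - θ) k = θ • z + (1 - θ) • k := by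
    intro k
    rw [AffineMap.homothety_apply, vsub_eq_sub, vadd_eq_add]
    module
  have hHK : H ⊆ K := by
    rintro _ ⟨k, hk, rfl⟩
    rw [happ]
    exact hKc hzK hk hθ0.le (by linarith) (by ring)
  have hHb : ∀ y ∈ H, ball y r ⊆ Rg := by
    rintro _ ⟨k, hk, rfl⟩ w hw
    rw [happ, mem_ball, dist_eq_norm] at hw
    have h2 : z + θ⁻¹ • (w - (θ • z + (1 - θ) • k)) ∈ Rg := by
      refine hb ?_
      rw [mem_ball, dist_eq_norm, add_sub_cancel_left, norm_smul, norm_inv,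
        Real.norm_of_nonneg hθ0.le, inv_mul_lt_iff₀ hθ0, hθ, div_mul_cancel₀ _ hρ.ne']
      exact hw
    have h3 := hc h2 hk.1 hθ0.le (show 0 ≤ 1 - θ by linarith) (by ring)
    have h4 : θ • (z + θ⁻¹ • (w - (θ • z + (1 - θ) • k))) + (1 - θ) • k = w := by
      rw [smul_add, smul_smul, mul_inv_cancel₀ hθ0.ne', one_smul]
      abel
    rwa [h4] at h3
  have hsub : {y | y ∈ Rg ∧ ‖y‖ ≤ R ∧ ¬ ball y r ⊆ Rg} ⊆ K \ H :=
    fun y hy => ⟨hmem y hy.1 hy.2.1, fun h => hy.2.2 (hHb y h)⟩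
  refine (measure_mono hsub).trans ?_
  have hp : 0 ≤ (1 - θ) ^ d := pow_nonneg (by linarith) _
  rw [measure_sdiff hHK (hHc.nullMeasurableSet _) ((measure_mono hHK).trans_lt hfin.lt_top).ne,
    hH, Measure.addHaar_image_homothety, Module.finrank_fin_fun, abs_of_nonneg hp, hVK,
    ← ENNReal.ofReal_mul hp, tsub_le_iff_right,
    ← ENNReal.ofReal_add (by positivity) (mul_nonneg hp hV0)]
  refine ENNReal.ofReal_le_ofReal ?_
  have h5 := one_add_mul_le_pow (show (-2 : ℝ) ≤ -θ by linarith) d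
  rw [← sub_eq_add_neg] at h5
  nlinarith [mul_le_mul_of_nonneg_right h5 hV0, mul_nonneg hV0 hθ0.le]

theorem vol_sphere_shell (hd : 0 < d) (c : E d) {R : ℝ} (hR : 0 < R) : ∃ L : ℝ, 0 ≤ L ∧
    ∀ s, 0 < s → s ≤ R → volume {y : E d | |‖y - c‖ - R| ≤ s} ≤ ENNReal.ofReal (L * s) := by
  have : Nonempty (Fin d) := ⟨⟨0, hd⟩⟩
  have hfin : volume (ball (0 : E d) 1) ≠ ∞ := measure_ball_lt_top.ne
  set V := (volume (ball (0 : E d) 1)).toReal with hV
  have hV0 : 0 ≤ V := ENNReal.toReal_nonneg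
  have hVK : volume (ball (0 : E d) 1) = ENNReal.ofReal V := (ENNReal.ofReal_toReal hfin).symm
  refine ⟨2 * d * (2 * R) ^ (d - 1) * V, by positivity, fun s hs hsR => ?_⟩
  have hsub : {y : E d | |‖y - c‖ - R| ≤ s} ⊆ closedBall c (R + s) \ ball c (R - s) := by
    intro y hy
    have h := abs_le.1 (show |‖y - c‖ - R| ≤ s from hy)
    rw [Set.mem_sdiff, mem_closedBall, mem_ball, dist_eq_norm, not_lt]
    constructor <;> linarith [h.1, h.2]
  refine (measure_mono hsub).trans ?_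
  have h1 : 0 ≤ R - s := by linarith
  have h2 : 0 ≤ R + s := by linarith
  rw [measure_sdiff (ball_subset_closedBall.trans (closedBall_subset_closedBall (by linarith)))
    measurableSet_ball.nullMeasurableSet measure_ball_lt_top.ne,
    Measure.addHaar_closedBall _ _ h2, Measure.addHaar_ball _ _ h1, Module.finrank_fin_fun, hVK,
    ← ENNReal.ofReal_mul (pow_nonneg h1 _), ← ENNReal.ofReal_mul (pow_nonneg h2 _),
    tsub_le_iff_right, ← ENNReal.ofReal_add (by positivity) (mul_nonneg (pow_nonneg h1 _) hV0)]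
  refine ENNReal.ofReal_le_ofReal ?_
  have h3 := (le_abs_self _).trans (abs_pow_sub_pow_le (R + s) (R - s) d)
  have h4 : max |R + s| |R - s| ≤ 2 * R := by
    rw [abs_of_nonneg h1, abs_of_nonneg h2]
    exact max_le (by linarith) (by linarith)
  have h5 : (max |R + s| |R - s|) ^ (d - 1) ≤ (2 * R) ^ (d - 1) :=
    pow_le_pow_left₀ (le_max_of_le_left (abs_nonneg _)) h4 _
  have h6 : |R + s - (R - s)| = 2 * s := by
    rw [abs_of_nonneg (by linarith)]
    ring
  rw [h6] at h3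
  have h7 : 2 * s * d * (max |R + s| |R - s|) ^ (d - 1) ≤ 2 * s * d * (2 * R) ^ (d - 1) :=
    mul_le_mul_of_nonneg_left h5 (by positivity)
  nlinarith [mul_le_mul_of_nonneg_right (h3.trans h7) hV0]

end Vale.Agent.P109
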