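import Mathlib

/-! P109: the notions of the statement. -/

namespace Vale.Agent.P109

open MeasureTheory Filter
open scoped ENNReal Manifold ContDiff

/-- Shannon entropy of the finite partition given by the level sets of `P`. -/
noncomputable def shannon {X ι : Type} [MeasurableSpace X] [Fintype ι] (μ : Measure X)
    (P : X → ι) : ℝ :=
  ∑ i, Real.negMulLog (μ.real (P ⁻¹' {i}))

/-- Kolmogorov-Sinai entropy. -/
noncomputable def ksEntropy {X : Type} [MeasurableSpace X] (μ : Measure X) (T : X → X) : ℝ≥0∞ :=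
  ⨆ (r : ℕ) (P : X → Fin r) (_ : Measurable P),
    limsup (fun N : ℕ =>
      ENNReal.ofReal (shannon μ (fun (x : X) (t : Fin N) => P (T^[t] x)) / N)) atTop

/-- Existence of a smooth positive-volume model. -/
def HasSmoothModel {X : Type} [MeasurableSpace X] (μ : Measure X) (T : X → X) : Prop :=
  ∃ (d : ℕ) (H : Type) (_ : TopologicalSpace H)
    (I : ModelWithCorners ℝ (EuclideanSpace ℝ (Fin d)) H)
    (M : Type) (_ : TopologicalSpace M) (_ : ChartedSpace H M) (_ : IsManifold I ∞ M)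
    (_ : T2Space M) (_ : CompactSpace M) (_ : MeasurableSpace M) (_ : BorelSpace M)
    (ν : Measure M) (S : Diffeomorph I I M M ∞) (F : X → M) (G : M → X),
    IsProbabilityMeasure ν ∧
    (∀ p : M, ∃ ρ : EuclideanSpace ℝ (Fin d) → ℝ,
      ContDiffOn ℝ ∞ ρ (extChartAt I p).target ∧ (∀ y ∈ (extChartAt I p).target, 0 < ρ y) ∧
      ∀ A ⊆ (extChartAt I p).target, MeasurableSet A →
        ν ((extChartAt I p).source ∩ extChartAt I p ⁻¹' A) = ∫⁻ y in A, ENNReal.ofReal (ρ y)) ∧
    MeasurePreserving S ν ν ∧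
    AEMeasurable F μ ∧ AEMeasurable G ν ∧ μ.map F = ν ∧
    (∀ᵐ x ∂μ, G (F x) = x) ∧ (∀ᵐ y ∂ν, F (G y) = y) ∧ (∀ᵐ x ∂μ, F (T x) = S (F x))

end Vale.Agent.P109
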