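import Vale.Agent.P109.Defs

/-! P109: construction of the adic system. -/

namespace Vale.Agent.P109

open MeasureTheory Set Metric Filter Topology
open scoped ENNReal Pointwise

namespace Sys

variable {b D : ℕ → ℕ} (F : Fam b D)

/-- States of level `n`. -/
abbrev Y (b : ℕ → ℕ) (n : ℕ) : Type := Fin (2 ^ n) × Fin (2 ^ b n)

/-- New coordinates at level `n`. -/
abbrev C (b D : ℕ → ℕ) (n : ℕ) : Type := Bool × Fin (2 ^ (b n - D n))

/-- The space. -/
abbrev X (b D : ℕ → ℕ) : Type := Fin (2 ^ b 0) × ∀ n, C b D n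

/-- Positions of the next level. -/
def ps (n : ℕ) : Fin (2 ^ n) × Bool ≃ Fin (2 ^ (n + 1)) where
  toFun q := ⟨q.1.val + (if q.2 then 2 ^ n else 0), by
    have := q.1.isLt
    rw [pow_succ]; split_ifs <;> omega⟩
  invFun q := (⟨q.val % 2 ^ n, Nat.mod_lt _ (by positivity)⟩, decide (2 ^ n ≤ q.val))
  left_inv := by
    rintro ⟨p, s⟩
    have := p.isLt
    cases s
    · simp [Nat.mod_eq_of_lt this, this]
    · simp [Nat.mod_eq_of_lt this]
  right_inv := by
    intro q
    have h : q.val < 2 ^ n * 2 := q.isLt.trans_eq (pow_succ 2 n)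
    apply Fin.ext
    by_cases hq : 2 ^ n ≤ q.val
    · have : q.val % 2 ^ n = q.val - 2 ^ n := by
        rw [Nat.mod_eq_sub_mod hq, Nat.mod_eq_of_lt (by omega)]
      simp only [hq, decide_true, if_true, this]
      omega
    · simp only [hq, decide_false]
      rw [Nat.mod_eq_of_lt (by omega)]
      simp

theorem ps_val (n : ℕ) (p : Fin (2 ^ n)) (s : Bool) :
    (ps n (p, s)).val = p.val + (if s then 2 ^ n else 0) := rfl

/-- The step bijection. -/
def st (n : ℕ) : Y b n × C b D n ≃ Y b (n + 1) where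
  toFun q := (ps n (q.1.1, q.2.1), (F.e n q.2.1).symm (q.1.2, q.2.2))
  invFun y := ((((ps n).symm y.1).1, (F.e n ((ps n).symm y.1).2 y.2).1),
    (((ps n).symm y.1).2, (F.e n ((ps n).symm y.1).2 y.2).2))
  left_inv := by
    rintro ⟨⟨p, y⟩, s, c⟩
    simp
  right_inv := by
    rintro ⟨p, y⟩
    simp

theorem st_apply (n : ℕ) (y : Y b n) (c : C b D n) :
    st F n (y, c) = (ps n (y.1, c.1), (F.e n c.1).symm (y.2, c.2)) := rfl

/-- The state of level `n` of a point. -/
def lev : ∀ n, X b D → Y b n
  | 0, x => (⟨0, by norm_num⟩, x.1)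
  | n + 1, x => st F n (lev n x, x.2 n)

theorem lev_succ (n : ℕ) (x : X b D) : lev F (n + 1) x = st F n (lev F n x, x.2 n) := rfl

theorem lev_eq_iff (n : ℕ) (x x' : X b D) :
    lev F n x = lev F n x' ↔ x.1 = x'.1 ∧ ∀ m < n, x.2 m = x'.2 m := by
  induction n with
  | zero => simp [lev]
  | succ n ih =>
    rw [lev_succ, lev_succ, (st F n).injective.eq_iff, Prod.mk.injEq, ih]
    constructor
    · rintro ⟨⟨h1, h2⟩, h3⟩
      refine ⟨h1, fun m hm => ?_⟩
      rcases Nat.lt_succ_iff_lt_or_eq.1 hm with h | rfl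
      · exact h2 m h
      · exact h3
    · rintro ⟨h1, h2⟩
      exact ⟨⟨h1, fun m hm => h2 m (by omega)⟩, h2 n (by omega)⟩

theorem ext_lev (n : ℕ) {x x' : X b D} (h : lev F n x = lev F n x')
    (h' : ∀ m, n ≤ m → x.2 m = x'.2 m) : x = x' := by
  obtain ⟨h1, h2⟩ := (lev_eq_iff F n x x').1 h
  refine Prod.ext h1 (funext fun m => ?_)
  rcases lt_or_ge m n with hm | hm
  · exact h2 m hm
  · exact h' m hm

/-- Replace the state of level `n`. -/
def rep : ∀ n, Y b n → X b D → X b D
  | 0, y, x => (y.2, x.2)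
  | n + 1, y, x => rep n ((st F n).symm y).1 (x.1, Function.update x.2 n ((st F n).symm y).2)

theorem rep_tail (n : ℕ) (y : Y b n) (x : X b D) (m : ℕ) (hm : n ≤ m) :
    (rep F n y x).2 m = x.2 m := by
  induction n generalizing x with
  | zero => rfl
  | succ n ih =>
    simp only [rep]
    rw [ih _ _ (by omega)]
    exact Function.update_of_ne (by omega) _ _

theorem lev_rep (n : ℕ) (y : Y b n) (x : X b D) : lev F n (rep F n y x) = y := by
  induction n generalizing x with
  | zero =>
    refine Prod.ext ?_ rfl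
    apply Fin.ext
    have := y.1.isLt
    simp only [lev]
    omega
  | succ n ih =>
    rw [lev_succ]
    simp only [rep]
    rw [ih, rep_tail F n _ _ n le_rfl]
    simp

theorem meas_lev (n : ℕ) : Measurable (lev F n) := by
  induction n with
  | zero => exact measurable_const.prodMk measurable_fst
  | succ n ih =>
    exact (measurable_of_countable (st F n)).comp
      (ih.prodMk ((measurable_pi_apply n).comp measurable_snd))

theorem meas_rep (n : ℕ) (y : Y b n) : Measurable (rep F n y) := by
  induction n with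
  | zero => exact measurable_const.prodMk measurable_snd
  | succ n ih =>
    exact (ih _).comp (measurable_fst.prodMk
      ((measurable_update_left).comp measurable_snd))

theorem meas_rep' (n : ℕ) (τ : Y b n → Y b n) :
    Measurable fun x => rep F n (τ (lev F n x)) x := by
  have h : Measurable fun q : X b D × Y b n => rep F n q.2 q.1 :=
    measurable_from_prod_countable_left fun y => meas_rep F n y
  exact h.comp (measurable_id.prodMk ((measurable_of_countable τ).comp (meas_lev F n)))

theorem exists_down {n m : ℕ} (h : n ≤ m) : ∃ f : Y b m → Y b n, ∀ x, lev F n x = f (lev F m x) := by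
  induction m, h using Nat.le_induction with
  | base => exact ⟨id, fun _ => rfl⟩
  | succ m _ ih =>
    obtain ⟨f, hf⟩ := ih
    refine ⟨fun y => f ((st F m).symm y).1, fun x => ?_⟩
    simp only [lev_succ, Equiv.symm_apply_apply, hf]

/-- Flip all the bits. -/
def flip (x : X b D) : X b D := (x.1, fun n => (!(x.2 n).1, (x.2 n).2))

theorem flip_flip (x : X b D) : flip (flip x) = x := by
  simp [flip]

theorem meas_flip : Measurable (flip : X b D → X b D) := by
  refine measurable_fst.prodMk (measurable_pi_iff.2 fun n => ?_)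
  exact (measurable_of_countable fun c : C b D n => (!c.1, c.2)).comp
    ((measurable_pi_apply n).comp measurable_snd)

theorem pos_flip (n : ℕ) (x : X b D) :
    (lev F n (flip x)).1.val + (lev F n x).1.val + 1 = 2 ^ n := by
  induction n with
  | zero => simp [lev]
  | succ n ih =>
    rw [lev_succ, lev_succ, st_apply, st_apply, ps_val, ps_val, pow_succ]
    have e : ((flip x).2 n).1 = !(x.2 n).1 := rfl
    rw [e]
    by_cases h : (x.2 n).1 = true
    · simp only [h, Bool.not_true, Bool.false_eq_true, if_false, if_true]; omega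
    · simp only [Bool.not_eq_true] at h
      simp only [h, Bool.not_false, Bool.false_eq_true, if_false, if_true]; omega

/-- A consistent family of local moves. -/
structure Mv where
  good : ∀ n, Y b n → Prop
  τ : ∀ n, Y b n → Y b n
  step : ∀ n y c, good n y → good (n + 1) (st F n (y, c)) ∧
    τ (n + 1) (st F n (y, c)) = st F n (τ n y, c)

variable {F}

theorem Mv.mono (M : Mv F) {n m : ℕ} (h : n ≤ m) (x : X b D) (hx : M.good n (lev F n x)) :
    M.good m (lev F m x) ∧
      rep F m (M.τ m (lev F m x)) x = rep F n (M.τ n (lev F n x)) x := by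
  induction m, h using Nat.le_induction with
  | base => exact ⟨hx, rfl⟩
  | succ m hm ih =>
    obtain ⟨h1, h2⟩ := ih
    obtain ⟨h3, h4⟩ := M.step m _ (x.2 m) h1
    refine ⟨h3, ?_⟩
    rw [← h2]
    apply ext_lev F (m + 1)
    · rw [lev_rep, lev_succ, h4, lev_succ, lev_rep, rep_tail F m _ _ m le_rfl]
    · intro k hk
      rw [rep_tail F _ _ _ k hk, rep_tail F _ _ _ k (by omega)]

theorem Mv.exists_map (M : Mv F) : ∃ T : X b D → X b D, Measurable T ∧
    (∀ n x, M.good n (lev F n x) → T x = rep F n (M.τ n (lev F n x)) x) ∧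
    ∀ x, (∀ n, ¬ M.good n (lev F n x)) → T x = flip x := by
  classical
  let p : ℕ → X b D → Prop := fun k x =>
    Nat.casesOn k (∀ n, ¬ M.good n (lev F n x)) fun n => M.good n (lev F n x)
  let f : ℕ → X b D → X b D := fun k =>
    Nat.casesOn k flip fun n x => rep F n (M.τ n (lev F n x)) x
  have hg : ∀ n, MeasurableSet {x | M.good n (lev F n x)} := fun n =>
    meas_lev F n (MeasurableSet.of_discrete (s := {y | M.good n y}))
  have hp : ∀ k, MeasurableSet {x | p k x} := by
    rintro (_ | n)
    · have : {x | p 0 x} = ⋂ n, {x | M.good n (lev F n x)}ᶜ := by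
        ext x; simp [p]
      rw [this]
      exact MeasurableSet.iInter fun n => (hg n).compl
    · exact hg n
  have hf : ∀ k, Measurable (f k) := by
    rintro (_ | n)
    · exact meas_flip
    · exact meas_rep' F n (M.τ n)
  have h : ∀ x, ∃ k, p k x := by
    intro x
    by_cases hx : ∀ n, ¬ M.good n (lev F n x)
    · exact ⟨0, hx⟩
    · push Not at hx
      obtain ⟨n, hn⟩ := hx
      exact ⟨n + 1, hn⟩
  obtain ⟨K, mK, hK⟩ : ∃ K : X b D → ℕ, (Measurable fun x => f (K x) x) ∧ ∀ x, p (K x) x :=
    ⟨_, @Measurable.find _ _ _ _ f p (fun _ => Classical.decPred _) hf hp h,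
      fun x => @Nat.find_spec _ (fun n => Classical.decPred (p n) x) (h x)⟩
  refine ⟨fun x => f (K x) x, mK, ?_, ?_⟩
  · intro n x hx
    have hs := hK x
    beta_reduce
    generalize K x = k at hs ⊢
    rcases k with _ | k
    · exact absurd hx (hs n)
    · show rep F k (M.τ k (lev F k x)) x = _
      rcases le_total k n with hk | hk
      · exact (M.mono hk x hs).2.symm
      · exact (M.mono hk x hx).2
  · intro x hx
    have hs := hK x
    beta_reduce
    generalize K x = k at hs ⊢
    rcases k with _ | k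
    · rfl
    · exact absurd hs (hx k)

/-- The cyclic shift of the positions. -/
def sg (b : ℕ → ℕ) (n : ℕ) : Equiv.Perm (Y b n) :=
  Equiv.prodCongr (Equiv.addRight (1 : Fin (2 ^ n))) (Equiv.refl _)

theorem sg_val (n : ℕ) (y : Y b n) : (sg b n y).1.val = (y.1.val + 1) % 2 ^ n := by
  simp [sg, Fin.val_add]

theorem sg_snd (n : ℕ) (y : Y b n) : (sg b n y).2 = y.2 := rfl

variable (F)

theorem sg_step (n : ℕ) (y : Y b n) (c : C b D n) (h : y.1.val + 1 < 2 ^ n) :
    (st F n (y, c)).1.val + 1 < 2 ^ (n + 1) ∧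
      sg b (n + 1) (st F n (y, c)) = st F n (sg b n y, c) := by
  have h1 : (st F n (y, c)).1.val + 1 < 2 ^ (n + 1) := by
    rw [st_apply, ps_val, pow_succ]; split_ifs <;> omega
  refine ⟨h1, Prod.ext (Fin.ext ?_) rfl⟩
  rw [sg_val, Nat.mod_eq_of_lt h1, st_apply, st_apply, ps_val, ps_val, sg_val, Nat.mod_eq_of_lt h]
  omega

/-- The forward moves. -/
def fw : Mv F where
  good n y := y.1.val + 1 < 2 ^ n
  τ n := sg b n
  step n y c h := sg_step F n y c h

/-- The backward moves. -/
def bw : Mv F where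
  good n y := ((sg b n).symm y).1.val + 1 < 2 ^ n
  τ n := (sg b n).symm
  step n y c h := by
    obtain ⟨h1, h2⟩ := sg_step F n _ c h
    rw [Equiv.apply_symm_apply] at h2
    have h3 : (sg b (n + 1)).symm (st F n (y, c)) = st F n ((sg b n).symm y, c) := by
      rw [← h2, Equiv.symm_apply_apply]
    exact ⟨by rw [h3]; exact h1, h3⟩

theorem bw_good (n : ℕ) (y : Y b n) : (bw F).good n y ↔ y.1.val ≠ 0 := by
  show ((sg b n).symm y).1.val + 1 < 2 ^ n ↔ _
  have h := sg_val n ((sg b n).symm y)
  rw [Equiv.apply_symm_apply] at h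
  have h2 := ((sg b n).symm y).1.isLt
  constructor
  · intro h3
    rw [h, Nat.mod_eq_of_lt h3]; omega
  · intro h3
    by_contra h4
    have : ((sg b n).symm y).1.val + 1 = 2 ^ n := by omega
    rw [this, Nat.mod_self] at h
    exact h3 h

theorem fw_good (n : ℕ) (y : Y b n) : (fw F).good n y ↔ y.1.val + 1 < 2 ^ n := Iff.rfl

theorem exists_T : ∃ T : X b D ≃ᵐ X b D,
    (∀ n x, (lev F n x).1.val + 1 < 2 ^ n → lev F n (T x) = sg b n (lev F n x)) ∧
    ∀ n x, (lev F n (T x)).1.val = ((lev F n x).1.val + 1) % 2 ^ n := by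
  obtain ⟨T, mT, hT, hT'⟩ := (fw F).exists_map
  obtain ⟨S, mS, hS, hS'⟩ := (bw F).exists_map
  have hTl : ∀ n x, (lev F n x).1.val + 1 < 2 ^ n → lev F n (T x) = sg b n (lev F n x) := by
    intro n x hx
    rw [hT n x hx, lev_rep]; rfl
  have hSl : ∀ n x, (bw F).good n (lev F n x) → lev F n (S x) = (sg b n).symm (lev F n x) := by
    intro n x hx
    rw [hS n x hx, lev_rep]; rfl
  have h1 : ∀ x, S (T x) = x := by
    intro x
    by_cases hx : ∀ n, ¬ (fw F).good n (lev F n x)
    · rw [hT' x hx, hS', flip_flip]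
      intro n
      have h := pos_flip F n x
      have h' := hx n
      rw [fw_good] at h'
      rw [bw_good]; omega
    · push Not at hx
      obtain ⟨n, hn⟩ := hx
      have hg : (bw F).good n (lev F n (T x)) := by
        show ((sg b n).symm _).1.val + 1 < 2 ^ n
        rw [hTl n x hn, Equiv.symm_apply_apply]; exact hn
      apply ext_lev F n
      · rw [hSl n _ hg, hTl n x hn, Equiv.symm_apply_apply]
      · intro m hm
        rw [hS n _ hg, rep_tail F _ _ _ m hm, hT n x hn, rep_tail F _ _ _ m hm]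
  have h2 : ∀ x, T (S x) = x := by
    intro x
    by_cases hx : ∀ n, ¬ (bw F).good n (lev F n x)
    · rw [hS' x hx, hT', flip_flip]
      intro n
      have h := pos_flip F n x
      have h' := hx n
      rw [bw_good] at h'
      rw [fw_good]; omega
    · push Not at hx
      obtain ⟨n, hn⟩ := hx
      have hg : (fw F).good n (lev F n (S x)) := by
        rw [hSl n x hn]; exact hn
      apply ext_lev F n
      · rw [hTl n _ hg, hSl n x hn, Equiv.apply_symm_apply]
      · intro m hm
        rw [hT n _ hg, rep_tail F _ _ _ m hm, hS n x hn, rep_tail F _ _ _ m hm]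
  refine ⟨⟨⟨T, S, h1, h2⟩, mT, mS⟩, hTl, ?_⟩
  intro n x
  show (lev F n (T x)).1.val = _
  by_cases hx : ∀ n, ¬ (fw F).good n (lev F n x)
  · rw [hT' x hx]
    have h := pos_flip F n x
    have h' := hx n
    rw [fw_good] at h'
    have h3 : (lev F n x).1.val + 1 = 2 ^ n := by omega
    rw [h3, Nat.mod_self]; omega
  · push Not at hx
    obtain ⟨k, hk⟩ := hx
    have hm := ((fw F).mono (le_max_left k n) x hk).1
    have key : ∀ m, n ≤ m → ∀ z, (lev F m z).1.val % 2 ^ n = (lev F n z).1.val := by
      intro m hm z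
      induction m, hm using Nat.le_induction with
      | base => exact Nat.mod_eq_of_lt (lev F n z).1.isLt
      | succ m hm ih =>
        rw [lev_succ, st_apply, ps_val, ← ih]
        split_ifs
        · obtain ⟨j, hj⟩ := pow_dvd_pow 2 hm
          generalize ((lev F m z).1.val) = t
          rw [hj, Nat.add_mul_mod_self_left]
        · rfl
    rw [← key _ (le_max_right k n) (T x), hTl _ x hm, sg_val, Nat.mod_eq_of_lt hm,
      ← key _ (le_max_right k n) x, Nat.mod_add_mod]

/-- The measure. -/
noncomputable def mu (b D : ℕ → ℕ) : Measure (X b D) :=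
  (ProbabilityTheory.uniformOn (univ : Set (Fin (2 ^ b 0)))).prod
    (Measure.infinitePi fun n => ProbabilityTheory.uniformOn (univ : Set (C b D n)))

theorem mu_prob : IsProbabilityMeasure (mu b D) := by
  unfold mu; infer_instance

include F in
theorem card_step (n : ℕ) : 2 ^ b (n + 1) = 2 ^ b n * 2 ^ (b n - D n) := by
  simpa using Fintype.card_congr (F.e n true)

theorem mu_lev (n : ℕ) (y : Y b n) : mu b D (lev F n ⁻¹' {y}) = (2 ^ n * 2 ^ b n)⁻¹ := by
  obtain ⟨x0, rfl⟩ : ∃ x0, lev F n x0 = y :=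
    ⟨rep F n y (⟨0, by positivity⟩, fun _ => (true, ⟨0, by positivity⟩)), lev_rep F n y _⟩
  have h : lev F n ⁻¹' {lev F n x0} =
      {x0.1} ×ˢ Set.pi (Finset.range n : Set ℕ) (fun m => {x0.2 m}) := by
    ext x
    simp [lev_eq_iff]
  rw [h, mu, Measure.prod_prod, Measure.infinitePi_pi _ (fun _ _ => measurableSet_singleton _)]
  simp only [ProbabilityTheory.uniformOn_univ, Measure.count_singleton, one_div]
  clear h
  induction n with
  | zero => simp
  | succ n ih =>
    rw [Finset.prod_range_succ, ← mul_assoc, ih, ← ENNReal.mul_inv (by simp) (by simp)]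
    congr 1
    have := congrArg (Nat.cast : ℕ → ℝ≥0∞) (card_step F n)
    push_cast at this
    simp only [Fintype.card_prod, Fintype.card_bool, Fintype.card_fin]
    push_cast
    rw [this, pow_succ]; ring

theorem mu_lev_set (n : ℕ) (S : Set (Y b n)) :
    mu b D (lev F n ⁻¹' S) = (2 ^ n * 2 ^ b n)⁻¹ * Measure.count S := by
  have h : (mu b D).map (lev F n) = ((2 ^ n * 2 ^ b n : ℝ≥0∞)⁻¹) • Measure.count := by
    refine Measure.ext_of_singleton fun y => ?_
    rw [Measure.map_apply (meas_lev F n) (measurableSet_singleton _), mu_lev]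
    simp
  rw [← Measure.map_apply (meas_lev F n) MeasurableSet.of_discrete, h]
  rfl

theorem mu_top (n : ℕ) :
    mu b D {x | ¬ (lev F n x).1.val + 1 < 2 ^ n} ≤ (2 ^ n)⁻¹ := by
  have hp : 0 < 2 ^ n := by positivity
  have h : {x | ¬ (lev F n x).1.val + 1 < 2 ^ n} ⊆
      ⋃ y : Fin (2 ^ b n), lev F n ⁻¹' {(⟨2 ^ n - 1, by omega⟩, y)} := by
    intro x hx
    refine mem_iUnion.2 ⟨(lev F n x).2, Prod.ext (Fin.ext ?_) rfl⟩
    have := (lev F n x).1.isLt
    simp only [mem_ofPred_eq] at hx
    show (lev F n x).1.val = 2 ^ n - 1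
    omega
  refine (measure_mono h).trans ((measure_iUnion_le _).trans ?_)
  simp only [mu_lev, tsum_fintype, Finset.sum_const, Finset.card_univ, Fintype.card_fin,
    nsmul_eq_mul]
  push_cast
  rw [ENNReal.mul_inv (by simp) (by simp), mul_left_comm,
    ENNReal.mul_inv_cancel (by simp) (by simp), mul_one]

/-- The cylinders. -/
def Cyl : Set (Set (X b D)) := {A | ∃ (n : ℕ) (S : Set (Y b n)), A = lev F n ⁻¹' S}

theorem cyl_two {A B : Set (X b D)} (hA : A ∈ Cyl F) (hB : B ∈ Cyl F) :
    ∃ (n : ℕ) (S S' : Set (Y b n)), A = lev F n ⁻¹' S ∧ B = lev F n ⁻¹' S' := by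
  obtain ⟨n, S, rfl⟩ := hA
  obtain ⟨m, S', rfl⟩ := hB
  obtain ⟨f, hf⟩ := exists_down F (le_max_left n m)
  obtain ⟨g, hg⟩ := exists_down F (le_max_right n m)
  refine ⟨max n m, f ⁻¹' S, g ⁻¹' S', ?_, ?_⟩
  · ext x; simp [hf]
  · ext x; simp [hg]

theorem cyl_ring : IsSetRing (Cyl F) where
  empty_mem := ⟨0, ∅, rfl⟩
  union_mem _ _ hA hB := by
    obtain ⟨n, S, S', rfl, rfl⟩ := cyl_two F hA hB
    exact ⟨n, S ∪ S', rfl⟩
  sdiff_mem _ _ hA hB := by
    obtain ⟨n, S, S', rfl, rfl⟩ := cyl_two F hA hB
    exact ⟨n, S \ S', rfl⟩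

theorem cyl_gen : (inferInstance : MeasurableSpace (X b D)) = MeasurableSpace.generateFrom (Cyl F) := by
  apply le_antisymm
  · have hl : ∀ n, @Measurable _ _ (MeasurableSpace.generateFrom (Cyl F)) _ (lev F n) :=
      fun n S _ => MeasurableSpace.measurableSet_generateFrom ⟨n, S, rfl⟩
    have h : @Measurable _ _ (MeasurableSpace.generateFrom (Cyl F))
        (inferInstance : MeasurableSpace (X b D)) id := by
      let _ : MeasurableSpace (X b D) := MeasurableSpace.generateFrom (Cyl F)
      refine Measurable.prodMk (f := fun x : X b D => x.1) (g := fun x : X b D => x.2) ?_ ?_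
      · exact measurable_snd.comp (hl 0)
      · refine measurable_pi_iff.2 fun n => ?_
        have : (fun x : X b D => x.2 n) = fun x => ((st F n).symm (lev F (n + 1) x)).2 := by
          funext x; rw [lev_succ, Equiv.symm_apply_apply]
        rw [this]
        exact (measurable_of_countable fun y => ((st F n).symm y).2).comp (hl (n + 1))
    exact fun s hs => h hs
  · refine MeasurableSpace.generateFrom_le ?_
    rintro _ ⟨n, S, rfl⟩
    exact meas_lev F n MeasurableSet.of_discrete

theorem le_of_pow {a c : ℝ≥0∞} (n : ℕ) (h : ∀ m, n ≤ m → a ≤ c + (2 ^ m)⁻¹) : a ≤ c := by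
  have h1 : Tendsto (fun m : ℕ => c + ((2 : ℝ≥0∞) ^ m)⁻¹) atTop (𝓝 (c + 0)) := by
    refine tendsto_const_nhds.add ?_
    simpa [ENNReal.inv_pow] using
      ENNReal.tendsto_pow_atTop_nhds_zero_of_lt_one (r := 2⁻¹) (by simp)
  rw [add_zero] at h1
  exact ge_of_tendsto h1 (eventually_atTop.2 ⟨n, h⟩)

theorem pres_T (T : X b D → X b D) (mT : Measurable T)
    (hT : ∀ n x, (lev F n x).1.val + 1 < 2 ^ n → lev F n (T x) = sg b n (lev F n x)) :
    MeasurePreserving T (mu b D) (mu b D) := by
  have := mu_prob (b := b) (D := D)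
  refine ⟨mT, ?_⟩
  have : IsProbabilityMeasure ((mu b D).map T) := Measure.isProbabilityMeasure_map mT.aemeasurable
  refine ext_of_generate_finite (Cyl F) (cyl_gen F) (cyl_ring F).isSetSemiring.isPiSystem ?_
    (by simp)
  rintro _ ⟨n, S, rfl⟩
  rw [Measure.map_apply mT (meas_lev F n MeasurableSet.of_discrete)]
  have key : ∀ m (S' : Set (Y b m)),
      mu b D (lev F m ⁻¹' (sg b m ⁻¹' S')) = mu b D (lev F m ⁻¹' S') := by
    intro m S'
    rw [mu_lev_set, mu_lev_set, ← Equiv.image_symm_eq_preimage,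
      Measure.count_injective_image (sg b m).symm.injective]
  apply le_antisymm
  · refine le_of_pow n fun m hm => ?_
    obtain ⟨f, hf⟩ := exists_down F hm
    have e : lev F n ⁻¹' S = lev F m ⁻¹' (f ⁻¹' S) := by ext x; simp [hf]
    rw [e, ← key m]
    refine le_trans (measure_mono ?_) ((measure_union_le _ _).trans (add_le_add le_rfl (mu_top F m)))
    intro x hx
    by_cases h : (lev F m x).1.val + 1 < 2 ^ m
    · left
      simp only [mem_preimage] at hx ⊢
      rwa [← hT m x h]
    · exact Or.inr h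
  · refine le_of_pow n fun m hm => ?_
    obtain ⟨f, hf⟩ := exists_down F hm
    have e : lev F n ⁻¹' S = lev F m ⁻¹' (f ⁻¹' S) := by ext x; simp [hf]
    rw [e, ← key m]
    refine le_trans (measure_mono ?_) ((measure_union_le _ _).trans (add_le_add le_rfl (mu_top F m)))
    intro x hx
    by_cases h : (lev F m x).1.val + 1 < 2 ^ m
    · left
      simp only [mem_preimage] at hx ⊢
      rwa [hT m x h]
    · exact Or.inr h

end Sys

theorem exists_system {b D : ℕ → ℕ} (F : Fam b D) :
    ∃ (X : Type) (_ : MeasurableSpace X) (_ : StandardBorelSpace X) (μ : Measure X)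
      (T : X ≃ᵐ X), IsProbabilityMeasure μ ∧ (∀ x, μ {x} = 0) ∧ MeasurePreserving T μ μ ∧
        ∃ Ad : Adic F μ T, Ad.Gen := by
  obtain ⟨T, hT, hT'⟩ := Sys.exists_T F
  have := Sys.mu_prob (b := b) (D := D)
  refine ⟨Sys.X b D, inferInstance, inferInstance, Sys.mu b D, T, inferInstance, ?_,
    Sys.pres_T F T T.measurable hT, ?_⟩
  · intro x
    refine le_antisymm (Sys.le_of_pow 0 fun m _ => ?_) zero_le
    have h : ({x} : Set (Sys.X b D)) ⊆ Sys.lev F m ⁻¹' {Sys.lev F m x} := by
      rintro _ rfl; rfl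
    refine (measure_mono h).trans ?_
    rw [Sys.mu_lev, zero_add]
    exact ENNReal.inv_le_inv.2 (le_mul_of_one_le_right' (one_le_pow₀ (by simp)))
  · refine ⟨{ pos := fun n x => (Sys.lev F n x).1.val
              w := fun n x => (Sys.lev F n x).2
              meas_pos := fun n => (measurable_of_countable fun y : Sys.Y b n => y.1.val).comp
                (Sys.meas_lev F n)
              meas_w := fun n => measurable_snd.comp (Sys.meas_lev F n)
              pos_lt := fun n x => (Sys.lev F n x).1.isLt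
              pos_T := hT'
              w_T := fun n x h => by rw [hT n x h]; rfl
              pos_succ := ?_
              w_succ := ?_
              unif := ?_ }, ?_⟩
    · intro n x
      rw [Sys.lev_succ, Sys.st_apply, Sys.ps_val]
      have := (Sys.lev F n x).1.isLt
      split_ifs
      · rw [Nat.add_mod_right, Nat.mod_eq_of_lt this]
      · exact Nat.mod_eq_of_lt this
    · intro n x
      rw [Sys.lev_succ, Sys.st_apply, Sys.ps_val]
      have := (Sys.lev F n x).1.isLt
      cases h : (x.2 n).1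
      · simp [Fam.lft, this]
      · simp [Fam.rgt]
    · intro n p y hp
      rw [← Sys.mu_lev F n (⟨p, hp⟩, y)]
      congr 1
      ext x
      simp [Prod.ext_iff, Fin.ext_iff]
    · intro A hA ε hε
      obtain ⟨_, ⟨n, S, rfl⟩, h⟩ := exists_measure_symmDiff_lt_of_generateFrom_isSetRing
        (μ := Sys.mu b D) (Sys.cyl_ring F)
        ⟨{univ}, countable_singleton _, by
          rintro _ rfl; exact ⟨0, univ, rfl⟩, by simp⟩ (Sys.cyl_gen F) hA hε
      refine ⟨n, (fun y : Sys.Y b n => (y.1.val, y.2)) '' S, ?_⟩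
      rw [symmDiff_comm] at h
      have e : {x | ((Sys.lev F n x).1.val, (Sys.lev F n x).2) ∈
          (fun y : Sys.Y b n => (y.1.val, y.2)) '' S} = Sys.lev F n ⁻¹' S := by
        ext x
        simp only [mem_ofPred_eq, mem_image, mem_preimage, Prod.mk.injEq]
        constructor
        · rintro ⟨y, hy, h1, h2⟩
          rwa [← Prod.ext (Fin.ext h1) h2]
        · exact fun h => ⟨_, h, rfl, rfl⟩
      exact e ▸ h

end Vale.Agent.P109
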